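import Vale.Agent.P347.Defs

open MeasureTheory ProbabilityTheory Filter
open scoped ENNReal ContDiff

namespace Vale.Agent.P347

variable {d : ℕ}

/-! ### Gaussians and the dual Wasserstein distance -/

/-- standard Gaussian -/
noncomputable abbrev gam (d : ℕ) : Measure (E d) := stdGaussian (E d)

/-- law of c + s ξ -/
noncomputable def Nm (c : E d) (s : ℝ) : Measure (E d) := (gam d).map fun ξ => c + s • ξ

/-- bounded 1-Lipschitz test functions -/
def BL (f : E d → ℝ) : Prop := LipschitzWith 1 f ∧ ∃ M : ℝ, ∀ x, |f x| ≤ M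

/-- dual form of the Wasserstein-1 distance -/
noncomputable def Wd (μ ν : Measure (E d)) : ℝ≥0∞ :=
  ⨆ (f : E d → ℝ) (_ : BL f), ENNReal.ofReal |∫ x, f x ∂μ - ∫ x, f x ∂ν|

/-- the error weight -/
noncomputable def RR (c : E d) : ℝ := √(d : ℝ) + ‖c‖

/-! ### Heat smoothed potentials -/

/-- C^2 with 0 ≤ Hess ≤ ε -/
def Conv (ε : ℝ) (W : E d → ℝ) : Prop :=
  ContDiff ℝ 2 W ∧ ∀ x v : E d, 0 ≤ iteratedFDeriv ℝ 2 W x ![v, v] ∧
    iteratedFDeriv ℝ 2 W x ![v, v] ≤ ε * ‖v‖ ^ 2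

/-- W_t (z) = - log E exp (- W (z + √t ξ)) -/
noncomputable def Wt (W : E d → ℝ) (t : ℝ) (z : E d) : ℝ :=
  -Real.log (∫ ξ, Real.exp (-W (z + √t • ξ)) ∂(gam d))

/-- gradient of W_t -/
noncomputable def mm (W : E d → ℝ) (t : ℝ) (z : E d) : E d := gradient (Wt W t) z

/-- Hessian of W_t -/
noncomputable def KK (W : E d → ℝ) (t : ℝ) (z : E d) : E d →L[ℝ] E d := fderiv ℝ (mm W t) z

/-- posterior law with density proportional to exp (- |x - z|^2 / (2 t) - W x) -/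
noncomputable def post (W : E d → ℝ) (t : ℝ) (z : E d) : Measure (E d) :=
  gibbs fun x => ‖x - z‖ ^ 2 / (2 * t) + W x

/-- the Gibbs law convolved with N(0, τ) -/
noncomputable def piT (V : E d → ℝ) (τ : ℝ) : Measure (E d) :=
  ((gibbs V).prod (gam d)).map fun p => p.1 + √τ • p.2

/-- law of the normalized observation at radius u for the ball with center c and variance τ -/
noncomputable def rho (V : E d → ℝ) (c : E d) (τ u : ℝ) : Measure (E d) :=
  (gam d).withDensity fun w =>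
    ENNReal.ofReal (Real.exp (Wt V τ c - Wt V (τ * (1 - u ^ 2)) (c + (√τ * u) • w)))

/-! ### Partial derivatives -/

/-- basis vector -/
noncomputable abbrev ee (i : Fin d) : E d := EuclideanSpace.single i 1

/-- partial derivative on E d -/
noncomputable def D1 (i : Fin d) (F : E d → ℝ) : E d → ℝ := fun z => fderiv ℝ F z (ee i)

/-- iterated partial derivative along a list -/
noncomputable def D1L (l : List (Fin d)) (F : E d → ℝ) : E d → ℝ := l.foldr D1 F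

/-- space derivative on ℝ × E d -/
noncomputable def Dz (i : Fin d) (F : ℝ × E d → ℝ) : ℝ × E d → ℝ :=
  fun p => fderiv ℝ F p (0, ee i)

/-- time derivative on ℝ × E d -/
noncomputable def Dt (F : ℝ × E d → ℝ) : ℝ × E d → ℝ := fun p => fderiv ℝ F p (1, 0)

/-- bump function used to cap the radius -/
noncomputable def bump : ContDiffBump (0 : ℝ) := ⟨3 / 5, 4 / 5, by norm_num, by norm_num⟩

/-- the capped radius: equal to s on [-3/5, 3/5], smooth, of absolute value at most 4/5 -/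
noncomputable def uu (s : ℝ) : ℝ := s * bump s

/-- matricization bounds for all derivatives of order at least two -/
def TensBound (C : ℕ → ℝ) (ε : ℝ) (F : E d → ℝ) : Prop :=
  ∀ (p q : ℕ) (z : E d) (A : (Fin (p + 1) → Fin d) → ℝ) (B : (Fin (q + 1) → Fin d) → ℝ),
    |∑ a, ∑ b, A a * B b * D1L (List.ofFn a ++ List.ofFn b) F z|
      ≤ C (p + q) * ε * √(∑ a, A a ^ 2) * √(∑ b, B b ^ 2)

/-- the package of facts on the time dependent potential -/
structure Pkg (C : ℕ → ℝ) (ε : ℝ) (Φ : ℝ × E d → ℝ) : Prop where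
  smooth : ContDiff ℝ ∞ Φ
  pde : ∀ p : ℝ × E d, Dt Φ p =
    -(uu p.1 * deriv uu p.1) * (∑ i, Dz i (Dz i Φ) p - ∑ i, (Dz i Φ p) ^ 2)
  tens : ∀ s : ℝ, |s| ≤ 1 / 2 → TensBound C ε fun z => Φ (s, z)

/-- the time dependent potential of W -/
noncomputable def PhiOf (W : E d → ℝ) : ℝ × E d → ℝ := fun p => Wt W (1 - uu p.1 ^ 2) p.2

/-! ### The feedback flow -/

/-- time, position, budget variable -/
abbrev XX (d : ℕ) : Type := ℝ × E d × E d

noncomputable def lift (F : ℝ × E d → ℝ) : XX d → ℝ := fun x => F (x.1, uu x.1 • x.2.1)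

noncomputable def Gx (Φ : ℝ × E d → ℝ) (i : Fin d) : XX d → ℝ := lift (Dz i Φ)

noncomputable def Kx (Φ : ℝ × E d → ℝ) (i j : Fin d) : XX d → ℝ := lift (Dz i (Dz j Φ))

noncomputable def Lx (Φ : ℝ × E d → ℝ) (j : Fin d) : XX d → ℝ := fun x =>
  ∑ i, ((x.2.1 i + uu x.1 * Gx Φ i x) * Kx Φ i j x - uu x.1 * lift (Dz i (Dz i (Dz j Φ))) x)

noncomputable def Px (Φ : ℝ × E d → ℝ) (i : Fin d) : XX d → ℝ := fun x =>
  ∑ j, Kx Φ i j x * x.2.2 j

noncomputable def Qx (Φ : ℝ × E d → ℝ) (i : Fin d) : XX d → ℝ := fun x =>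
  ∑ j, Kx Φ i j x * Px Φ j x

noncomputable def Fy (Φ : ℝ × E d → ℝ) (lam : ℝ) (x : XX d) : E d :=
  WithLp.toLp 2 fun i => -(deriv uu x.1 * Gx Φ i x) - lam * Px Φ i x

noncomputable def Fe (Φ : ℝ × E d → ℝ) (lam : ℝ) (x : XX d) : E d :=
  WithLp.toLp 2 fun j => lam * Lx Φ j x

/-- the vector field of the feedback flow -/
noncomputable def FF (Φ : ℝ × E d → ℝ) (lam : ℝ) (x : XX d) : E d × E d :=
  (Fy Φ lam x, Fe Φ lam x)

/-- total derivative along the feedback flow -/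
noncomputable def DD (Φ : ℝ × E d → ℝ) (lam : ℝ) (f : XX d → ℝ) : XX d → ℝ :=
  fun x => fderiv ℝ f x (1, FF Φ lam x)

/-- the transported density -/
noncomputable def dens (Φ : ℝ × E d → ℝ) (x : XX d) : ℝ :=
  Real.exp (-‖x.2.1‖ ^ 2 / 2 - lift Φ x - ‖x.2.2‖ ^ 2 / 2)

noncomputable def muS (Φ : ℝ × E d → ℝ) (s : ℝ) : Measure (E d × E d) :=
  ((volume : Measure (E d)).prod (volume : Measure (E d))).withDensity fun q =>
    ENNReal.ofReal (dens Φ (s, q))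

/-! ### Query programs and simulators -/

abbrev Pot (d : ℕ) : Type := {V : E d → ℝ // IsPotential V}

/-- f is computed with q oracle queries -/
def Comp {α : Type} [MeasurableSpace α] :
    ℕ → (S : Type) → [MeasurableSpace S] → (Pot d → S → α) → Prop
  | 0, S, _, f => ∃ o : S → α, Measurable o ∧ ∀ V s, f V s = o s
  | q + 1, S, _, f => ∃ x : S → E d, Measurable x ∧ ∃ g : Pot d → S × (ℝ × E d) → α,
      Comp q (S × (ℝ × E d)) g ∧ ∀ V s, f V s = g V (s, (V.1 (x s), gradient V.1 (x s)))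

/-- the laws of the inputs: fresh Gaussian seeds, or graded copies of the ports -/
noncomputable def feed {ι P : Type} (pt : ι → Option P) (gr : ι → ℕ)
    (μ : P → ℕ → Measure (E d)) (i : ι) : Measure (E d) :=
  (pt i).elim (gam d) fun p => μ p (gr i)

/-- L is a law transformer realized with at most q queries, total graded Lipschitz weight at most
Λ and total graded number of port copies at most N. -/
def Sim (g om : ℝ) (P : Type) (q Λ N : ℝ)
    (L : Pot d → (P → ℕ → Measure (E d)) → Measure (E d)) : Prop :=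
  ∃ (ι : Type) (_ : Fintype ι) (pt : ι → Option P) (gr : ι → ℕ) (l : ι → ℝ) (q₀ : ℕ)
    (f : Pot d → (ι → E d) → E d),
    (q₀ : ℝ) ≤ q ∧ Comp q₀ (ι → E d) f ∧ (∀ i, 0 ≤ l i) ∧
    (∀ V b b', (∀ i, pt i = none → b i = b' i) → ‖f V b - f V b'‖ ≤ ∑ i, l i * ‖b i - b' i‖) ∧
    (∑ i, (pt i).elim 0 (fun _ => l i * g⁻¹ ^ gr i) ≤ Λ) ∧
    (∑ i, (pt i).elim 0 (fun _ => om⁻¹ ^ gr i) ≤ N) ∧
    ∀ V μ, (∀ p j, IsProbabilityMeasure (μ p j)) →
      L V μ = (Measure.pi (feed pt gr μ)).map (f V)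

/-! ### Interpolation weights and node data of a flow -/

/-- interpolation weights on the nodes l / n -/
structure Weights (n : ℕ) (Cw : ℝ) (w w' : Fin (n + 1) → Fin (n + 1) → ℝ)
    (d1 d2 : Fin (n + 1) → ℝ) : Prop where
  bw : ∀ i, ∑ l, |w i l| ≤ Cw
  bw' : ∀ i, ∑ l, |w' i l| ≤ Cw
  bd1 : ∑ l, |d1 l| ≤ Cw
  bd2 : ∑ l, |d2 l| ≤ Cw
  ew : ∀ (i : Fin (n + 1)) (k : ℕ), k ≤ n →
    ∑ l, w i l * ((l : ℝ) / n) ^ k = ((i : ℝ) / n) ^ (k + 1) / (k + 1)
  ew' : ∀ (i : Fin (n + 1)) (k : ℕ), k ≤ n →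
    ∑ l, w' i l * ((l : ℝ) / n) ^ k = ((i : ℝ) / n) ^ (k + 2) / (k + 2)
  ed1 : ∀ k : ℕ, k ≤ n → ∑ l, d1 l * ((l : ℝ) / n) ^ k = if k = 1 then 1 else 0
  ed2 : ∀ k : ℕ, k ≤ n → ∑ l, d2 l * ((l : ℝ) / n) ^ k = if k = 2 then 2 else 0

/-- radius of node l -/
noncomputable def nod (n : ℕ) (β : ℝ) (l : Fin (n + 1)) : ℝ := (l : ℝ) / n * β

/-- variance at node l -/
noncomputable def tn (n : ℕ) (β τ : ℝ) (l : Fin (n + 1)) : ℝ := τ * (1 - nod n β l ^ 2)

/-- Node data of the feedback flow: Yc l is the center and Hn l the budget variable at node l,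
as functions of the Gaussian seeds. -/
structure FlowData (n : ℕ) (w w' : Fin (n + 1) → Fin (n + 1) → ℝ) (d1 d2 : Fin (n + 1) → ℝ)
    (Cf : ℝ) (V : E d → ℝ) (c : E d) (τ β a : ℝ) (Xi : E d → E d)
    (Yc Hn : Fin (n + 1) → E d × E d → E d) : Prop where
  contY : ∀ l, Continuous (Yc l)
  contH : ∀ l, Continuous (Hn l)
  contXi : Continuous Xi
  init : ∀ x, Yc 0 x = c
  law : ∀ l, ((gam d).prod (gam d)).map (fun x => (Yc l x, Hn l x)) =
    ((rho V c τ (nod n β l)).map fun w => c + (√τ * nod n β l) • w).prod (gam d)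
  errY : ∀ i, ∫⁻ x, ‖Yc i x - (c + (√τ * nod n β i) • x.1 - ∑ l, (τ * nod n β i * β * w i l) •
      (mm V (tn n β τ l) (Yc l x) + a • KK V (tn n β τ l) (Yc l x) (Hn l x)))‖ₑ
      ∂((gam d).prod (gam d)) ≤ ENNReal.ofReal (Cf * √τ * β ^ (n + 1) * √(d : ℝ))
  errH : ∀ i, ∫⁻ x, ‖Hn i x - (x.2 + ∑ l, (a ^ 2 * τ * β ^ 2 * w' i l) •
      KK V (tn n β τ l) (Yc l x) (KK V (tn n β τ l) (Yc l x) (Hn l x))
        + a • (mm V (tn n β τ i) (Yc i x) - mm V τ c))‖ₑ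
      ∂((gam d).prod (gam d)) ≤ ENNReal.ofReal (Cf * (a ^ 2 * τ) * β ^ (n + 1) * √(d : ℝ))
  errP : ∫⁻ x, ‖(β * √τ) • KK V τ c x.1 - ∑ l, d1 l • mm V (tn n β τ l) (Yc l x)‖ₑ
      ∂((gam d).prod (gam d)) ≤ ENNReal.ofReal (Cf * √τ * β ^ (n + 1) * √(d : ℝ))
  errQ : ∫⁻ x, ‖(Xi x.1 - (2 * a * τ * β ^ 2) • KK V τ c (KK V τ c x.2))
        - ∑ l, d2 l • mm V (tn n β τ l) (Yc l x)‖ₑ
      ∂((gam d).prod (gam d)) ≤ ENNReal.ofReal (Cf * √τ * β ^ (n + 1) * √(d : ℝ))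

end Vale.Agent.P347
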