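import Mathlib

open MeasureTheory Filter

namespace Vale.Agent.P347

/-- Euclidean space of dimension d. -/
abbrev E (d : ℕ) : Type := EuclideanSpace ℝ (Fin d)

/-- The class of potentials: V is C^2, V 0 = 0, grad V 0 = 0 and I ≤ Hess V ≤ 2 I everywhere. -/
def IsPotential {d : ℕ} (V : E d → ℝ) : Prop :=
  ContDiff ℝ 2 V ∧ V 0 = 0 ∧ gradient V 0 = 0 ∧
    ∀ x v : E d, ‖v‖ ^ 2 ≤ iteratedFDeriv ℝ 2 V x ![v, v] ∧
      iteratedFDeriv ℝ 2 V x ![v, v] ≤ 2 * ‖v‖ ^ 2

/-- The Gibbs law with density proportional to exp (-V). -/
noncomputable def gibbs {d : ℕ} (V : E d → ℝ) : Measure (E d) :=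
  (∫⁻ x, ENNReal.ofReal (Real.exp (-V x)))⁻¹ •
    (volume : Measure (E d)).withDensity fun x => ENNReal.ofReal (Real.exp (-V x))

/-- A randomized adaptive first-order algorithm: a random seed, measurable maps giving the
i-th query point from the seed and the record of the oracle answers, and a measurable output map. -/
structure Algorithm (d : ℕ) : Type 1 where
  Seed : Type
  mSeed : MeasurableSpace Seed
  P : @Measure Seed mSeed
  prob : @IsProbabilityMeasure Seed mSeed P
  query : ℕ → Seed × (ℕ → ℝ × E d) → E d
  out : Seed × (ℕ → ℝ × E d) → E d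
  query_meas : ∀ i, @Measurable _ _ (@Prod.instMeasurableSpace _ _ mSeed _) _ (query i)
  out_meas : @Measurable _ _ (@Prod.instMeasurableSpace _ _ mSeed _) _ out

/-- The record of oracle answers after i queries: entry j < i is the answer (V x, grad V x) to
the j-th query point x, the other entries are 0. -/
noncomputable def history {d : ℕ} (A : Algorithm d) (V : E d → ℝ) (s : A.Seed) :
    ℕ → (ℕ → ℝ × E d)
  | 0 => fun _ => 0
  | i + 1 => Function.update (history A V s i) i
      (V (A.query i (s, history A V s i)), gradient V (A.query i (s, history A V s i)))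

/-- Some algorithm making q queries outputs, for every potential V, a point whose law is within
total variation 1/10 of the Gibbs law of V. -/
def Achievable (d q : ℕ) : Prop :=
  ∃ A : Algorithm d, ∀ V : E d → ℝ, IsPotential V → ∀ B : Set (E d), MeasurableSet B →
    |(A.P {s | A.out (s, history A V s q) ∈ B}).toReal - (gibbs V B).toReal| ≤ 1 / 10

/-- The query complexity Q(d). -/
noncomputable def queryComplexity (d : ℕ) : ℕ := sInf {q | Achievable d q}

end Vale.Agent.P347
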