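import Mathlib

open MeasureTheory Filter Set Topology
open scoped ENNReal ContDiff

namespace Vale.Agent.P347.DivA

variable {X : Type*} [NormedAddCommGroup X] [NormedSpace ℝ X]

/-- directional derivative -/
noncomputable def DA (v : X) (f : X → ℝ) : X → ℝ := fun x => fderiv ℝ f x v

theorem diffAt {f : X → ℝ} (hf : ContDiff ℝ ∞ f) (x : X) : DifferentiableAt ℝ f x :=
  hf.differentiable (by simp) x

theorem DA_smooth {f : X → ℝ} (hf : ContDiff ℝ ∞ f) (v : X) : ContDiff ℝ ∞ (DA v f) :=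
  (hf.fderiv_right (m := ∞) (le_of_eq rfl)).clm_apply contDiff_const

theorem DA_mul {f g : X → ℝ} (hf : ContDiff ℝ ∞ f) (hg : ContDiff ℝ ∞ g) (v x : X) :
    DA v (fun y => f y * g y) x = DA v f x * g x + f x * DA v g x := by
  unfold DA
  rw [fderiv_fun_mul (diffAt hf x) (diffAt hg x)]
  simp only [add_apply, smul_apply, smul_eq_mul]
  ring

theorem DA_add {f g : X → ℝ} (hf : ContDiff ℝ ∞ f) (hg : ContDiff ℝ ∞ g) (v x : X) :
    DA v (fun y => f y + g y) x = DA v f x + DA v g x := by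
  unfold DA
  rw [fderiv_fun_add (diffAt hf x) (diffAt hg x)]
  rfl

theorem DA_sub {f g : X → ℝ} (hf : ContDiff ℝ ∞ f) (hg : ContDiff ℝ ∞ g) (v x : X) :
    DA v (fun y => f y - g y) x = DA v f x - DA v g x := by
  unfold DA
  rw [fderiv_fun_sub (diffAt hf x) (diffAt hg x)]
  rfl

theorem DA_sum {ι : Type*} [Fintype ι] {f : ι → X → ℝ} (hf : ∀ i, ContDiff ℝ ∞ (f i)) (v x : X) :
    DA v (fun y => ∑ i, f i y) x = ∑ i, DA v (f i) x := by
  unfold DA
  rw [fderiv_fun_sum fun i _ => diffAt (hf i) x]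
  simp

theorem DA_comm {f : X → ℝ} (hf : ContDiff ℝ ∞ f) (v w x : X) :
    DA v (DA w f) x = DA w (DA v f) x := by
  have hd : DifferentiableAt ℝ (fderiv ℝ f) x :=
    ((hf.fderiv_right (m := ∞) (le_of_eq rfl)).differentiable (by simp)) x
  have key : ∀ a b : X, DA a (DA b f) x = fderiv ℝ (fderiv ℝ f) x a b := by
    intro a b
    unfold DA
    rw [fderiv_clm_apply hd (differentiableAt_const b)]
    simp
  rw [key, key]
  have h2 : ContDiffAt ℝ 2 f x := hf.contDiffAt.of_le (WithTop.coe_le_coe.2 (le_top (a := (2 : ℕ∞))))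
  exact (h2.isSymmSndFDerivAt (by simp)) v w

theorem DA_congr {f g : X → ℝ} {x : X} (h : f =ᶠ[𝓝 x] g) (v : X) : DA v f x = DA v g x := by
  unfold DA
  rw [h.fderiv_eq]

theorem DA_cs {f : X → ℝ} (hc : HasCompactSupport f) (v : X) : HasCompactSupport (DA v f) :=
  hc.fderiv_apply ℝ v

omit [NormedSpace ℝ X] in
theorem cs_sum {ι : Type*} [Fintype ι] {f : ι → X → ℝ} (hc : ∀ i, HasCompactSupport (f i)) :
    HasCompactSupport fun x => ∑ i, f i x := by
  classical
  have : ∀ s : Finset ι, HasCompactSupport fun x => ∑ i ∈ s, f i x := by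
    intro s
    induction s using Finset.induction_on with
    | empty =>
      simp only [Finset.sum_empty]
      exact HasCompactSupport.zero
    | insert a s ha ih =>
      simp only [Finset.sum_insert ha]
      exact (hc a).add ih
  exact this _

variable {ι : Type*} [Fintype ι]

/-- the divergence operator -/
noncomputable def dv (b : ι → X) (g f : ι → X → ℝ) : X → ℝ :=
  fun x => ∑ l, (g l x * f l x - DA (b l) (f l) x)

theorem dv_smooth (b : ι → X) {g f : ι → X → ℝ} (hg : ∀ l, ContDiff ℝ ∞ (g l))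
    (hf : ∀ l, ContDiff ℝ ∞ (f l)) : ContDiff ℝ ∞ (dv b g f) :=
  ContDiff.sum fun l _ => ((hg l).mul (hf l)).sub (DA_smooth (hf l) _)

theorem dv_cs (b : ι → X) (g : ι → X → ℝ) {f : ι → X → ℝ} (hc : ∀ l, HasCompactSupport (f l)) :
    HasCompactSupport (dv b g f) :=
  cs_sum fun l => ((hc l).mul_left (f := g l)).sub (DA_cs (hc l) _)

/-- the vector field whose divergence is the defect -/
noncomputable def WW (b : ι → X) (g f : ι → X → ℝ) (p : X → ℝ) (l : ι) : X → ℝ :=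
  fun x => (f l x * dv b g f x + ∑ m, DA (b m) (f l) x * f m x) * p x

theorem pointwise (b : ι → X) {g f : ι → X → ℝ} {p : X → ℝ} (hg : ∀ l, ContDiff ℝ ∞ (g l))
    (hf : ∀ l, ContDiff ℝ ∞ (f l)) (hp : ContDiff ℝ ∞ p)
    (hD : ∀ l x, DA (b l) p x = -(g l x * p x)) (x : X) :
    dv b g f x ^ 2 * p x + ∑ l, DA (b l) (WW b g f p l) x =
      (∑ l, ∑ m, f l x * f m x * DA (b l) (g m) x
        + ∑ l, ∑ m, DA (b m) (f l) x * DA (b l) (f m) x) * p x := by
  have hh := dv_smooth b hg hf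
  have hDh : ∀ l, DA (b l) (dv b g f) x =
      ∑ m, (DA (b l) (g m) x * f m x + g m x * DA (b l) (f m) x - DA (b l) (DA (b m) (f m)) x) := by
    intro l
    unfold dv
    rw [DA_sum fun m => ((hg m).mul (hf m)).sub (DA_smooth (hf m) _)]
    refine Finset.sum_congr rfl fun m _ => ?_
    rw [DA_sub ((hg m).mul (hf m)) (DA_smooth (hf m) _), DA_mul (hg m) (hf m)]
  have hW : ∀ l, DA (b l) (WW b g f p l) x =
      (-((g l x * f l x - DA (b l) (f l) x) * dv b g f x)
        + ∑ m, f l x * f m x * DA (b l) (g m) x + ∑ m, DA (b m) (f l) x * DA (b l) (f m) x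
        + (∑ m, f l x * g m x * DA (b l) (f m) x - ∑ m, f m x * g l x * DA (b m) (f l) x)
        + (∑ m, f m x * DA (b m) (DA (b l) (f l)) x - ∑ m, f l x * DA (b l) (DA (b m) (f m)) x))
        * p x := by
    intro l
    have hs : ContDiff ℝ ∞ fun x => ∑ m, DA (b m) (f l) x * f m x :=
      ContDiff.sum fun m _ => (DA_smooth (hf l) _).mul (hf m)
    unfold WW
    rw [DA_mul (((hf l).mul hh).add hs) hp, DA_add ((hf l).mul hh) hs, DA_mul (hf l) hh, hDh,
      DA_sum fun m => (DA_smooth (hf l) _).mul (hf m), hD]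
    have e1 : ∀ m, DA (b l) (fun x => DA (b m) (f l) x * f m x) x =
        f m x * DA (b m) (DA (b l) (f l)) x + DA (b m) (f l) x * DA (b l) (f m) x := by
      intro m
      rw [DA_mul (DA_smooth (hf l) _) (hf m), DA_comm (hf l) (b l) (b m)]
      ring
    simp only [e1]
    have e2 : f l x * ∑ m, (DA (b l) (g m) x * f m x + g m x * DA (b l) (f m) x
        - DA (b l) (DA (b m) (f m)) x) = ∑ m, f l x * f m x * DA (b l) (g m) x
          + ∑ m, f l x * g m x * DA (b l) (f m) x - ∑ m, f l x * DA (b l) (DA (b m) (f m)) x := by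
      rw [Finset.mul_sum, ← Finset.sum_add_distrib, ← Finset.sum_sub_distrib]
      exact Finset.sum_congr rfl fun m _ => by ring
    have e3 : (∑ m, DA (b m) (f l) x * f m x) * g l x = ∑ m, f m x * g l x * DA (b m) (f l) x := by
      rw [Finset.sum_mul]
      exact Finset.sum_congr rfl fun m _ => by ring
    rw [e2, Finset.sum_add_distrib, ← e3]
    ring
  simp only [hW]
  rw [← Finset.sum_mul]
  simp only [Finset.sum_add_distrib, Finset.sum_sub_distrib]
  rw [Finset.sum_comm (f := fun l m => f m x * g l x * DA (b m) (f l) x),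
    Finset.sum_comm (f := fun l m => f m x * DA (b m) (DA (b l) (f l)) x), sub_self, sub_self,
    Finset.sum_neg_distrib, ← Finset.sum_mul]
  change dv b g f x ^ 2 * p x + (-(dv b g f x * dv b g f x) + _ + _ + 0 + 0) * p x = _
  ring

theorem cross_le (a : ι → ι → ℝ) : ∑ l, ∑ m, a l m * a m l ≤ ∑ l, ∑ m, a l m ^ 2 := by
  have h1 : ∑ l, ∑ m, a l m * a m l ≤ ∑ l, ∑ m, (a l m ^ 2 + a m l ^ 2) / 2 :=
    Finset.sum_le_sum fun l _ => Finset.sum_le_sum fun m _ => by
      nlinarith only [sq_nonneg (a l m - a m l)]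
  have h2 : ∑ l, ∑ m, (a l m ^ 2 + a m l ^ 2) / 2 = ∑ l, ∑ m, a l m ^ 2 := by
    simp only [← Finset.sum_div, Finset.sum_add_distrib]
    rw [Finset.sum_comm (f := fun l m => a m l ^ 2)]
    ring
  exact h2 ▸ h1

/-- the right side -/
noncomputable def GG (b : ι → X) (κ : ℝ) (f : ι → X → ℝ) : X → ℝ :=
  fun x => κ * ∑ l, f l x ^ 2 + ∑ l, ∑ m, DA (b m) (f l) x ^ 2

theorem GG_nonneg (b : ι → X) {κ : ℝ} (hκ : 0 ≤ κ) (f : ι → X → ℝ) (x : X) : 0 ≤ GG b κ f x :=
  add_nonneg (mul_nonneg hκ (Finset.sum_nonneg fun _ _ => sq_nonneg _))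
    (Finset.sum_nonneg fun _ _ => Finset.sum_nonneg fun _ _ => sq_nonneg _)

theorem GG_cont (b : ι → X) (κ : ℝ) {f : ι → X → ℝ} (hf : ∀ l, ContDiff ℝ ∞ (f l)) :
    Continuous (GG b κ f) :=
  (continuous_const.mul (continuous_finsetSum _ fun l _ => (hf l).continuous.pow 2)).add
    (continuous_finsetSum _ fun l _ => continuous_finsetSum _ fun _ _ =>
      (DA_smooth (hf l) _).continuous.pow 2)

omit [NormedSpace ℝ X] in
theorem cs_sq {f : X → ℝ} (hc : HasCompactSupport f) : HasCompactSupport fun x => f x ^ 2 := by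
  simp only [sq]
  exact hc.mul_left (f := f)

variable [FiniteDimensional ℝ X] [MeasurableSpace X] [BorelSpace X] {μ : Measure X}
  [μ.IsAddHaarMeasure]

theorem integral_DA {f : X → ℝ} (hf : ContDiff ℝ ∞ f) (hc : HasCompactSupport f) (v : X) :
    ∫ x, DA v f x ∂μ = 0 := by
  have hi : Integrable (DA v f) μ :=
    (DA_smooth hf v).continuous.integrable_of_hasCompactSupport (DA_cs hc v)
  have := integral_mul_fderiv_eq_neg_fderiv_mul_of_integrable (μ := μ) (f := fun _ : X => (1 : ℝ))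
    (g := f) (v := v) (by simp) (by simp only [one_mul]; exact hi)
    (by simpa using hf.continuous.integrable_of_hasCompactSupport hc)
    (fun x _ => differentiableAt_const _) (fun x _ => diffAt hf x)
  simpa [DA] using this

omit [NormedSpace ℝ X] [FiniteDimensional ℝ X] [μ.IsAddHaarMeasure] in
theorem lint_eq {F p : X → ℝ} (hF : Continuous F) (hp : Continuous p) (hF0 : ∀ x, 0 ≤ F x)
    (hp0 : ∀ x, 0 ≤ p x) (hi : Integrable (fun x => F x * p x) μ) :
    ∫⁻ x, ENNReal.ofReal (F x) ∂(μ.withDensity fun x => ENNReal.ofReal (p x))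
      = ENNReal.ofReal (∫ x, F x * p x ∂μ) := by
  rw [lintegral_withDensity_eq_lintegral_mul _ hp.measurable.ennreal_ofReal
    hF.measurable.ennreal_ofReal,
    ofReal_integral_eq_lintegral_ofReal hi (ae_of_all _ fun x => mul_nonneg (hF0 x) (hp0 x))]
  refine lintegral_congr fun x => ?_
  rw [Pi.mul_apply, mul_comm (F x), ENNReal.ofReal_mul (hp0 x)]

theorem compact_case (b : ι → X) {g f : ι → X → ℝ} {p : X → ℝ} {κ : ℝ} (hκ : 0 ≤ κ)
    (hg : ∀ l, ContDiff ℝ ∞ (g l)) (hf : ∀ l, ContDiff ℝ ∞ (f l)) (hp : ContDiff ℝ ∞ p)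
    (hp0 : ∀ x, 0 ≤ p x) (hD : ∀ l x, DA (b l) p x = -(g l x * p x))
    (hK : ∀ x (v : ι → ℝ), ∑ l, ∑ m, v l * v m * DA (b l) (g m) x ≤ κ * ∑ l, v l ^ 2)
    (hc : ∀ l, HasCompactSupport (f l)) :
    ∫⁻ x, ENNReal.ofReal (dv b g f x ^ 2) ∂(μ.withDensity fun x => ENNReal.ofReal (p x))
      ≤ ∫⁻ x, ENNReal.ofReal (GG b κ f x) ∂(μ.withDensity fun x => ENNReal.ofReal (p x)) := by
  have hh := dv_smooth b hg hf
  have hhc := dv_cs b g hc
  have i1 : Integrable (fun x => dv b g f x ^ 2 * p x) μ :=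
    ((hh.continuous.pow 2).mul hp.continuous).integrable_of_hasCompactSupport
      ((cs_sq hhc).mul_right (f' := p))
  have hGc : HasCompactSupport (GG b κ f) :=
    ((cs_sum fun l => cs_sq (hc l)).mul_left (f := fun _ => κ)).add
      (cs_sum fun l => cs_sum fun m => cs_sq (DA_cs (hc l) _))
  have i2 : Integrable (fun x => GG b κ f x * p x) μ :=
    ((GG_cont b κ hf).mul hp.continuous).integrable_of_hasCompactSupport (hGc.mul_right (f' := p))
  have hWs : ∀ l, ContDiff ℝ ∞ (WW b g f p l) := fun l =>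
    (((hf l).mul hh).add (ContDiff.sum fun m _ => (DA_smooth (hf l) _).mul (hf m))).mul hp
  have hWc : ∀ l, HasCompactSupport (WW b g f p l) := fun l =>
    (((hc l).mul_right (f' := dv b g f)).add
      (cs_sum fun m => (hc m).mul_left (f := DA (b m) (f l)))).mul_right (f' := p)
  have i3 : ∀ l, Integrable (DA (b l) (WW b g f p l)) μ := fun l =>
    (DA_smooth (hWs l) _).continuous.integrable_of_hasCompactSupport (DA_cs (hWc l) _)
  rw [lint_eq (F := fun x => dv b g f x ^ 2) (hh.continuous.pow 2) hp.continuous (fun x => sq_nonneg _) hp0 i1,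
    lint_eq (GG_cont b κ hf) hp.continuous (GG_nonneg b hκ f) hp0 i2]
  apply ENNReal.ofReal_le_ofReal
  have i4 : Integrable (fun x => ∑ l, DA (b l) (WW b g f p l) x) μ :=
    integrable_finsetSum _ fun l _ => i3 l
  have e : ∫ x, dv b g f x ^ 2 * p x ∂μ
      = ∫ x, (dv b g f x ^ 2 * p x + ∑ l, DA (b l) (WW b g f p l) x) ∂μ := by
    rw [integral_add i1 i4, integral_finsetSum _ fun l _ => i3 l]
    simp only [fun l => integral_DA (μ := μ) (hWs l) (hWc l) (b l)]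
    simp
  rw [e]
  refine integral_mono (i1.add i4) i2 fun x => ?_
  beta_reduce
  rw [pointwise b hg hf hp hD x]
  exact mul_le_mul_of_nonneg_right
    (add_le_add (hK x fun l => f l x) (cross_le fun l m => DA (b m) (f l) x)) (hp0 x)

omit [MeasurableSpace X] [BorelSpace X] in
/-- cutoff functions -/
theorem exists_cutoff (b : ι → X) : ∃ (c : ℝ) (χ : ℕ → X → ℝ), (∀ n, ContDiff ℝ ∞ (χ n)) ∧
    (∀ n, HasCompactSupport (χ n)) ∧ (∀ n x, χ n x ^ 2 ≤ 1) ∧
    (∀ n x, ∑ m, DA (b m) (χ n) x ^ 2 ≤ c) ∧ ∀ x, ∀ᶠ n in atTop, χ n =ᶠ[𝓝 x] fun _ => 1 := by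
  let φ : ContDiffBump (0 : X) := ⟨1, 2, one_pos, one_lt_two⟩
  have hφ : ContDiff ℝ ∞ φ := φ.contDiff
  have hb : ∀ m, ∃ c, ∀ x, ‖DA (b m) φ x‖ ≤ c := fun m =>
    (DA_cs φ.hasCompactSupport (b m)).exists_bound_of_continuous (DA_smooth hφ _).continuous
  choose c hc using hb
  have hpos : ∀ n : ℕ, (0 : ℝ) < (n : ℝ) + 1 := fun n => Nat.cast_add_one_pos n
  refine ⟨∑ m, c m ^ 2, fun n x => φ (((n : ℝ) + 1)⁻¹ • x),
    fun n => hφ.comp (contDiff_const_smul _), fun n => ?_, fun n x => ?_, fun n x => ?_,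
    fun x => ?_⟩
  · exact φ.hasCompactSupport.comp_smul (inv_ne_zero (hpos n).ne')
  · have h1 := φ.nonneg (x := ((n : ℝ) + 1)⁻¹ • x)
    have h2 := φ.le_one (x := ((n : ℝ) + 1)⁻¹ • x)
    nlinarith only [h1, h2]
  · refine Finset.sum_le_sum fun m _ => ?_
    have e : DA (b m) (fun x => φ (((n : ℝ) + 1)⁻¹ • x)) x
        = ((n : ℝ) + 1)⁻¹ * DA (b m) φ (((n : ℝ) + 1)⁻¹ • x) := by
      unfold DA
      have h1 : HasFDerivAt (fun x : X => ((n : ℝ) + 1)⁻¹ • x)
          (((n : ℝ) + 1)⁻¹ • ContinuousLinearMap.id ℝ X) x :=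
        (hasFDerivAt_id x).const_smul _
      have h2 := ((diffAt hφ _).hasFDerivAt.comp x h1).fderiv
      have h3 : (fun x => φ (((n : ℝ) + 1)⁻¹ • x)) = φ ∘ fun x : X => ((n : ℝ) + 1)⁻¹ • x := rfl
      rw [h3, h2]
      simp
    rw [e]
    have h1 := hc m (((n : ℝ) + 1)⁻¹ • x)
    rw [Real.norm_eq_abs] at h1
    have h2 : DA (b m) φ (((n : ℝ) + 1)⁻¹ • x) ^ 2 ≤ c m ^ 2 := sq_le_sq' (abs_le.1 h1).1 (abs_le.1 h1).2
    have h3 : ((n : ℝ) + 1)⁻¹ ≤ 1 := inv_le_one_of_one_le₀ (by simp)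
    have h4 : 0 ≤ ((n : ℝ) + 1)⁻¹ := (inv_pos.2 (hpos n)).le
    have h5 : ((n : ℝ) + 1)⁻¹ ^ 2 ≤ 1 := pow_le_one₀ h4 h3
    rw [mul_pow]
    calc _ ≤ 1 * DA (b m) φ (((n : ℝ) + 1)⁻¹ • x) ^ 2 :=
          mul_le_mul_of_nonneg_right h5 (sq_nonneg _)
      _ ≤ _ := by rw [one_mul]; exact h2
  · obtain ⟨N, hN⟩ := exists_nat_gt ‖x‖
    filter_upwards [eventually_ge_atTop N] with n hn
    have hlt : ‖x‖ < (n : ℝ) + 1 := by
      have : (N : ℝ) ≤ n := Nat.cast_le.2 hn
      linarith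
    have hopen : ∀ᶠ y in 𝓝 x, ‖y‖ < (n : ℝ) + 1 :=
      continuous_norm.continuousAt.eventually (gt_mem_nhds hlt)
    filter_upwards [hopen] with y hy
    apply φ.one_of_mem_closedBall
    rw [mem_closedBall_zero_iff, norm_smul, Real.norm_eq_abs, abs_of_pos (inv_pos.2 (hpos n))]
    change _ ≤ 1
    rw [inv_mul_le_iff₀ (hpos n), mul_one]
    exact hy.le

theorem general_case (b : ι → X) {g f : ι → X → ℝ} {p : X → ℝ} {κ : ℝ} (hκ : 0 < κ)
    (hg : ∀ l, ContDiff ℝ ∞ (g l)) (hf : ∀ l, ContDiff ℝ ∞ (f l)) (hp : ContDiff ℝ ∞ p)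
    (hp0 : ∀ x, 0 ≤ p x) (hD : ∀ l x, DA (b l) p x = -(g l x * p x))
    (hK : ∀ x (v : ι → ℝ), ∑ l, ∑ m, v l * v m * DA (b l) (g m) x ≤ κ * ∑ l, v l ^ 2) :
    ∫⁻ x, ENNReal.ofReal (dv b g f x ^ 2) ∂(μ.withDensity fun x => ENNReal.ofReal (p x))
      ≤ ∫⁻ x, ENNReal.ofReal (GG b κ f x) ∂(μ.withDensity fun x => ENNReal.ofReal (p x)) := by
  set ν := μ.withDensity fun x => ENNReal.ofReal (p x) with hν
  by_cases hfin : ∫⁻ x, ENNReal.ofReal (GG b κ f x) ∂ν = ⊤
  · rw [hfin]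
    exact le_top
  obtain ⟨c, χ, hs, hc, h1, h2, h3⟩ := exists_cutoff b
  have hfn : ∀ n l, ContDiff ℝ ∞ fun x => χ n x * f l x := fun n l => (hs n).mul (hf l)
  have hev : ∀ x, ∀ᶠ n in atTop, ∀ l, (fun x => χ n x * f l x) =ᶠ[𝓝 x] f l := by
    intro x
    filter_upwards [h3 x] with n hn l
    filter_upwards [hn] with y hy
    rw [hy, one_mul]
  have hlim1 : ∀ x, ∀ᶠ n in atTop, dv b g (fun l x => χ n x * f l x) x = dv b g f x := by
    intro x
    filter_upwards [hev x] with n hn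
    unfold dv
    refine Finset.sum_congr rfl fun l _ => ?_
    beta_reduce
    rw [DA_congr (hn l), (hn l).eq_of_nhds]
  have hlim2 : ∀ x, ∀ᶠ n in atTop, GG b κ (fun l x => χ n x * f l x) x = GG b κ f x := by
    intro x
    filter_upwards [hev x] with n hn
    unfold GG
    simp only [fun l m => DA_congr (hn l) (b m), fun l => (hn l).eq_of_nhds]
  have hc0 : 0 ≤ c := le_trans (Finset.sum_nonneg fun _ _ => sq_nonneg _) (h2 0 0)
  have hM : 0 ≤ 2 + 2 * c / κ := by positivity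
  have hbd : ∀ n x, GG b κ (fun l x => χ n x * f l x) x ≤ (2 + 2 * c / κ) * GG b κ f x := by
    intro n x
    unfold GG
    have a1 : ∑ l, (χ n x * f l x) ^ 2 ≤ ∑ l, f l x ^ 2 := Finset.sum_le_sum fun l _ => by
      rw [mul_pow]
      exact mul_le_of_le_one_left (sq_nonneg _) (h1 n x)
    have a2 : ∑ l, ∑ m, DA (b m) (fun x => χ n x * f l x) x ^ 2
        ≤ ∑ l, ∑ m, (2 * (f l x ^ 2 * DA (b m) (χ n) x ^ 2) + 2 * DA (b m) (f l) x ^ 2) :=
      Finset.sum_le_sum fun l _ => Finset.sum_le_sum fun m _ => by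
        rw [DA_mul (hs n) (hf l)]
        have := mul_le_of_le_one_left (sq_nonneg (DA (b m) (f l) x)) (h1 n x)
        nlinarith only [this, sq_nonneg (DA (b m) (χ n) x * f l x - χ n x * DA (b m) (f l) x)]
    have a3 : ∑ l, ∑ m, (2 * (f l x ^ 2 * DA (b m) (χ n) x ^ 2) + 2 * DA (b m) (f l) x ^ 2)
        = 2 * ((∑ l, f l x ^ 2) * ∑ m, DA (b m) (χ n) x ^ 2)
          + 2 * ∑ l, ∑ m, DA (b m) (f l) x ^ 2 := by
      simp only [Finset.sum_add_distrib, ← Finset.mul_sum, ← Finset.sum_mul]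
    have hA : 0 ≤ ∑ l, f l x ^ 2 := Finset.sum_nonneg fun _ _ => sq_nonneg _
    have hB : 0 ≤ ∑ l, ∑ m, DA (b m) (f l) x ^ 2 :=
      Finset.sum_nonneg fun _ _ => Finset.sum_nonneg fun _ _ => sq_nonneg _
    have a4 := mul_le_mul_of_nonneg_left (h2 n x) hA
    have a5 := mul_le_mul_of_nonneg_left a1 hκ.le
    have a6 : 0 ≤ 2 * c / κ * ∑ l, ∑ m, DA (b m) (f l) x ^ 2 := mul_nonneg (by positivity) hB
    have a7 : 2 * c / κ * (κ * ∑ l, f l x ^ 2) = 2 * c * ∑ l, f l x ^ 2 := by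
      field_simp
    have a8 := mul_nonneg hκ.le hA
    nlinarith only [a2, a3, a4, a5, a6, a7, a8]
  have hGm : Measurable fun x => ENNReal.ofReal (GG b κ f x) :=
    (GG_cont b κ hf).measurable.ennreal_ofReal
  have hT : Tendsto (fun n => ∫⁻ x, ENNReal.ofReal (GG b κ (fun l x => χ n x * f l x) x) ∂ν) atTop
      (𝓝 (∫⁻ x, ENNReal.ofReal (GG b κ f x) ∂ν)) := by
    refine tendsto_lintegral_of_dominated_convergence
      (fun x => ENNReal.ofReal (2 + 2 * c / κ) * ENNReal.ofReal (GG b κ f x))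
      (fun n => (GG_cont b κ (hfn n)).measurable.ennreal_ofReal)
      (fun n => ae_of_all _ fun x => ?_) ?_ (ae_of_all _ fun x => ?_)
    · beta_reduce
      rw [← ENNReal.ofReal_mul hM]
      exact ENNReal.ofReal_le_ofReal (hbd n x)
    · rw [lintegral_const_mul _ hGm]
      exact ENNReal.mul_ne_top ENNReal.ofReal_ne_top hfin
    · refine tendsto_const_nhds.congr' ?_
      filter_upwards [hlim2 x] with n hn
      rw [hn]
  calc ∫⁻ x, ENNReal.ofReal (dv b g f x ^ 2) ∂ν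
      = ∫⁻ x, liminf (fun n => ENNReal.ofReal (dv b g (fun l x => χ n x * f l x) x ^ 2)) atTop ∂ν := by
        refine lintegral_congr fun x => ?_
        refine (Tendsto.liminf_eq (tendsto_const_nhds.congr' ?_)).symm
        filter_upwards [hlim1 x] with n hn
        rw [hn]
    _ ≤ liminf (fun n => ∫⁻ x, ENNReal.ofReal (dv b g (fun l x => χ n x * f l x) x ^ 2) ∂ν) atTop :=
        lintegral_liminf_le fun n =>
          ((dv_smooth b hg (hfn n)).continuous.pow 2).measurable.ennreal_ofReal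
    _ ≤ liminf (fun n => ∫⁻ x, ENNReal.ofReal (GG b κ (fun l x => χ n x * f l x) x) ∂ν) atTop :=
        liminf_le_liminf (Eventually.of_forall fun n =>
          compact_case b hκ.le hg (hfn n) hp hp0 hD hK fun l => (hc n).mul_right (f' := f l))
    _ = _ := hT.liminf_eq

theorem main (b : ι → X) {g f : ι → X → ℝ} {p : X → ℝ} {κ : ℝ} (hκ : 0 < κ)
    (hg : ∀ l, ContDiff ℝ ∞ (g l)) (hf : ∀ l, ContDiff ℝ ∞ (f l)) (hp : ContDiff ℝ ∞ p)
    (hp0 : ∀ x, 0 ≤ p x) (hD : ∀ l x, DA (b l) p x = -(g l x * p x))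
    (hK : ∀ x (v : ι → ℝ), ∑ l, ∑ m, v l * v m * DA (b l) (g m) x ≤ κ * ∑ l, v l ^ 2) :
    ∫⁻ x, ENNReal.ofReal ((∑ l, (g l x * f l x - DA (b l) (f l) x)) ^ 2)
        ∂(μ.withDensity fun x => ENNReal.ofReal (p x))
      ≤ ENNReal.ofReal κ * ∫⁻ x, ENNReal.ofReal (∑ l, f l x ^ 2)
          ∂(μ.withDensity fun x => ENNReal.ofReal (p x))
        + ∫⁻ x, ENNReal.ofReal (∑ l, ∑ m, DA (b m) (f l) x ^ 2)
          ∂(μ.withDensity fun x => ENNReal.ofReal (p x)) := by
  have m1 : Measurable fun x => ENNReal.ofReal (∑ l, f l x ^ 2) :=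
    (continuous_finsetSum _ fun l _ => (hf l).continuous.pow 2).measurable.ennreal_ofReal
  refine (general_case b hκ hg hf hp hp0 hD hK).trans (le_of_eq ?_)
  rw [← lintegral_const_mul _ m1, ← lintegral_add_left (m1.const_mul _)]
  refine lintegral_congr fun x => ?_
  unfold GG
  rw [ENNReal.ofReal_add (mul_nonneg hκ.le (Finset.sum_nonneg fun _ _ => sq_nonneg _))
    (Finset.sum_nonneg fun _ _ => Finset.sum_nonneg fun _ _ => sq_nonneg _),
    ENNReal.ofReal_mul hκ.le]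

end Vale.Agent.P347.DivA
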