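import Vale.Agent.P347.Base

open MeasureTheory ProbabilityTheory Filter Set
open scoped ENNReal ContDiff RealInnerProductSpace

namespace Vale.Agent.P347

variable {d : ℕ}

theorem exists_moment_weights (n : ℕ) (hn : 2 ≤ n) (t : ℕ → ℝ) :
    ∃ a : Fin (n + 1) → ℝ, ∀ k : ℕ, k ≤ n → ∑ l, a l * ((l : ℝ) / n) ^ k = t k := by
  have hn0 : (n : ℝ) ≠ 0 := by
    have : n ≠ 0 := by omega
    exact_mod_cast this
  let v : Fin (n + 1) → ℝ := fun l => (l : ℝ) / n
  have hv : Function.Injective v := by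
    intro a b h
    have h1 : ((a : ℕ) : ℝ) = ((b : ℕ) : ℝ) := (div_left_inj' hn0).1 h
    exact Fin.ext (by exact_mod_cast h1)
  have hu : IsUnit (Matrix.vandermonde v) := by
    rw [Matrix.isUnit_iff_isUnit_det, isUnit_iff_ne_zero]
    exact Matrix.det_vandermonde_ne_zero_iff.2 hv
  obtain ⟨a, ha⟩ := Matrix.vecMul_surjective_iff_isUnit.2 hu fun k => t k
  refine ⟨a, fun k hk => ?_⟩
  have h := congrFun ha ⟨k, by omega⟩
  simpa [Matrix.vecMul, dotProduct, Matrix.vandermonde_apply, v] using h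

theorem exists_weights (n : ℕ) (hn : 2 ≤ n) :
    ∃ (Cw : ℝ) (w w' : Fin (n + 1) → Fin (n + 1) → ℝ) (d1 d2 : Fin (n + 1) → ℝ),
      1 ≤ Cw ∧ Weights n Cw w w' d1 d2 := by
  choose w hw using fun i : Fin (n + 1) =>
    exists_moment_weights n hn fun k => ((i : ℝ) / n) ^ (k + 1) / (k + 1)
  choose w' hw' using fun i : Fin (n + 1) =>
    exists_moment_weights n hn fun k => ((i : ℝ) / n) ^ (k + 2) / (k + 2)
  obtain ⟨d1, hd1⟩ := exists_moment_weights n hn fun k => if k = 1 then 1 else 0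
  obtain ⟨d2, hd2⟩ := exists_moment_weights n hn fun k => if k = 2 then 2 else 0
  have p1 : 0 ≤ ∑ i, ∑ l, |w i l| := by positivity
  have p2 : 0 ≤ ∑ i, ∑ l, |w' i l| := by positivity
  have p3 : 0 ≤ ∑ l, |d1 l| := by positivity
  have p4 : 0 ≤ ∑ l, |d2 l| := by positivity
  refine ⟨1 + ∑ i, ∑ l, |w i l| + ∑ i, ∑ l, |w' i l| + ∑ l, |d1 l| + ∑ l, |d2 l|, w, w', d1, d2,
    by linarith, ⟨fun i => ?_, fun i => ?_, by linarith, by linarith, hw, hw', hd1, hd2⟩⟩
  · have := Finset.single_le_sum (f := fun i => ∑ l, |w i l|) (fun i _ => by positivity)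
      (Finset.mem_univ i)
    linarith
  · have := Finset.single_le_sum (f := fun i => ∑ l, |w' i l|) (fun i _ => by positivity)
      (Finset.mem_univ i)
    linarith

section Taylor

variable {F : Type} [NormedAddCommGroup F] [NormedSpace ℝ F]

/-- the Taylor polynomial of a chain of derivatives -/
noncomputable def tay (n : ℕ) (φ : ℕ → ℝ → F) (u : ℝ) : F :=
  ∑ k ∈ Finset.range (n + 1), (u ^ k / k.factorial) • φ k 0

theorem tay_zero (n : ℕ) (φ : ℕ → ℝ → F) : tay n φ 0 = φ 0 0 := by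
  unfold tay
  rw [Finset.sum_range_succ']
  simp

theorem hasDerivAt_tay (n : ℕ) (φ : ℕ → ℝ → F) (u : ℝ) :
    HasDerivAt (tay (n + 1) φ) (tay n (fun j => φ (j + 1)) u) u := by
  have e : tay (n + 1) φ = fun u : ℝ => ∑ k ∈ Finset.range (n + 1),
      (u ^ (k + 1) / (k + 1).factorial) • φ (k + 1) 0 + φ 0 0 := by
    funext u
    unfold tay
    rw [Finset.sum_range_succ']
    simp
  rw [e]
  refine HasDerivAt.add_const _ ?_
  unfold tay
  refine HasDerivAt.fun_sum fun k _ => ?_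
  have h := ((hasDerivAt_pow (k + 1) u).div_const ((k + 1).factorial : ℝ)).smul_const (φ (k + 1) 0)
  have e2 : ((k + 1 : ℕ) : ℝ) * u ^ (k + 1 - 1) / ((k + 1).factorial : ℝ)
      = u ^ k / k.factorial := by
    rw [Nat.factorial_succ, Nat.add_sub_cancel]
    push_cast
    have : (k.factorial : ℝ) ≠ 0 := by exact_mod_cast k.factorial_ne_zero
    field_simp
  rw [e2] at h
  exact h

theorem continuous_tay (n : ℕ) (φ : ℕ → ℝ → F) : Continuous (tay n φ) := by
  unfold tay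
  fun_prop

theorem tay_err [CompleteSpace F] {β : ℝ} (hβ : 0 < β) (n : ℕ) (φ : ℕ → ℝ → F)
    (hφ : ∀ j, j ≤ n → ∀ u ∈ Icc 0 β, HasDerivAt (φ j) (φ (j + 1) u) u)
    (hc : ContinuousOn (φ (n + 1)) (Icc 0 β)) (u : ℝ) (hu : u ∈ Icc 0 β) :
    ‖φ 0 u - tay n φ u‖ ≤ β ^ n * ∫ r in (0 : ℝ)..β, ‖φ (n + 1) r‖ := by
  induction n generalizing φ u with
  | zero =>
    have hsub : uIcc 0 u ⊆ Icc 0 β := by
      rw [uIcc_of_le hu.1]
      exact Icc_subset_Icc le_rfl hu.2
    have h1 := intervalIntegral.integral_eq_sub_of_hasDerivAt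
      (fun r hr => hφ 0 le_rfl r (hsub hr)) ((hc.mono hsub).intervalIntegrable)
    have h2 : tay 0 φ u = φ 0 0 := by simp [tay]
    rw [h2, ← h1, pow_zero, one_mul]
    refine (intervalIntegral.norm_integral_le_integral_norm hu.1).trans ?_
    refine intervalIntegral.integral_mono_interval le_rfl hu.1 hu.2
      (Eventually.of_forall fun r => norm_nonneg _) ?_
    refine ContinuousOn.intervalIntegrable ?_
    rw [uIcc_of_le hβ.le]
    exact hc.norm
  | succ n ih =>
    have h1 := ih (fun j => φ (j + 1)) (fun j hj => hφ (j + 1) (by omega)) hc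
    have h2 := norm_image_sub_le_of_norm_deriv_le_segment'
      (f := fun r => φ 0 r - tay (n + 1) φ r)
      (f' := fun r => φ 1 r - tay n (fun j => φ (j + 1)) r) (a := 0) (b := β)
      (fun r hr => ((hφ 0 (by omega) r hr).sub (hasDerivAt_tay n φ r)).hasDerivWithinAt)
      (fun r hr => h1 r (Ico_subset_Icc_self hr)) u hu
    rw [tay_zero, sub_self, sub_zero, sub_zero] at h2
    refine h2.trans ?_
    have h3 : 0 ≤ ∫ r in (0 : ℝ)..β, ‖φ (n + 1 + 1) r‖ :=
      intervalIntegral.integral_nonneg hβ.le fun r _ => norm_nonneg _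
    have h4 : 0 ≤ β ^ n * ∫ r in (0 : ℝ)..β, ‖φ (n + 1 + 1) r‖ := by positivity
    calc _ ≤ (β ^ n * ∫ r in (0 : ℝ)..β, ‖φ (n + 1 + 1) r‖) * β :=
          mul_le_mul_of_nonneg_left hu.2 h4
      _ = _ := by ring

theorem nod_mem {n : ℕ} (hn : 2 ≤ n) {β : ℝ} (hβ : 0 < β) (l : Fin (n + 1)) :
    nod n β l ∈ Icc 0 β := by
  have hn0 : (0 : ℝ) < n := by
    have : 0 < n := by omega
    exact_mod_cast this
  have h1 : ((l : ℕ) : ℝ) ≤ n := by
    have := l.2
    exact_mod_cast (by omega : (l : ℕ) ≤ n)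
  refine ⟨by unfold nod; positivity, ?_⟩
  unfold nod
  exact mul_le_of_le_one_left hβ.le ((div_le_one hn0).2 h1)

theorem sum_tay {n : ℕ} (β : ℝ) (φ : ℕ → ℝ → F) (a : Fin (n + 1) → ℝ) (t : ℕ → ℝ)
    (ha : ∀ k : ℕ, k ≤ n → ∑ l, a l * ((l : ℝ) / n) ^ k = t k) :
    ∑ l, a l • tay n φ (nod n β l)
      = ∑ k ∈ Finset.range (n + 1), (t k * β ^ k / k.factorial) • φ k 0 := by
  unfold tay
  simp only [Finset.smul_sum, smul_smul]
  rw [Finset.sum_comm]
  refine Finset.sum_congr rfl fun k hk => ?_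
  rw [← Finset.sum_smul, ← ha k (by simpa [Nat.lt_succ_iff] using hk), Finset.sum_mul,
    Finset.sum_div]
  congr 1
  refine Finset.sum_congr rfl fun l _ => ?_
  rw [nod, mul_pow]
  ring

theorem sum_err {n : ℕ} (hn : 2 ≤ n) {β B Cw : ℝ} (hβ : 0 < β) (R : ℝ → F)
    (hR : ∀ u ∈ Icc 0 β, ‖R u‖ ≤ B) (a : Fin (n + 1) → ℝ) (ha : ∑ l, |a l| ≤ Cw) :
    ‖∑ l, a l • R (nod n β l)‖ ≤ Cw * B := by
  have hB : 0 ≤ B := (norm_nonneg _).trans (hR 0 ⟨le_rfl, hβ.le⟩)
  refine (norm_sum_le _ _).trans ?_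
  refine le_trans ?_ (mul_le_mul_of_nonneg_right ha hB)
  rw [Finset.sum_mul]
  refine Finset.sum_le_sum fun l _ => ?_
  rw [norm_smul, Real.norm_eq_abs]
  exact mul_le_mul_of_nonneg_left (hR _ (nod_mem hn hβ l)) (abs_nonneg _)

end Taylor

theorem Weights.err {F : Type} [NormedAddCommGroup F] [NormedSpace ℝ F] [CompleteSpace F]
    {n : ℕ} (hn : 2 ≤ n) {Cw : ℝ} {w w' : Fin (n + 1) → Fin (n + 1) → ℝ}
    {d1 d2 : Fin (n + 1) → ℝ} (h : Weights n Cw w w' d1 d2) {β : ℝ} (hβ : 0 < β)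
    (φ : ℕ → ℝ → F) (hφ : ∀ j, j ≤ n → ∀ u ∈ Icc 0 β, HasDerivAt (φ j) (φ (j + 1) u) u)
    (hc : ContinuousOn (φ (n + 1)) (Icc 0 β)) :
    (∀ i, ‖(∫ u in (0 : ℝ)..nod n β i, φ 0 u) - ∑ l, (β * w i l) • φ 0 (nod n β l)‖
      ≤ (Cw + 1) * β * (β ^ n * ∫ u in (0 : ℝ)..β, ‖φ (n + 1) u‖)) ∧
    (∀ i, ‖(∫ u in (0 : ℝ)..nod n β i, u • φ 0 u) - ∑ l, (β ^ 2 * w' i l) • φ 0 (nod n β l)‖
      ≤ (Cw + 1) * β ^ 2 * (β ^ n * ∫ u in (0 : ℝ)..β, ‖φ (n + 1) u‖)) ∧
    ‖β • φ 1 0 - ∑ l, d1 l • φ 0 (nod n β l)‖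
      ≤ Cw * (β ^ n * ∫ u in (0 : ℝ)..β, ‖φ (n + 1) u‖) ∧
    ‖β ^ 2 • φ 2 0 - ∑ l, d2 l • φ 0 (nod n β l)‖
      ≤ Cw * (β ^ n * ∫ u in (0 : ℝ)..β, ‖φ (n + 1) u‖) := by
  have hR := tay_err hβ n φ hφ hc
  generalize β ^ n * ∫ u in (0 : ℝ)..β, ‖φ (n + 1) u‖ = B at hR ⊢
  have hB : 0 ≤ B := (norm_nonneg _).trans (hR 0 ⟨le_rfl, hβ.le⟩)
  set R : ℝ → F := fun u => φ 0 u - tay n φ u with hRdef
  have hφ0 : ∀ u, φ 0 u = tay n φ u + R u := fun u => by simp [hRdef]
  have hc0 : ContinuousOn (φ 0) (Icc 0 β) := fun u hu =>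
    (hφ 0 (Nat.zero_le _) u hu).continuousAt.continuousWithinAt
  have hcR : ContinuousOn R (Icc 0 β) := hc0.sub (continuous_tay n φ).continuousOn
  have hsplit : ∀ a : Fin (n + 1) → ℝ, ∑ l, a l • φ 0 (nod n β l)
      = ∑ l, a l • tay n φ (nod n β l) + ∑ l, a l • R (nod n β l) := by
    intro a
    rw [← Finset.sum_add_distrib]
    exact Finset.sum_congr rfl fun l _ => by rw [hφ0, smul_add]
  have hsub : ∀ i, uIcc 0 (nod n β i) ⊆ Icc 0 β := fun i => by
    rw [uIcc_of_le (nod_mem hn hβ i).1]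
    exact Icc_subset_Icc le_rfl (nod_mem hn hβ i).2
  refine ⟨fun i => ?_, fun i => ?_, ?_, ?_⟩
  · have e1 : ∑ l, (β * w i l) • φ 0 (nod n β l) = β • ∑ l, w i l • φ 0 (nod n β l) := by
      simp only [Finset.smul_sum, smul_smul]
    have e2 : (∫ u in (0 : ℝ)..nod n β i, φ 0 u) = (∫ u in (0 : ℝ)..nod n β i, tay n φ u)
        + ∫ u in (0 : ℝ)..nod n β i, R u := by
      rw [← intervalIntegral.integral_add ((continuous_tay n φ).intervalIntegrable _ _)
        ((hcR.mono (hsub i)).intervalIntegrable)]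
      exact intervalIntegral.integral_congr fun u _ => hφ0 u
    have e3 : (∫ u in (0 : ℝ)..nod n β i, tay n φ u) = β • ∑ l, w i l • tay n φ (nod n β l) := by
      rw [sum_tay β φ (w i) _ (h.ew i)]
      unfold tay
      rw [intervalIntegral.integral_finsetSum fun k _ =>
        Continuous.intervalIntegrable (by fun_prop) _ _, Finset.smul_sum]
      refine Finset.sum_congr rfl fun k _ => ?_
      rw [intervalIntegral.integral_smul_const, intervalIntegral.integral_div, integral_pow,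
        smul_smul, nod, mul_pow]
      congr 1
      simp only [ne_eq, Nat.add_eq_zero_iff, one_ne_zero, and_false, not_false_eq_true, zero_pow]
      ring
    have e4 : ‖∫ u in (0 : ℝ)..nod n β i, R u‖ ≤ B * β := by
      refine (intervalIntegral.norm_integral_le_of_norm_le_const
        fun u hu => hR u (hsub i (uIoc_subset_uIcc hu))).trans ?_
      rw [sub_zero, abs_of_nonneg (nod_mem hn hβ i).1]
      exact mul_le_mul_of_nonneg_left (nod_mem hn hβ i).2 hB
    have e5 := sum_err hn hβ R hR (w i) (h.bw i)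
    rw [e1, e2, e3, hsplit, smul_add, add_sub_add_left_eq_sub]
    refine (norm_sub_le _ _).trans ?_
    rw [norm_smul, Real.norm_eq_abs, abs_of_pos hβ]
    have := mul_le_mul_of_nonneg_left e5 hβ.le
    linarith
  · have e1 : ∑ l, (β ^ 2 * w' i l) • φ 0 (nod n β l)
        = β ^ 2 • ∑ l, w' i l • φ 0 (nod n β l) := by
      simp only [Finset.smul_sum, smul_smul]
    have e2 : (∫ u in (0 : ℝ)..nod n β i, u • φ 0 u)
        = (∫ u in (0 : ℝ)..nod n β i, u • tay n φ u) + ∫ u in (0 : ℝ)..nod n β i, u • R u := by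
      rw [← intervalIntegral.integral_add
        ((continuous_id'.fun_smul (continuous_tay n φ)).intervalIntegrable _ _)
        ((continuousOn_id' _ |>.fun_smul (hcR.mono (hsub i))).intervalIntegrable)]
      exact intervalIntegral.integral_congr fun u _ => by simp only [hφ0 u, smul_add]
    have e3 : (∫ u in (0 : ℝ)..nod n β i, u • tay n φ u)
        = β ^ 2 • ∑ l, w' i l • tay n φ (nod n β l) := by
      rw [sum_tay β φ (w' i) _ (h.ew' i)]
      unfold tay
      have e : ∀ u : ℝ, u • ∑ k ∈ Finset.range (n + 1), (u ^ k / k.factorial) • φ k 0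
          = ∑ k ∈ Finset.range (n + 1), (u ^ (k + 1) / k.factorial) • φ k 0 := by
        intro u
        rw [Finset.smul_sum]
        refine Finset.sum_congr rfl fun k _ => ?_
        rw [smul_smul]
        congr 1
        ring
      simp only [e]
      rw [intervalIntegral.integral_finsetSum fun k _ =>
        Continuous.intervalIntegrable (by fun_prop) _ _, Finset.smul_sum]
      refine Finset.sum_congr rfl fun k _ => ?_
      rw [intervalIntegral.integral_smul_const, intervalIntegral.integral_div, integral_pow,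
        smul_smul, nod, mul_pow]
      congr 1
      simp only [ne_eq, Nat.add_eq_zero_iff, one_ne_zero, and_false, not_false_eq_true, zero_pow]
      push_cast
      ring
    have e4 : ‖∫ u in (0 : ℝ)..nod n β i, u • R u‖ ≤ (β * B) * β := by
      refine (intervalIntegral.norm_integral_le_of_norm_le_const (C := β * B)
        fun u hu => ?_).trans ?_
      · have hu' := hsub i (uIoc_subset_uIcc hu)
        rw [norm_smul, Real.norm_eq_abs, abs_of_nonneg hu'.1]
        exact mul_le_mul hu'.2 (hR u hu') (norm_nonneg _) hβ.le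
      · rw [sub_zero, abs_of_nonneg (nod_mem hn hβ i).1]
        exact mul_le_mul_of_nonneg_left (nod_mem hn hβ i).2 (by positivity)
    have e5 := sum_err hn hβ R hR (w' i) (h.bw' i)
    rw [e1, e2, e3, hsplit, smul_add, add_sub_add_left_eq_sub]
    refine (norm_sub_le _ _).trans ?_
    rw [norm_smul, Real.norm_eq_abs, abs_of_pos (by positivity : 0 < β ^ 2)]
    have := mul_le_mul_of_nonneg_left e5 (by positivity : 0 ≤ β ^ 2)
    linarith
  · rw [hsplit, sum_tay β φ d1 _ h.ed1, Finset.sum_eq_single_of_mem 1 (by simp; omega)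
      fun k _ hk => by simp [hk]]
    have e5 := sum_err hn hβ R hR d1 h.bd1
    simpa using e5
  · rw [hsplit, sum_tay β φ d2 _ h.ed2, Finset.sum_eq_single_of_mem 2 (by simp; omega)
      fun k _ hk => by simp [hk]]
    have e5 := sum_err hn hβ R hR d2 h.bd2
    simpa using e5

end Vale.Agent.P347
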