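import Vale.Agent.P347.Ode1

open MeasureTheory Filter Set Topology
open scoped ENNReal NNReal

namespace Vale.Agent.P347

variable {X : Type} [NormedAddCommGroup X] [NormedSpace ℝ X] [FiniteDimensional ℝ X]

/-- global flow of a C^1 field with linear growth -/
theorem exists_flow (F : ℝ × X → X) (hF : ContDiff ℝ 1 F) {T A : ℝ} (hT : 0 < T)
    (hA : ∀ s ∈ Icc (-T) T, ∀ x, ‖F (s, x)‖ ≤ A * (1 + ‖x‖)) :
    ∃ Φ : ℝ → X → X, (∀ x, Φ 0 x = x) ∧
      (∀ x, ∀ s ∈ Ioo (-T) T, HasDerivAt (fun r => Φ r x) (F (s, Φ s x)) s) ∧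
      ContinuousOn (fun p : ℝ × X => Φ p.1 p.2) (Ioo (-T) T ×ˢ univ) := by
  have : CompleteSpace X := FiniteDimensional.complete ℝ X
  have hA0 : 0 ≤ A := by
    have := (norm_nonneg _).trans (hA 0 ⟨by linarith, hT.le⟩ 0)
    simpa using this
  have h0 : (0 : ℝ) ∈ Ioo (-T) T := ⟨by linarith, hT⟩
  choose V K L _ _ hK hL hle heq using fun r : ℝ =>
    exists_trunc hF (max T ((r + 1) * Real.exp (A * T)))
  choose α hα using fun r : ℝ => core_flow (hK r) (hL r) (-T) T
  have hα' : ∀ r, IsFl (V r) (-T) T (α r) := hα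
  have hb : ∀ r x, ∀ s ∈ Ioo (-T) T, ‖α r 0 x s‖ ≤ (‖x‖ + 1) * Real.exp (A * T) := by
    intro r x s hs
    have h1 := apriori (A := A) ((hα' r).deriv h0 x h0 hs) fun u hu =>
      (hle r _).trans (hA u (Ioo_subset_Icc_self (ordConnected_Ioo.uIcc_subset h0 hs hu)) _)
    rw [(hα r 0 h0 x).1, sub_zero] at h1
    refine h1.trans (mul_le_mul_of_nonneg_left ?_ (by positivity))
    exact Real.exp_le_exp.2 (mul_le_mul_of_nonneg_left (abs_le.2 ⟨hs.1.le, hs.2.le⟩) hA0)
  have hVF : ∀ r r' x, ‖x‖ ≤ r → ∀ s ∈ Ioo (-T) T, V r (s, α r' 0 x s) = F (s, α r' 0 x s) := by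
    intro r r' x hx s hs
    refine heq r _ ?_
    rw [Prod.norm_mk, Real.norm_eq_abs]
    refine max_le_max (abs_le.2 ⟨hs.1.le, hs.2.le⟩) ((hb r' x s hs).trans ?_)
    exact mul_le_mul_of_nonneg_right (by linarith) (Real.exp_pos _).le
  have hd : ∀ x, ∀ s ∈ Ioo (-T) T, HasDerivAt (α ‖x‖ 0 x) (F (s, α ‖x‖ 0 x s)) s := by
    intro x s hs
    rw [← hVF ‖x‖ ‖x‖ x le_rfl s hs]
    exact (hα _ 0 h0 x).2 s hs
  refine ⟨fun s x => α ‖x‖ 0 x s, fun x => (hα _ 0 h0 x).1, hd, ?_⟩
  rintro ⟨s, x⟩ ⟨hs, -⟩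
  have hc : ContinuousOn (fun q : ℝ × X => α (‖x‖ + 1) 0 q.2 q.1) (Ioo (-T) T ×ˢ univ) :=
    continuousOn_prod_of_continuousOn_lipschitzOnWith' _ _
      (fun t ht => ((hα' _).lip (hK _) h0 ht).lipschitzOnWith)
      fun y _ => HasDerivAt.continuousOn (hα _ 0 h0 y).2
  have hagree : ∀ y, ‖y‖ ≤ ‖x‖ + 1 → ∀ t ∈ Ioo (-T) T, α ‖y‖ 0 y t = α (‖x‖ + 1) 0 y t := by
    intro y hy t ht
    refine traj_unique (hK (‖x‖ + 1)) (s := 0) (fun u hu => ?_) ((hα' _).deriv h0 y h0 ht) ?_
    · have hu' := ordConnected_Ioo.uIcc_subset h0 ht hu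
      rw [hVF _ _ y hy u hu']
      exact hd y u hu'
    · rw [(hα _ 0 h0 y).1, (hα _ 0 h0 y).1]
  refine (hc (s, x) ⟨hs, mem_univ _⟩).congr_of_eventuallyEq ?_ (hagree x (by linarith) s hs)
  have hn : ∀ᶠ q : ℝ × X in 𝓝 (s, x), ‖q.2‖ < ‖x‖ + 1 :=
    (continuous_snd.norm.tendsto (s, x)).eventually (gt_mem_nhds (by simp))
  filter_upwards [nhdsWithin_le_nhds hn, self_mem_nhdsWithin] with q h1 h2
  exact hagree q.2 h1.le q.1 h2.1

theorem ibp_sum [MeasurableSpace X] [BorelSpace X] (μ : Measure X) [μ.IsAddHaarMeasure]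
    {ι : Type} [Fintype ι] (v : ι → X) {g : X → ℝ} {C : ℝ≥0} (hg : LipschitzWith C g)
    (hgc : HasCompactSupport g) (k : ι → X → ℝ) (hk : ∀ i, ContDiff ℝ 1 (k i))
    (hkc : ∀ i, HasCompactSupport (k i)) :
    Integrable (fun x => ∑ i, (lineDeriv ℝ (k i) x (-v i) * g x
      - lineDeriv ℝ g x (v i) * k i x)) μ ∧
    ∫ x, ∑ i, (lineDeriv ℝ (k i) x (-v i) * g x - lineDeriv ℝ g x (v i) * k i x) ∂μ = 0 := by
  choose D hD using fun i => ContDiff.lipschitzWith_of_hasCompactSupport (hkc i) (hk i) one_ne_zero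
  have key : ∀ {f h : X → ℝ} {C : ℝ≥0}, LipschitzWith C f → Continuous h → HasCompactSupport h →
      ∀ w, Integrable (fun x => lineDeriv ℝ f x w * h x) μ := by
    intro f h C hf hh hc w
    exact (hh.integrable_of_hasCompactSupport hc).bdd_mul
      (aestronglyMeasurable_lineDeriv hf.continuous μ)
      (Eventually.of_forall fun x => norm_lineDeriv_le_of_lipschitz ℝ hf)
  have i1 := fun i => key (hD i) hg.continuous hgc (-v i)
  have i2 := fun i => key hg (hk i).continuous (hkc i) (v i)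
  refine ⟨integrable_finsetSum _ fun i _ => (i1 i).sub (i2 i), ?_⟩
  rw [integral_finsetSum _ fun i _ => by exact (i1 i).sub (i2 i)]
  refine Finset.sum_eq_zero fun i _ => ?_
  rw [integral_sub (i1 i) (i2 i), hg.integral_lineDeriv_mul_eq (hD i) (hkc i), sub_self]

theorem transport_test [MeasurableSpace X] [BorelSpace X] (μ : Measure X) [μ.IsAddHaarMeasure]
    {ι : Type} [Fintype ι] (b : Module.Basis ι ℝ X) (F : ℝ × X → X) (hF : ContDiff ℝ 1 F)
    (p : ℝ × X → ℝ) (hp : ContDiff ℝ 1 p) {T A : ℝ} (hT : 0 ≤ T)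
    (hA : ∀ s ∈ Icc 0 T, ∀ x, ‖F (s, x)‖ ≤ A * (1 + ‖x‖))
    (hce : ∀ s ∈ Icc 0 T, ∀ x, fderiv ℝ p (s, x) (1, 0)
      + ∑ i, fderiv ℝ (fun q => p q * b.coord i (F q)) (s, x) (0, b i) = 0)
    (Φ : ℝ → X → X) (h0 : ∀ x, Φ 0 x = x)
    (hΦ : ∀ x, ∀ s ∈ Icc 0 T, HasDerivAt (fun r => Φ r x) (F (s, Φ s x)) s)
    {f : X → ℝ} {Kf : ℝ≥0} (hf : LipschitzWith Kf f) {R : ℝ} (hR : ∀ y, f y ≠ 0 → ‖y‖ ≤ R) :
    Integrable (fun x => f (Φ T x) * p (0, x)) μ ∧ Integrable (fun x => f x * p (T, x)) μ ∧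
      ∫ x, f (Φ T x) * p (0, x) ∂μ = ∫ x, f x * p (T, x) ∂μ := by
  have : CompleteSpace X := FiniteDimensional.complete ℝ X
  have : ProperSpace X := FiniteDimensional.proper ℝ X
  have hA0 : 0 ≤ A := by
    have := (norm_nonneg _).trans (hA 0 ⟨le_rfl, hT⟩ 0)
    simpa using this
  set e : ℝ := Real.exp (A * T) with he
  have he1 : 1 ≤ e := Real.one_le_exp (by positivity)
  set ρ : ℝ := (|R| + 1) * e with hρ
  have hρ0 : 0 ≤ ρ := by positivity
  obtain ⟨V, K, L, hV, hVc, hK, hL, hle, heq⟩ := exists_trunc hF (max T ((ρ + 1) * e) + 1)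
  obtain ⟨α, hα⟩ := core_flow hK hL (-1) (T + 1)
  have hα' : IsFl V (-1) (T + 1) α := hα
  have hJ : ∀ {s}, s ∈ Icc 0 T → s ∈ Ioo (-1) (T + 1) := fun hs =>
    ⟨by linarith [hs.1], by linarith [hs.2]⟩
  have hT0 : (0 : ℝ) ∈ Icc 0 T := ⟨le_rfl, hT⟩
  have hTT : T ∈ Icc 0 T := ⟨hT, le_rfl⟩
  have hap : ∀ {γ γ' : ℝ → X} {s t : ℝ}, s ∈ Icc 0 T → t ∈ Icc 0 T →
      (∀ u ∈ uIcc s t, HasDerivAt γ (γ' u) u) → (∀ u, ‖γ' u‖ ≤ ‖F (u, γ u)‖) →
      ‖γ t‖ ≤ (‖γ s‖ + 1) * e := by
    intro γ γ' s t hs ht hd hb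
    have h1 := apriori (A := A) hd fun u hu =>
      (hb u).trans (hA u (ordConnected_Icc.uIcc_subset hs ht hu) _)
    refine h1.trans (mul_le_mul_of_nonneg_left ?_ (by positivity))
    refine Real.exp_le_exp.2 (mul_le_mul_of_nonneg_left (abs_le.2 ⟨?_, ?_⟩) hA0) <;>
      linarith [hs.1, hs.2, ht.1, ht.2]
  have hback : ∀ s ∈ Icc 0 T, ∀ x, ‖α s x T‖ ≤ R → ‖x‖ ≤ ρ := by
    intro s hs x hx
    have h1 := hap hTT hs (hα'.deriv (hJ hs) x (hJ hTT) (hJ hs)) fun u => hle _
    rw [(hα s (hJ hs) x).1] at h1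
    exact h1.trans (mul_le_mul_of_nonneg_right (by linarith [le_abs_self R]) (by linarith))
  have hΦd : ∀ x {s t : ℝ}, s ∈ Icc 0 T → t ∈ Icc 0 T →
      ∀ u ∈ uIcc s t, HasDerivAt (fun r => Φ r x) (F (u, Φ u x)) u :=
    fun x s t hs ht u hu => hΦ x u (ordConnected_Icc.uIcc_subset hs ht hu)
  have hstart : ∀ x, f (Φ T x) = f (α 0 x T) := by
    intro x
    by_cases hx : ‖x‖ ≤ ρ
    · congr 1
      refine traj_unique hK (s := 0) (f := fun r => Φ r x) (fun u hu => ?_)
        (hα'.deriv (hJ hT0) x (hJ hT0) (hJ hTT)) ?_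
      · have hu' := ordConnected_Icc.uIcc_subset hT0 hTT hu
        rw [heq]
        · exact hΦ x u hu'
        · have h1 := hap hT0 hu' (hΦd x hT0 hu') fun _ => le_rfl
          simp only [h0] at h1
          rw [Prod.norm_mk, Real.norm_eq_abs, abs_of_nonneg hu'.1]
          refine (max_le_max hu'.2 (h1.trans ?_)).trans (le_add_of_nonneg_right zero_le_one)
          exact mul_le_mul_of_nonneg_right (by linarith) (by linarith)
      · simp only [h0, (hα 0 (hJ hT0) x).1]
    · have h1 : f (α 0 x T) = 0 := by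
        by_contra h
        exact hx (hback 0 hT0 x (hR _ h))
      have h2 : f (Φ T x) = 0 := by
        by_contra h
        have h3 := hap hTT hT0 (hΦd x hTT hT0) fun _ => le_rfl
        simp only [h0] at h3
        exact hx (h3.trans (mul_le_mul_of_nonneg_right (by linarith [le_abs_self R, hR _ h])
          (by linarith)))
      rw [h1, h2]
  set g : ℝ → X → ℝ := fun s x => f (α s x T) with hg
  have hg0 : ∀ s ∈ Icc 0 T, ∀ x, x ∉ Metric.closedBall (0 : X) ρ → g s x = 0 := by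
    intro s hs x hx
    by_contra h
    exact hx (mem_closedBall_zero_iff.2 (hback s hs x (hR _ h)))
  obtain ⟨Kg, hKg⟩ : ∃ Kg, ∀ s ∈ Icc 0 T, LipschitzWith Kg (g s) :=
    ⟨_, fun s hs => hf.comp (hα'.lip hK (hJ hs) (hJ hTT))⟩
  have hgc : ∀ s ∈ Icc 0 T, HasCompactSupport (g s) := fun s hs =>
    HasCompactSupport.intro (isCompact_closedBall 0 ρ) (hg0 s hs)
  have hco : ∀ s ∈ Ioo (-1) (T + 1), ∀ s' ∈ Icc 0 T, ∀ x, g s x = g s' (α s x s') := by
    intro s hs s' hs' x
    simp only [hg]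
    rw [hα'.cocycle hK hs (hJ hs') (hJ hTT)]
  obtain ⟨Mf, hMf⟩ : ∃ M, ∀ y, ‖f y‖ ≤ M :=
    (HasCompactSupport.intro (isCompact_closedBall 0 R) fun y hy => by
      by_contra h
      exact hy (mem_closedBall_zero_iff.2 (hR y h))).exists_bound_of_continuous hf.continuous
  have hMf0 : 0 ≤ Mf := (norm_nonneg _).trans (hMf 0)
  have hcomp : IsCompact (Icc 0 T ×ˢ Metric.closedBall (0 : X) ρ) :=
    isCompact_Icc.prod (isCompact_closedBall 0 ρ)
  obtain ⟨Kp, hKp⟩ := hp.contDiffOn.exists_lipschitzOnWith one_ne_zero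
    ((convex_Icc 0 T).prod (convex_closedBall (0 : X) ρ)) hcomp
  obtain ⟨Mp, hMp⟩ := hcomp.exists_bound_of_continuousOn hp.continuous.continuousOn
  have hMp0 : 0 ≤ Mp := (norm_nonneg _).trans (hMp (0, 0) ⟨hT0, Metric.mem_closedBall_self hρ0⟩)
  have hps : ∀ s, Continuous fun x : X => p (s, x) := fun s =>
    hp.continuous.comp (Continuous.prodMk_right s)
  have hint : ∀ s ∈ Icc 0 T, Integrable (fun x => g s x * p (s, x)) μ := fun s hs =>
    ((hKg s hs).continuous.mul (hps s)).integrable_of_hasCompactSupport (hgc s hs).mul_right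
  have hind : ∀ c : ℝ, Integrable ((Metric.closedBall (0 : X) ρ).indicator fun _ => c) μ :=
    fun c => (integrable_indicator_iff Metric.isClosed_closedBall.measurableSet).2
      (integrableOn_const measure_closedBall_lt_top.ne)
  have hlip : ∀ x, LipschitzOnWith (Real.nnabs ((Metric.closedBall (0 : X) ρ).indicator
      (fun _ => Mf * Kp + Kg * L * Mp) x)) (fun s => g s x * p (s, x)) (Icc 0 T) := by
    intro x
    refine LipschitzOnWith.of_dist_le_mul fun s hs s' hs' => ?_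
    by_cases hx : x ∈ Metric.closedBall (0 : X) ρ
    · rw [indicator_of_mem hx, Real.coe_nnabs, abs_of_nonneg (by positivity), Real.dist_eq,
        Real.dist_eq]
      have h1 := hKp.dist_le_mul (s, x) ⟨hs, hx⟩ (s', x) ⟨hs', hx⟩
      rw [dist_prod_same_right, Real.dist_eq, Real.dist_eq] at h1
      have h2 := (hKg s' hs').dist_le_mul (α s x s') x
      rw [← hco s (hJ hs) s' hs', Real.dist_eq, dist_eq_norm] at h2
      have h3 := hα'.speed hL (hJ hs) (hJ hs') x
      rw [abs_sub_comm] at h3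
      have h4 : |g s x| ≤ Mf := hMf _
      have h5 : |p (s', x)| ≤ Mp := hMp (s', x) ⟨hs', hx⟩
      have h6 : |g s x - g s' x| ≤ Kg * (L * |s - s'|) :=
        h2.trans (mul_le_mul_of_nonneg_left h3 Kg.2)
      calc |g s x * p (s, x) - g s' x * p (s', x)|
          = |g s x * (p (s, x) - p (s', x)) + (g s x - g s' x) * p (s', x)| := by
            congr 1; ring
        _ ≤ |g s x| * |p (s, x) - p (s', x)| + |g s x - g s' x| * |p (s', x)| := by
            rw [← abs_mul, ← abs_mul]; exact abs_add_le _ _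
        _ ≤ Mf * (Kp * |s - s'|) + Kg * (L * |s - s'|) * Mp := by gcongr
        _ = _ := by ring
    · rw [hg0 s hs x hx, hg0 s' hs' x hx, zero_mul, zero_mul, dist_self]
      positivity
  have hcont : ContinuousOn (fun s => ∫ x, g s x * p (s, x) ∂μ) (Icc 0 T) := by
    refine continuousOn_of_dominated (fun s hs => (hint s hs).aestronglyMeasurable)
      (fun s hs => Eventually.of_forall fun x => ?_) (hind (Mf * Mp))
      (Eventually.of_forall fun x => (hlip x).continuousOn)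
    by_cases hx : x ∈ Metric.closedBall (0 : X) ρ
    · rw [indicator_of_mem hx, norm_mul]
      exact mul_le_mul (hMf _) (hMp (s, x) ⟨hs, hx⟩) (norm_nonneg _) hMf0
    · rw [indicator_of_notMem hx, hg0 s hs x hx, zero_mul, norm_zero]
  have hder : ∀ s₀ ∈ Ioo 0 T, HasDerivAt (fun s => ∫ x, g s x * p (s, x) ∂μ) 0 s₀ := by
    intro s₀ hs₀
    have hs₀' := Ioo_subset_Icc_self hs₀
    have hnh : Icc 0 T ∈ 𝓝 s₀ := Icc_mem_nhds hs₀.1 hs₀.2
    have hcoord : ∀ i, ContDiff ℝ 1 (b.coord i) := fun i =>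
      (LinearMap.toContinuousLinearMap (b.coord i)).contDiff
    have hemb : ContDiff ℝ 1 fun x : X => ((s₀, x) : ℝ × X) := contDiff_const.prodMk contDiff_id
    have hkd : ∀ i, ContDiff ℝ 1 fun q : ℝ × X => p q * b.coord i (V q) := fun i =>
      hp.mul ((hcoord i).comp hV)
    obtain ⟨hI, hI0⟩ := ibp_sum μ b (hKg s₀ hs₀') (hgc s₀ hs₀')
      (fun i x => p (s₀, x) * b.coord i (V (s₀, x))) (fun i => (hkd i).comp hemb) fun i => by
        obtain ⟨r, hr⟩ := hVc.isCompact.isBounded.subset_closedBall 0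
        refine HasCompactSupport.intro (isCompact_closedBall 0 r) fun x hx => ?_
        have : V (s₀, x) = 0 := by
          refine image_eq_zero_of_notMem_tsupport fun h => hx ?_
          have h1 := mem_closedBall_zero_iff.1 (hr h)
          exact mem_closedBall_zero_iff.2 ((norm_snd_le (s₀, x)).trans h1)
        rw [this, map_zero, mul_zero]
    rw [← hI0]
    refine (hasDerivAt_integral_of_dominated_loc_of_lip hnh ?_ (hint s₀ hs₀')
      hI.aestronglyMeasurable (Eventually.of_forall hlip) (hind _) ?_).2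
    · filter_upwards [hnh] with s hs using (hint s hs).aestronglyMeasurable
    · filter_upwards [(hKg s₀ hs₀').ae_differentiableAt (μ := μ)] with x hx
      have d1 : HasDerivAt (fun s => g s x) (fderiv ℝ (g s₀) x (-V (s₀, x))) s₀ := by
        have h1 := hα'.hasDerivAt_init hK hL (hJ hs₀') x
        have h2 : HasFDerivAt (g s₀) (fderiv ℝ (g s₀) x) (α s₀ x s₀) := by
          rw [(hα s₀ (hJ hs₀') x).1]; exact hx.hasFDerivAt
        refine (h2.comp_hasDerivAt (f := fun s => α s x s₀) s₀ h1).congr_of_eventuallyEq ?_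
        filter_upwards [hnh] with s hs using hco s (hJ hs) s₀ hs₀' x
      have d2 : HasDerivAt (fun s => p (s, x)) (fderiv ℝ p (s₀, x) (1, 0)) s₀ :=
        (hp.differentiable one_ne_zero (s₀, x)).hasFDerivAt.comp_hasDerivAt s₀
          ((hasDerivAt_id s₀).prodMk (hasDerivAt_const s₀ x))
      refine (d1.mul d2).congr_deriv ?_
      rw [Finset.sum_sub_distrib, ← Finset.sum_mul]
      have e1 : ∑ i, lineDeriv ℝ (g s₀) x (b i) * (p (s₀, x) * b.coord i (V (s₀, x)))
          = fderiv ℝ (g s₀) x (V (s₀, x)) * p (s₀, x) := by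
        conv_rhs => rw [← b.sum_repr (V (s₀, x))]
        rw [map_sum, Finset.sum_mul]
        refine Finset.sum_congr rfl fun i _ => ?_
        rw [hx.lineDeriv_eq_fderiv, map_smul, smul_eq_mul, Module.Basis.coord_apply]
        ring
      rw [e1, map_neg]
      by_cases hx0 : g s₀ x = 0
      · rw [hx0]; ring
      · have hxρ : ‖x‖ ≤ ρ := hback s₀ hs₀' x (hR _ hx0)
        have e2 : ∀ i, lineDeriv ℝ (fun x => p (s₀, x) * b.coord i (V (s₀, x))) x (-b i)
            = -fderiv ℝ (fun q => p q * b.coord i (F q)) (s₀, x) (0, b i) := by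
          intro i
          have h1 := ((hkd i).differentiable one_ne_zero (s₀, x)).hasFDerivAt.comp x
            (hasFDerivAt_prodMk_right s₀ x)
          have h2 : (fun q : ℝ × X => p q * b.coord i (V q))
              =ᶠ[𝓝 (s₀, x)] fun q => p q * b.coord i (F q) := by
            have h3 : ‖((s₀, x) : ℝ × X)‖ < max T ((ρ + 1) * e) + 1 := by
              rw [Prod.norm_mk, Real.norm_eq_abs, abs_of_nonneg hs₀'.1]
              refine lt_of_le_of_lt (max_le_max hs₀'.2 ?_) (lt_add_one _)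
              nlinarith
            filter_upwards [(continuous_norm.tendsto (s₀, x)).eventually (gt_mem_nhds h3)]
              with q hq
            rw [heq q hq.le]
          rw [h2.fderiv_eq] at h1
          have h4 := (h1.hasLineDerivAt (-b i)).lineDeriv
          refine h4.trans ?_
          simp only [ContinuousLinearMap.comp_apply, map_neg, ContinuousLinearMap.inr_apply]
        simp only [e2, Finset.sum_neg_distrib]
        have := hce s₀ hs₀' x
        have e3 : fderiv ℝ p (s₀, x) (1, 0)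
            = -∑ i, fderiv ℝ (fun q => p q * b.coord i (F q)) (s₀, x) (0, b i) := by linarith
        rw [e3]
        ring
  have hend : g T = f := by
    ext x
    simp only [hg, (hα T (hJ hTT) x).1]
  have hI0 := hint 0 hT0
  have hIT := hint T hTT
  have heq : ∫ x, g 0 x * p (0, x) ∂μ = ∫ x, g T x * p (T, x) ∂μ := by
    rcases hT.eq_or_lt with h | h
    · rw [← h]
    · obtain ⟨c, -, hc⟩ := exists_hasDerivAt_eq_slope _ (fun _ => 0) h hcont hder
      rw [eq_div_iff (by linarith), zero_mul] at hc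
      linarith
  rw [hend] at hIT heq
  simp only [hstart]
  exact ⟨hI0, hIT, heq⟩

omit [NormedSpace ℝ X] [FiniteDimensional ℝ X] in
theorem ext_of_lipschitz [MeasurableSpace X] [BorelSpace X] {ν ν' : Measure X}
    (hfin : ∀ r : ℝ, ν' (Metric.ball 0 r) ≠ ∞)
    (h : ∀ (f : X → ℝ) (K : ℝ≥0) (R : ℝ), LipschitzWith K f → (∀ y, 0 ≤ f y) →
      (∀ y, f y ≠ 0 → ‖y‖ ≤ R) →
        ∫⁻ x, ENNReal.ofReal (f x) ∂ν = ∫⁻ x, ENNReal.ofReal (f x) ∂ν') : ν = ν' := by
  have hb : ∀ (U : Set X) (R : ℝ), IsOpen U → U ⊆ Metric.ball 0 R → ν U = ν' U := by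
    intro U R hU hUR
    have hδ : ∀ n : ℕ, (0 : ℝ) < 1 / ((n : ℝ) + 1) := fun n => Nat.one_div_pos_of_nat
    let f : ℕ → X → ℝ := fun n x => 1 - (thickenedIndicator (hδ n) Uᶜ x : ℝ)
    have hfl : ∀ n, ∃ K, LipschitzWith K (f n) := fun n =>
      ⟨_, (LipschitzWith.const (1 : ℝ)).sub
        (NNReal.isometry_coe.lipschitz.comp (lipschitzWith_thickenedIndicator (hδ n) Uᶜ))⟩
    have hlim : ∀ m : Measure X,
        Tendsto (fun n => ∫⁻ x, ENNReal.ofReal (f n x) ∂m) atTop (𝓝 (m U)) := by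
      intro m
      rw [← lintegral_indicator_one hU.measurableSet]
      refine lintegral_tendsto_of_tendsto_of_monotone (fun n => ?_)
        (Eventually.of_forall fun x i j hij => ?_) (Eventually.of_forall fun x => ?_)
      · obtain ⟨K, hK⟩ := hfl n
        exact hK.continuous.measurable.ennreal_ofReal.aemeasurable
      · refine ENNReal.ofReal_le_ofReal (sub_le_sub_left ?_ 1)
        exact NNReal.coe_le_coe.2 (thickenedIndicator_mono (hδ j) (hδ i)
          (Nat.one_div_le_one_div hij) Uᶜ x)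
      · have h1 := tendsto_pi_nhds.1 (thickenedIndicator_tendsto_indicator_closure hδ
          tendsto_one_div_add_atTop_nhds_zero_nat Uᶜ) x
        rw [hU.isClosed_compl.closure_eq] at h1
        have h2 := (ENNReal.continuous_ofReal.tendsto _).comp
          (((NNReal.continuous_coe.tendsto _).comp h1).const_sub 1)
        have h3 : U.indicator (1 : X → ℝ≥0∞) x
            = ENNReal.ofReal (1 - ((Uᶜ.indicator (fun _ => (1 : ℝ≥0)) x : ℝ≥0) : ℝ)) := by
          by_cases hx : x ∈ U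
          · simp [hx]
          · simp [hx]
        rw [h3]
        exact h2
    refine tendsto_nhds_unique (hlim ν) ((hlim ν').congr fun n => ?_)
    obtain ⟨K, hK⟩ := hfl n
    refine (h (f n) K R hK (fun y => sub_nonneg.2 ?_) fun y hy => ?_).symm
    · exact NNReal.coe_le_one.2 (thickenedIndicator_le_one _ _ _)
    · by_contra hn
      refine hy ?_
      have : y ∈ Uᶜ := fun hU' => hn (mem_ball_zero_iff.1 (hUR hU')).le
      simp only [f, thickenedIndicator_one _ _ this, NNReal.coe_one, sub_self]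
  refine (Measure.ext_of_generateFrom_of_iUnion {U | IsOpen U} (fun n : ℕ => Metric.ball 0 n)
    BorelSpace.measurable_eq isPiSystem_isOpen (Metric.iUnion_ball_nat 0)
    (fun n => Metric.isOpen_ball) (fun n => hfin n) fun U hU => ?_).symm
  have hU' : U = ⋃ n : ℕ, U ∩ Metric.ball 0 n := by
    rw [← inter_iUnion, Metric.iUnion_ball_nat, inter_univ]
  have hmono : Monotone fun n : ℕ => U ∩ Metric.ball (0 : X) n := fun i j hij =>
    inter_subset_inter_right _ (Metric.ball_subset_ball (by exact_mod_cast hij))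
  rw [hU', hmono.measure_iUnion, hmono.measure_iUnion]
  exact iSup_congr fun n => (hb _ n (IsOpen.inter hU Metric.isOpen_ball) inter_subset_right).symm

/-- a flow transports solutions of the continuity equation -/
theorem transport [MeasurableSpace X] [BorelSpace X] (μ : Measure X) [μ.IsAddHaarMeasure]
    {ι : Type} [Fintype ι] (b : Module.Basis ι ℝ X) (F : ℝ × X → X) (hF : ContDiff ℝ 1 F)
    (p : ℝ × X → ℝ) (hp : ContDiff ℝ 1 p) (hp0 : ∀ q, 0 ≤ p q) {T A : ℝ} (hT : 0 ≤ T)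
    (hA : ∀ s ∈ Icc 0 T, ∀ x, ‖F (s, x)‖ ≤ A * (1 + ‖x‖))
    (hce : ∀ s ∈ Icc 0 T, ∀ x, fderiv ℝ p (s, x) (1, 0)
      + ∑ i, fderiv ℝ (fun q => p q * b.coord i (F q)) (s, x) (0, b i) = 0)
    (Φ : ℝ → X → X) (h0 : ∀ x, Φ 0 x = x)
    (hΦ : ∀ x, ∀ s ∈ Icc 0 T, HasDerivAt (fun r => Φ r x) (F (s, Φ s x)) s)
    (hm : Measurable (Φ T)) :
    (μ.withDensity fun x => ENNReal.ofReal (p (0, x))).map (Φ T)
      = μ.withDensity fun x => ENNReal.ofReal (p (T, x)) := by
  have : ProperSpace X := FiniteDimensional.proper ℝ X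
  have hps : ∀ s, Continuous fun x : X => p (s, x) := fun s =>
    hp.continuous.comp (Continuous.prodMk_right s)
  have hpm : ∀ s, Measurable fun x : X => ENNReal.ofReal (p (s, x)) := fun s =>
    (hps s).measurable.ennreal_ofReal
  refine ext_of_lipschitz (fun r => ?_) fun f K R hf hf0 hR => ?_
  · rw [withDensity_apply _ Metric.isOpen_ball.measurableSet]
    have : IntegrableOn (fun x : X => p (T, x)) (Metric.ball 0 r) μ :=
      ((hps T).continuousOn.integrableOn_compact (isCompact_closedBall 0 r)).mono_set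
        Metric.ball_subset_closedBall
    exact this.lintegral_lt_top.ne
  · obtain ⟨h1, h2, h3⟩ := transport_test μ b F hF p hp hT hA hce Φ h0 hΦ hf hR
    have hfm : Measurable fun x => ENNReal.ofReal (f x) := hf.continuous.measurable.ennreal_ofReal
    rw [lintegral_map hfm hm, lintegral_withDensity_eq_lintegral_mul _ (hpm 0)
      (by exact hfm.comp hm), lintegral_withDensity_eq_lintegral_mul _ (hpm T) hfm]
    simp only [Pi.mul_apply, ← ENNReal.ofReal_mul (hp0 _), mul_comm (p _)]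
    rw [← ofReal_integral_eq_lintegral_ofReal h1
        (Eventually.of_forall fun x => mul_nonneg (hf0 _) (hp0 _)),
      ← ofReal_integral_eq_lintegral_ofReal h2
        (Eventually.of_forall fun x => mul_nonneg (hf0 _) (hp0 _)), h3]

end Vale.Agent.P347
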