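import Mathlib

/-! Flows of truncated vector fields. -/

open MeasureTheory Filter Set Topology
open scoped ENNReal NNReal

namespace Vale.Agent.P347

variable {X : Type} [NormedAddCommGroup X] [NormedSpace ℝ X]

/-- two-sided Gronwall inequality -/
theorem gronwall2 {f f' : ℝ → X} {K ε s t : ℝ} (hf : ∀ u ∈ uIcc s t, HasDerivAt f (f' u) u)
    (bound : ∀ u ∈ uIcc s t, ‖f' u‖ ≤ K * ‖f u‖ + ε) :
    ‖f t‖ ≤ gronwallBound ‖f s‖ K ε |t - s| := by
  rcases le_total s t with h | h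
  · rw [uIcc_of_le h] at hf bound
    rw [abs_of_nonneg (sub_nonneg.mpr h)]
    exact norm_le_gronwallBound_of_norm_deriv_right_le (HasDerivAt.continuousOn hf)
      (fun u hu => (hf u (Ico_subset_Icc_self hu)).hasDerivWithinAt) le_rfl
      (fun u hu => bound u (Ico_subset_Icc_self hu)) t ⟨h, le_rfl⟩
  · rw [uIcc_of_ge h] at hf bound
    have hm : ∀ u ∈ Icc (-s) (-t), -u ∈ Icc t s := fun u hu =>
      ⟨by linarith [hu.2], by linarith [hu.1]⟩
    have hd : ∀ u ∈ Icc (-s) (-t), HasDerivAt (fun u => f (-u)) (-f' (-u)) u := fun u hu => by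
      have := (hf (-u) (hm u hu)).scomp u (hasDerivAt_neg u)
      simpa [Function.comp_def] using this
    have := norm_le_gronwallBound_of_norm_deriv_right_le (HasDerivAt.continuousOn hd)
      (fun u hu => (hd u (Ico_subset_Icc_self hu)).hasDerivWithinAt) le_rfl
      (fun u hu => by
        rw [norm_neg]; exact bound _ (hm u (Ico_subset_Icc_self hu))) (-t) ⟨by linarith, le_rfl⟩
    rw [abs_of_nonpos (sub_nonpos.mpr h)]
    simp only [neg_neg] at this
    convert this using 2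
    ring

/-- a priori bound under linear growth -/
theorem apriori {f f' : ℝ → X} {A s t : ℝ} (hf : ∀ u ∈ uIcc s t, HasDerivAt f (f' u) u)
    (bound : ∀ u ∈ uIcc s t, ‖f' u‖ ≤ A * (1 + ‖f u‖)) :
    ‖f t‖ ≤ (‖f s‖ + 1) * Real.exp (A * |t - s|) := by
  have h := gronwall2 (K := A) (ε := A) hf fun u hu => by linarith [bound u hu]
  refine h.trans ?_
  by_cases hA : A = 0
  · subst hA
    simp [gronwallBound_K0]
  · rw [gronwallBound_of_K_ne_0 hA]
    simp only [div_self hA]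
    linarith

theorem dist_traj {V : ℝ × X → X} {K : ℝ≥0} (hK : LipschitzWith K V) {f g : ℝ → X} {s t : ℝ}
    (hf : ∀ u ∈ uIcc s t, HasDerivAt f (V (u, f u)) u)
    (hg : ∀ u ∈ uIcc s t, HasDerivAt g (V (u, g u)) u) :
    ‖f t - g t‖ ≤ ‖f s - g s‖ * Real.exp (K * |t - s|) := by
  have h := gronwall2 (f := fun u => f u - g u) (K := K) (ε := 0)
    (fun u hu => (hf u hu).sub (hg u hu)) fun u _ => by
      have := hK.dist_le_mul (u, f u) (u, g u)
      rw [dist_eq_norm, dist_prod_same_left, dist_eq_norm] at this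
      linarith
  rwa [gronwallBound_ε0] at h

theorem traj_unique {V : ℝ × X → X} {K : ℝ≥0} (hK : LipschitzWith K V) {f g : ℝ → X} {s t : ℝ}
    (hf : ∀ u ∈ uIcc s t, HasDerivAt f (V (u, f u)) u)
    (hg : ∀ u ∈ uIcc s t, HasDerivAt g (V (u, g u)) u) (h : f s = g s) : f t = g t := by
  have := dist_traj hK hf hg
  rw [h, sub_self, norm_zero, zero_mul] at this
  exact sub_eq_zero.mp (norm_le_zero_iff.mp this)

/-- two-parameter flow of a bounded Lipschitz field -/
theorem core_flow [CompleteSpace X] {V : ℝ × X → X} {K L : ℝ≥0} (hK : LipschitzWith K V)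
    (hL : ∀ q, ‖V q‖ ≤ L) (a b : ℝ) :
    ∃ α : ℝ → X → ℝ → X, ∀ s ∈ Ioo a b, ∀ x, α s x s = x ∧
      ∀ t ∈ Ioo a b, HasDerivAt (α s x) (V (t, α s x t)) t := by
  have key : ∀ (s : ℝ) (x : X), ∃ γ : ℝ → X, s ∈ Ioo a b → γ s = x ∧
      ∀ t ∈ Ioo a b, HasDerivAt γ (V (t, γ t)) t := by
    intro s x
    by_cases hs : s ∈ Ioo a b
    · have hab : 0 ≤ b - a := by linarith [hs.1, hs.2]
      have hPL : IsPicardLindelof (fun t y => V (t, y))
          (⟨s, Ioo_subset_Icc_self hs⟩ : Icc a b) x (L * ⟨b - a, hab⟩) 0 L K := by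
        refine ⟨fun t _ => ?_, fun y _ => ?_, fun t _ y _ => hL _, ?_⟩
        · have := hK.comp (LipschitzWith.prodMk_left t)
          rw [mul_one] at this
          exact this.lipschitzOnWith
        · exact (hK.continuous.comp (Continuous.prodMk_left y)).continuousOn
        · simp only [NNReal.coe_zero, sub_zero]
          refine mul_le_mul_of_nonneg_left (max_le ?_ ?_) L.2 <;> linarith [hs.1, hs.2]
      obtain ⟨γ, h1, h2⟩ := hPL.exists_eq_forall_mem_Icc_hasDerivWithinAt₀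
      exact ⟨γ, fun _ => ⟨h1, fun t ht =>
        (h2 t (Ioo_subset_Icc_self ht)).hasDerivAt (Icc_mem_nhds ht.1 ht.2)⟩⟩
    · exact ⟨fun _ => x, fun h => absurd h hs⟩
  choose α hα using key
  exact ⟨α, fun s hs x => hα s x hs⟩

/-- truncation of a C^1 field -/
theorem exists_trunc [FiniteDimensional ℝ X] {F : ℝ × X → X} (hF : ContDiff ℝ 1 F) (R : ℝ) :
    ∃ (V : ℝ × X → X) (K L : ℝ≥0), ContDiff ℝ 1 V ∧ HasCompactSupport V ∧ LipschitzWith K V ∧
      (∀ q, ‖V q‖ ≤ L) ∧ (∀ q, ‖V q‖ ≤ ‖F q‖) ∧ ∀ q, ‖q‖ ≤ R → V q = F q := by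
  let χ : ContDiffBump (0 : ℝ × X) := ⟨|R| + 1, |R| + 2, by positivity, by linarith⟩
  have h1 : ContDiff ℝ 1 fun q => χ q • F q := χ.contDiff.smul hF
  have h2 : HasCompactSupport fun q => χ q • F q := χ.hasCompactSupport.smul_right
  obtain ⟨K, hK⟩ := ContDiff.lipschitzWith_of_hasCompactSupport h2 h1 one_ne_zero
  obtain ⟨L, hL⟩ := h2.exists_bound_of_continuous h1.continuous
  refine ⟨_, K, ⟨max L 0, le_max_right _ _⟩, h1, h2, hK, fun q => (hL q).trans (le_max_left _ _),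
    fun q => ?_, fun q hq => ?_⟩
  · rw [norm_smul, Real.norm_eq_abs, abs_of_nonneg χ.nonneg]
    exact mul_le_of_le_one_left (norm_nonneg _) χ.le_one
  · rw [χ.one_of_mem_closedBall, one_smul]
    rw [mem_closedBall_zero_iff]
    show ‖q‖ ≤ |R| + 1
    linarith [le_abs_self R]

section Flow

variable {V : ℝ × X → X} {K L : ℝ≥0} {a b : ℝ} {α : ℝ → X → ℝ → X}

/-- the defining property of a two-parameter flow -/
def IsFl (V : ℝ × X → X) (a b : ℝ) (α : ℝ → X → ℝ → X) : Prop :=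
  ∀ s ∈ Ioo a b, ∀ x, α s x s = x ∧ ∀ t ∈ Ioo a b, HasDerivAt (α s x) (V (t, α s x t)) t

theorem IsFl.deriv (h : IsFl V a b α) {s : ℝ} (hs : s ∈ Ioo a b) (x : X) {u t : ℝ}
    (hu : u ∈ Ioo a b) (ht : t ∈ Ioo a b) :
    ∀ r ∈ uIcc u t, HasDerivAt (α s x) (V (r, α s x r)) r :=
  fun r hr => (h s hs x).2 r (ordConnected_Ioo.uIcc_subset hu ht hr)

theorem IsFl.cocycle (h : IsFl V a b α) (hK : LipschitzWith K V) {s u t : ℝ} (hs : s ∈ Ioo a b)
    (hu : u ∈ Ioo a b) (ht : t ∈ Ioo a b) (x : X) : α u (α s x u) t = α s x t :=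
  traj_unique hK (h.deriv hu _ hu ht) (h.deriv hs _ hu ht) (h u hu _).1

theorem IsFl.lip (h : IsFl V a b α) (hK : LipschitzWith K V) {s t : ℝ} (hs : s ∈ Ioo a b)
    (ht : t ∈ Ioo a b) :
    LipschitzWith ⟨Real.exp (K * (b - a)), (Real.exp_pos _).le⟩ fun x => α s x t := by
  refine LipschitzWith.of_dist_le_mul fun x y => ?_
  have h1 := dist_traj hK (h.deriv hs x hs ht) (h.deriv hs y hs ht)
  rw [(h s hs x).1, (h s hs y).1] at h1
  rw [dist_eq_norm, dist_eq_norm, mul_comm]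
  refine h1.trans (mul_le_mul_of_nonneg_left ?_ (norm_nonneg _))
  refine Real.exp_le_exp.2 (mul_le_mul_of_nonneg_left ?_ K.2)
  rw [abs_le]
  constructor <;> linarith [hs.1, hs.2, ht.1, ht.2]

theorem IsFl.speed (h : IsFl V a b α) (hL : ∀ q, ‖V q‖ ≤ L) {s t : ℝ} (hs : s ∈ Ioo a b)
    (ht : t ∈ Ioo a b) (x : X) : ‖α s x t - x‖ ≤ L * |t - s| := by
  have := (convex_uIcc s t).norm_image_sub_le_of_norm_hasDerivWithin_le
    (fun r hr => (h.deriv hs x hs ht r hr).hasDerivWithinAt) (fun r _ => hL _)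
    left_mem_uIcc right_mem_uIcc
  rwa [(h s hs x).1, Real.norm_eq_abs] at this

theorem IsFl.hasDerivAt_init (h : IsFl V a b α) (hK : LipschitzWith K V) (hL : ∀ q, ‖V q‖ ≤ L)
    {s₀ : ℝ} (hs₀ : s₀ ∈ Ioo a b) (x : X) :
    HasDerivAt (fun s => α s x s₀) (-V (s₀, x)) s₀ := by
  rw [hasDerivAt_iff_isLittleO]
  have h1 : (fun s => α s x s₀ - α s₀ x s₀ - (s - s₀) • -V (s₀, x))
      =O[𝓝 s₀] fun s => ‖s - s₀‖ ^ 2 := by
    refine Asymptotics.IsBigO.of_bound (K * (1 + L)) ?_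
    filter_upwards [Ioo_mem_nhds hs₀.1 hs₀.2] with s hs
    have h2 := (convex_uIcc s s₀).norm_image_sub_le_of_norm_hasDerivWithin_le
      (f := fun u => α s x u - u • V (s₀, x)) (f' := fun u => V (u, α s x u) - V (s₀, x))
      (C := K * (1 + L) * |s - s₀|)
      (fun r hr => by
        have := (h.deriv hs x hs hs₀ r hr).sub ((hasDerivAt_id r).smul_const (V (s₀, x)))
        rw [one_smul] at this
        exact this.hasDerivWithinAt)
      (fun r hr => by
        have h3 := hK.dist_le_mul (r, α s x r) (s₀, x)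
        rw [dist_eq_norm] at h3
        refine h3.trans ?_
        rw [mul_assoc]
        refine mul_le_mul_of_nonneg_left ?_ K.2
        have h4 : |r - s₀| ≤ |s - s₀| := by
          rw [abs_sub_comm s s₀, abs_sub_comm r s₀]; exact abs_sub_right_of_mem_uIcc hr
        have h5 : |r - s| ≤ |s - s₀| := by
          rw [abs_sub_comm s s₀]; exact abs_sub_left_of_mem_uIcc hr
        have h6 := h.speed hL hs (ordConnected_Ioo.uIcc_subset hs hs₀ hr) x
        have h7 := mul_le_mul_of_nonneg_left h5 L.2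
        have h8 : 0 ≤ L * |s - s₀| := mul_nonneg L.2 (abs_nonneg _)
        rw [Prod.dist_eq, Real.dist_eq, dist_eq_norm]
        refine max_le ?_ ?_ <;> simp only [NNReal.val_eq_coe] at h7 <;>
          linarith [abs_nonneg (s - s₀)])
      left_mem_uIcc right_mem_uIcc
    rw [(h s hs x).1] at h2
    rw [(h s₀ hs₀ x).1, norm_pow, norm_norm, Real.norm_eq_abs]
    have e : α s x s₀ - x - (s - s₀) • -V (s₀, x)
        = α s x s₀ - s₀ • V (s₀, x) - (x - s • V (s₀, x)) := by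
      rw [smul_neg, sub_smul]; abel
    rw [e]
    refine h2.trans (le_of_eq ?_)
    rw [Real.norm_eq_abs, abs_sub_comm s₀ s]
    ring
  exact h1.trans_isLittleO (Asymptotics.isLittleO_pow_sub_sub s₀ one_lt_two)

end Flow

end Vale.Agent.P347
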