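import Vale.Agent.P347.Base
import Vale.Agent.P074.PLd

open MeasureTheory ProbabilityTheory Filter Set Topology
open scoped ENNReal ContDiff RealInnerProductSpace

namespace Vale.Agent.P347

/-- one dimensional second order lower bound -/
theorem lower_one_dim {g g1 g2 : ℝ → ℝ} {c : ℝ} (h1 : ∀ r, HasDerivAt g (g1 r) r)
    (h2 : ∀ r, HasDerivAt g1 (g2 r) r) (hc : ∀ r, c ≤ g2 r) :
    g 0 + g1 0 + c / 2 ≤ g 1 := by
  have k1 : ∀ r, HasDerivAt (fun r => g1 r - c * r) (g2 r - c) r := fun r => by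
    have a := (h2 r).sub ((hasDerivAt_id r).const_mul c)
    exact a.congr_deriv (by simp)
  have m1 : Monotone (fun r => g1 r - c * r) :=
    monotone_of_deriv_nonneg (fun r => (k1 r).differentiableAt) fun r => by
      rw [(k1 r).deriv]; linarith [hc r]
  have k0 : ∀ r, HasDerivAt (fun r => g r - c / 2 * r ^ 2 - g1 0 * r)
      (g1 r - c * r - g1 0) r := fun r => by
    have a := ((h1 r).sub (((hasDerivAt_id r).pow 2).const_mul (c / 2))).sub
      ((hasDerivAt_id r).const_mul (g1 0))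
    refine a.congr_deriv ?_
    simp only [id]
    norm_num
    ring
  have m0 : MonotoneOn (fun r => g r - c / 2 * r ^ 2 - g1 0 * r) (Ici 0) :=
    monotoneOn_of_deriv_nonneg (convex_Ici 0)
      (fun r _ => (k0 r).continuousAt.continuousWithinAt)
      (fun r _ => (k0 r).differentiableAt.differentiableWithinAt) fun r hr => by
        rw [(k0 r).deriv]
        have hr' : (0 : ℝ) ≤ r := by
          have := interior_subset hr
          simpa using this
        have := m1 hr'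
        simp only at this
        linarith
  have := m0 (show (0 : ℝ) ∈ Ici 0 by simp) (show (1 : ℝ) ∈ Ici 0 by simp) zero_le_one
  simp only at this
  linarith

theorem exp_ge_quad {a : ℝ} (ha : |a| ≤ 1) : 1 + a + a ^ 2 / 2 - |a| ^ 3 ≤ Real.exp a := by
  have h := Real.exp_bound ha (n := 3) (by norm_num)
  simp only [Finset.sum_range_succ, Finset.sum_range_zero, Nat.factorial] at h
  have h2 := (abs_le.mp h).1
  have h3 : 0 ≤ |a| ^ 3 := by positivity
  norm_num at h2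
  nlinarith

/-- second order lower bound for exponential moments -/
theorem integral_exp_lower {α : Type*} [MeasurableSpace α] {μ : Measure α} [IsFiniteMeasure μ]
    {φ h : α → ℝ} (hφ : AEStronglyMeasurable φ μ) (hh : AEStronglyMeasurable h μ) {M δ : ℝ}
    (hM : 0 ≤ M) (bφ : ∀ᵐ x ∂μ, |φ x| ≤ M) (bh : ∀ᵐ x ∂μ, |h x| ≤ M)
    (hδ : 0 < δ) (hδ1 : δ ≤ 1) (hδM : 2 * M * δ ≤ 1) :
    μ.real univ + δ * ((∫ x, φ x ∂μ) + δ * ((∫ x, φ x ^ 2 ∂μ) / 2 - ∫ x, h x ∂μ)
      - (M ^ 2 + 8 * M ^ 3) * δ ^ 2 * μ.real univ)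
      ≤ ∫ x, Real.exp (δ * φ x - δ ^ 2 * h x) ∂μ := by
  have iφ : Integrable φ μ := Integrable.of_bound hφ M (by simpa using bφ)
  have ih : Integrable h μ := Integrable.of_bound hh M (by simpa using bh)
  have iφ2 : Integrable (fun x => φ x ^ 2) μ :=
    Integrable.of_bound (hφ.pow 2) (M ^ 2) (by
      filter_upwards [bφ] with x hx
      rw [Real.norm_eq_abs, abs_pow]
      gcongr)
  have ba : ∀ᵐ x ∂μ, |δ * φ x - δ ^ 2 * h x| ≤ 2 * M * δ := by
    filter_upwards [bφ, bh] with x h1 h2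
    calc |δ * φ x - δ ^ 2 * h x| ≤ |δ * φ x| + |δ ^ 2 * h x| := abs_sub _ _
      _ = δ * |φ x| + δ * δ * |h x| := by
          rw [abs_mul, abs_mul, abs_of_pos hδ, abs_of_pos (pow_pos hδ 2), sq]
      _ ≤ δ * M + δ * 1 * M := by gcongr
      _ = 2 * M * δ := by ring
  have iE : Integrable (fun x => Real.exp (δ * φ x - δ ^ 2 * h x)) μ :=
    Integrable.of_bound
      (Real.continuous_exp.comp_aestronglyMeasurable ((hφ.const_mul δ).sub (hh.const_mul _)))
      (Real.exp 1) (by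
        filter_upwards [ba] with x hx
        rw [Real.norm_eq_abs, abs_of_pos (Real.exp_pos _)]
        exact Real.exp_le_exp.mpr ((le_abs_self _).trans (hx.trans hδM)))
  have iL : Integrable (fun x => (1 - (M ^ 2 + 8 * M ^ 3) * δ ^ 3) + δ * φ x
      + δ ^ 2 / 2 * φ x ^ 2 - δ ^ 2 * h x) μ :=
    (((integrable_const _).add (iφ.const_mul _)).add (iφ2.const_mul _)).sub (ih.const_mul _)
  have key : ∫ x, ((1 - (M ^ 2 + 8 * M ^ 3) * δ ^ 3) + δ * φ x
      + δ ^ 2 / 2 * φ x ^ 2 - δ ^ 2 * h x) ∂μ ≤ ∫ x, Real.exp (δ * φ x - δ ^ 2 * h x) ∂μ := by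
    refine integral_mono_ae iL iE ?_
    filter_upwards [bφ, bh, ba] with x h1 h2 h3
    have e := exp_ge_quad (h3.trans hδM)
    have c3 : |δ * φ x - δ ^ 2 * h x| ^ 3 ≤ (2 * M * δ) ^ 3 := by gcongr
    have p1 : φ x * h x ≤ M ^ 2 := by
      calc φ x * h x ≤ |φ x * h x| := le_abs_self _
        _ = |φ x| * |h x| := abs_mul _ _
        _ ≤ M * M := by gcongr
        _ = M ^ 2 := by ring
    have p2 : δ ^ 3 * (φ x * h x) ≤ δ ^ 3 * M ^ 2 := by gcongr
    have p3 : 0 ≤ δ ^ 4 * h x ^ 2 := by positivity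
    have e2 : (δ * φ x - δ ^ 2 * h x) ^ 2
        = δ ^ 2 * φ x ^ 2 - 2 * (δ ^ 3 * (φ x * h x)) + δ ^ 4 * h x ^ 2 := by ring
    have e3 : (2 * M * δ) ^ 3 = 8 * M ^ 3 * δ ^ 3 := by ring
    nlinarith
  have i1 : Integrable (fun x => (1 - (M ^ 2 + 8 * M ^ 3) * δ ^ 3) + δ * φ x) μ :=
    (integrable_const _).add (iφ.const_mul _)
  have i2 : Integrable (fun x => (1 - (M ^ 2 + 8 * M ^ 3) * δ ^ 3) + δ * φ x
      + δ ^ 2 / 2 * φ x ^ 2) μ := i1.add (iφ2.const_mul _)
  rw [integral_sub i2 (ih.const_mul _), integral_add i1 (iφ2.const_mul _),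
    integral_add (integrable_const _) (iφ.const_mul _), integral_const_mul, integral_const_mul,
    integral_const_mul, integral_const, smul_eq_mul] at key
  refine le_trans (le_of_eq ?_) key
  ring

/-- variance bound from the exponential inequality -/
theorem var_le_of_exp {α : Type*} [MeasurableSpace α] {μ : Measure α} [IsFiniteMeasure μ]
    {φ h : α → ℝ} (hφ : AEStronglyMeasurable φ μ) (hh : AEStronglyMeasurable h μ) {M : ℝ}
    (hM : 0 ≤ M) (bφ : ∀ᵐ x ∂μ, |φ x| ≤ M) (bh : ∀ᵐ x ∂μ, |h x| ≤ M)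
    (hτ : ∀ᶠ δ in 𝓝[>] (0 : ℝ), (∫ x, Real.exp (δ * φ x - δ ^ 2 * h x) ∂μ)
      * (∫ x, Real.exp (-(δ * φ x)) ∂μ) ≤ (μ.real univ) ^ 2) :
    μ.real univ * (∫ x, φ x ^ 2 ∂μ) - (∫ x, φ x ∂μ) ^ 2 ≤ μ.real univ * ∫ x, h x ∂μ := by
  rcases eq_or_lt_of_le (measureReal_nonneg (μ := μ) (s := univ)) with hZ | hZ
  · have : μ = 0 := by
      have h0 : μ univ = 0 := by
        rw [eq_comm, measureReal_eq_zero_iff] at hZ
        exact hZ
      exact Measure.measure_univ_eq_zero.mp h0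
    subst this
    simp
  set Z := μ.real univ with hZdef
  set m := ∫ x, φ x ∂μ with hm
  set S := ∫ x, φ x ^ 2 ∂μ with hS
  set H := ∫ x, h x ∂μ with hH
  set C := M ^ 2 + 8 * M ^ 3 with hC
  let u : ℝ → ℝ := fun δ => m + δ * (S / 2 - H) - C * δ ^ 2 * Z
  let v : ℝ → ℝ := fun δ => -m + δ * (S / 2 - 0) - C * δ ^ 2 * Z
  let G : ℝ → ℝ := fun δ => Z * (S - H - 2 * C * δ * Z) + u δ * v δ
  have cG : Continuous G := by fun_prop
  have tG : Tendsto G (𝓝[>] 0) (𝓝 (G 0)) := cG.continuousAt.tendsto.mono_left nhdsWithin_le_nhds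
  have e1 : ∀ᶠ δ in 𝓝[>] (0 : ℝ), δ ≤ 1 :=
    mem_nhdsWithin_of_mem_nhds (Iic_mem_nhds zero_lt_one)
  have e2 : ∀ᶠ δ in 𝓝[>] (0 : ℝ), 2 * M * δ ≤ 1 := by
    have c : Continuous fun δ : ℝ => 2 * M * δ := by fun_prop
    have := c.continuousAt (x := 0) |>.eventually (Iic_mem_nhds (by simp : 2 * M * (0 : ℝ) < 1))
    exact mem_nhdsWithin_of_mem_nhds this
  have e3 : ∀ᶠ δ in 𝓝[>] (0 : ℝ), 0 ≤ Z + δ * v δ := by
    have c : Continuous fun δ : ℝ => Z + δ * v δ := by fun_prop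
    have := c.continuousAt (x := 0) |>.eventually
      (Ici_mem_nhds (by simpa using hZ : (0 : ℝ) < Z + 0 * v 0))
    exact mem_nhdsWithin_of_mem_nhds this
  have hG : ∀ᶠ δ in 𝓝[>] (0 : ℝ), G δ ≤ 0 := by
    filter_upwards [e1, e2, e3, hτ, self_mem_nhdsWithin] with δ h1 h2 h3 h4 h5
    have hδ : 0 < δ := h5
    have l1 := integral_exp_lower hφ hh hM bφ bh hδ h1 h2
    have l2 := integral_exp_lower (μ := μ) (φ := fun x => -φ x) (h := fun _ => 0) hφ.neg
      aestronglyMeasurable_const hM (by simpa using bφ)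
      (Eventually.of_forall fun _ => by simpa using hM) hδ h1 h2
    simp only [integral_neg, neg_sq, integral_zero, mul_neg, mul_zero, sub_zero] at l2
    have l1' : Z + δ * u δ ≤ ∫ x, Real.exp (δ * φ x - δ ^ 2 * h x) ∂μ := l1
    have l2' : Z + δ * v δ ≤ ∫ x, Real.exp (-(δ * φ x)) ∂μ := by
      refine le_trans (le_of_eq ?_) l2
      simp only [v]
      ring
    have l3 : (Z + δ * u δ) * (Z + δ * v δ) ≤ Z ^ 2 :=
      le_trans (mul_le_mul l1' l2' h3 (integral_nonneg fun x => (Real.exp_pos _).le)) h4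
    have l4 : (Z + δ * u δ) * (Z + δ * v δ) = Z ^ 2 + δ ^ 2 * G δ := by
      simp only [G, u, v]
      ring
    have l5 : δ ^ 2 * G δ ≤ 0 := by linarith
    by_contra hc
    push Not at hc
    have := mul_pos (pow_pos hδ 2) hc
    linarith
  have := le_of_tendsto tG hG
  simp only [G, u, v] at this
  nlinarith

end Vale.Agent.P347
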