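import Vale.Agent.P347.Base
import Vale.Agent.P074.PLd
import Vale.Agent.P347.Poincare1

open MeasureTheory ProbabilityTheory Filter Set
open scoped ENNReal ContDiff RealInnerProductSpace

namespace Vale.Agent.P347

variable {d : ℕ}

/-- C^2 with Hess ≥ κ -/
def SConv (κ : ℝ) (U : E d → ℝ) : Prop :=
  ContDiff ℝ 2 U ∧ ∀ x v : E d, κ * ‖v‖ ^ 2 ≤ iteratedFDeriv ℝ 2 U x ![v, v]

theorem SConv.lower {κ : ℝ} {U : E d → ℝ} (hU : SConv κ U) (x y : E d) :
    U x + ⟪gradient U x, y - x⟫ + κ / 2 * ‖y - x‖ ^ 2 ≤ U y := by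
  obtain ⟨hc, hH⟩ := hU
  set v := y - x with hv
  have hd : Differentiable ℝ U := hc.differentiable (by norm_num)
  have hd2 : Differentiable ℝ (fderiv ℝ U) :=
    (hc.fderiv_right (m := 1) (by norm_num)).differentiable (by norm_num)
  have hl : ∀ r : ℝ, HasDerivAt (fun r : ℝ => x + r • v) v r := fun r => by
    have a := ((hasDerivAt_id r).smul_const v).const_add x
    exact a.congr_deriv (by simp)
  have h1 : ∀ r : ℝ, HasDerivAt (fun r : ℝ => U (x + r • v)) (fderiv ℝ U (x + r • v) v) r :=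
    fun r => (hd _).hasFDerivAt.comp_hasDerivAt r (hl r)
  have h2 : ∀ r : ℝ, HasDerivAt (fun r : ℝ => fderiv ℝ U (x + r • v) v)
      (fderiv ℝ (fderiv ℝ U) (x + r • v) v v) r := fun r => by
    have a : HasDerivAt (fun r : ℝ => fderiv ℝ U (x + r • v))
        (fderiv ℝ (fderiv ℝ U) (x + r • v) v) r :=
      (hd2 _).hasFDerivAt.comp_hasDerivAt r (hl r)
    have b := a.clm_apply (hasDerivAt_const r v)
    exact b.congr_deriv (by simp)
  have h3 := lower_one_dim (c := κ * ‖v‖ ^ 2) h1 h2 fun r => by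
    have := hH (x + r • v) v
    rw [iteratedFDeriv_two_apply] at this
    simpa using this
  simp only [zero_smul, add_zero, one_smul] at h3
  rw [inner_gradient_left]
  have e : x + v = y := by simp [hv]
  rw [e] at h3
  linarith

theorem SConv.continuous {κ : ℝ} {U : E d → ℝ} (hU : SConv κ U) : Continuous U :=
  hU.1.continuous

theorem integrable_gauss_E {b : ℝ} (hb : 0 < b) :
    Integrable (fun x : E d => Real.exp (-b * ‖x‖ ^ 2)) volume := by
  have h := (GaussianFourier.integrable_cexp_neg_mul_sq_norm_add (V := E d) (b := (b : ℂ))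
    (by simpa using hb) 0 0).norm
  refine h.congr (Eventually.of_forall fun x => ?_)
  simp only [zero_mul, add_zero, Complex.norm_exp]
  congr 1
  rw [← Complex.ofReal_neg, ← Complex.ofReal_pow, ← Complex.ofReal_mul, Complex.ofReal_re]

theorem SConv.integrable_exp {F : Type} [NormedAddCommGroup F] [NormedSpace ℝ F] {κ : ℝ}
    {U : E d → ℝ} (hκ : 0 < κ) (hU : SConv κ U) {f : E d → F}
    (hf : AEStronglyMeasurable f volume) {A B : ℝ} (hb : ∀ x, ‖f x‖ ≤ A * Real.exp (B * ‖x‖)) :
    Integrable (fun x => Real.exp (-U x) • f x) volume := by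
  have hA : 0 ≤ A := by
    have := (norm_nonneg _).trans (hb 0)
    simpa using this
  set G := ‖gradient U 0‖ with hG
  have hg := (integrable_gauss_E (d := d) (b := κ / 4) (by positivity)).const_mul
    (A * Real.exp (-U 0 + (G + |B|) ^ 2 / κ))
  refine hg.mono' ?_ (Eventually.of_forall fun x => ?_)
  · exact (Real.continuous_exp.comp hU.continuous.neg).aestronglyMeasurable.smul hf
  · rw [norm_smul, Real.norm_eq_abs, abs_of_pos (Real.exp_pos _)]
    have l := hU.lower 0 x
    simp only [sub_zero] at l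
    have l2 : -(G * ‖x‖) ≤ ⟪gradient U 0, x⟫ :=
      neg_le_of_abs_le (abs_real_inner_le_norm _ _)
    have l3 : B * ‖x‖ ≤ |B| * ‖x‖ := by gcongr; exact le_abs_self _
    have l4 : (G + |B|) * ‖x‖ ≤ (G + |B|) ^ 2 / κ + κ / 4 * ‖x‖ ^ 2 := by
      have : (G + |B|) ^ 2 / κ + κ / 4 * ‖x‖ ^ 2 - (G + |B|) * ‖x‖
          = ((G + |B|) - κ / 2 * ‖x‖) ^ 2 / κ := by
        field_simp
        ring
      have h2 : 0 ≤ ((G + |B|) - κ / 2 * ‖x‖) ^ 2 / κ := by positivity
      linarith
    calc Real.exp (-U x) * ‖f x‖ ≤ Real.exp (-U x) * (A * Real.exp (B * ‖x‖)) := by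
          gcongr; exact hb x
      _ = A * Real.exp (-U x + B * ‖x‖) := by rw [Real.exp_add]; ring
      _ ≤ A * Real.exp ((-U 0 + (G + |B|) ^ 2 / κ) + -(κ / 4) * ‖x‖ ^ 2) := by
          refine mul_le_mul_of_nonneg_left (Real.exp_le_exp.mpr ?_) hA
          nlinarith
      _ = _ := by rw [Real.exp_add]; ring

theorem SConv.integrable_exp_neg {κ : ℝ} {U : E d → ℝ} (hκ : 0 < κ) (hU : SConv κ U) :
    Integrable (fun x => Real.exp (-U x)) volume := by
  have := hU.integrable_exp hκ (f := fun _ => (1 : ℝ)) aestronglyMeasurable_const (A := 1) (B := 0)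
    (fun x => by simp)
  simpa using this

theorem SConv.integral_exp_pos {κ : ℝ} {U : E d → ℝ} (hκ : 0 < κ) (hU : SConv κ U) :
    0 < ∫ x, Real.exp (-U x) :=
  MeasureTheory.integral_exp_pos (hU.integrable_exp_neg hκ)

theorem SConv.lintegral_eq {κ : ℝ} {U : E d → ℝ} (hκ : 0 < κ) (hU : SConv κ U) :
    ∫⁻ x, ENNReal.ofReal (Real.exp (-U x)) = ENNReal.ofReal (∫ x, Real.exp (-U x)) :=
  (ofReal_integral_eq_lintegral_ofReal (hU.integrable_exp_neg hκ)
    (Eventually.of_forall fun _ => (Real.exp_pos _).le)).symm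

theorem SConv.measurable_dens {κ : ℝ} {U : E d → ℝ} (hU : SConv κ U) :
    Measurable fun x => ENNReal.ofReal (Real.exp (-U x)) :=
  (Real.continuous_exp.comp hU.continuous.neg).measurable.ennreal_ofReal

theorem SConv.gibbs_prob {κ : ℝ} {U : E d → ℝ} (hκ : 0 < κ) (hU : SConv κ U) :
    IsProbabilityMeasure (gibbs U) := by
  constructor
  rw [gibbs, Measure.smul_apply, withDensity_apply _ MeasurableSet.univ, Measure.restrict_univ,
    smul_eq_mul]
  refine ENNReal.inv_mul_cancel ?_ ?_
  · rw [hU.lintegral_eq hκ]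
    simpa using hU.integral_exp_pos hκ
  · rw [hU.lintegral_eq hκ]
    exact ENNReal.ofReal_ne_top

theorem SConv.integral_gibbs {F : Type} [NormedAddCommGroup F] [NormedSpace ℝ F] {κ : ℝ}
    {U : E d → ℝ} (hκ : 0 < κ) (hU : SConv κ U) (f : E d → F) :
    ∫ x, f x ∂(gibbs U) = (∫ x, Real.exp (-U x))⁻¹ • ∫ x, Real.exp (-U x) • f x := by
  rw [gibbs, integral_smul_measure, integral_withDensity_eq_integral_toReal_smul
    hU.measurable_dens (Eventually.of_forall fun _ => ENNReal.ofReal_lt_top), hU.lintegral_eq hκ,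
    ENNReal.toReal_inv, ENNReal.toReal_ofReal (hU.integral_exp_pos hκ).le]
  congr 1
  refine integral_congr_ae (Eventually.of_forall fun x => ?_)
  simp only [ENNReal.toReal_ofReal (Real.exp_pos _).le]

theorem SConv.integrable_gibbs {F : Type} [NormedAddCommGroup F] [NormedSpace ℝ F] {κ : ℝ}
    {U : E d → ℝ} (hκ : 0 < κ) (hU : SConv κ U) {f : E d → F}
    (hf : AEStronglyMeasurable f volume) {A B : ℝ} (hb : ∀ x, ‖f x‖ ≤ A * Real.exp (B * ‖x‖)) :
    Integrable f (gibbs U) := by
  rw [gibbs]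
  refine Integrable.smul_measure ?_ ?_
  · rw [integrable_withDensity_iff_integrable_smul' hU.measurable_dens
      (Eventually.of_forall fun _ => ENNReal.ofReal_lt_top)]
    refine (hU.integrable_exp hκ hf hb).congr (Eventually.of_forall fun x => ?_)
    simp only [ENNReal.toReal_ofReal (Real.exp_pos _).le]
  · rw [hU.lintegral_eq hκ]
    simpa using hU.integral_exp_pos hκ

/-- midpoint strong convexity -/
theorem SConv.midpoint {κ : ℝ} {U : E d → ℝ} (hU : SConv κ U) (x y : E d) :
    2 * U ((1 / 2 : ℝ) • (x + y)) + κ / 4 * ‖x - y‖ ^ 2 ≤ U x + U y := by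
  set z := (1 / 2 : ℝ) • (x + y) with hz
  have h1 := hU.lower z x
  have h2 := hU.lower z y
  have e1 : x - z = (1 / 2 : ℝ) • (x - y) := by rw [hz]; module
  have e2 : y - z = -((1 / 2 : ℝ) • (x - y)) := by rw [hz]; module
  rw [e1] at h1
  rw [e2, inner_neg_right, norm_neg] at h2
  have e3 : ‖(1 / 2 : ℝ) • (x - y)‖ ^ 2 = ‖x - y‖ ^ 2 / 4 := by
    rw [norm_smul, mul_pow]
    norm_num
    ring
  rw [e3] at h1 h2
  linarith

theorem SConv.lintegral_restrict {κ : ℝ} {U : E d → ℝ} (hU : SConv κ U) {K : Set (E d)}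
    (hK : MeasurableSet K) {F : E d → ℝ≥0∞} (hF : Measurable F) :
    ∫⁻ x, F x ∂((gibbs U).restrict K) = ∫⁻ x, ENNReal.ofReal (Real.exp (-U x)) * F x
      ∂((∫⁻ x, ENNReal.ofReal (Real.exp (-U x)))⁻¹ • (volume : Measure (E d)).restrict K) := by
  rw [gibbs, Measure.restrict_smul, restrict_withDensity hK, lintegral_smul_measure,
    lintegral_smul_measure, lintegral_withDensity_eq_lintegral_mul _ hU.measurable_dens hF]
  rfl

theorem ennreal_le_sq {P J : ℝ≥0∞} (hP : P ≠ ⊤) (h : P ≤ P ^ (1 / 2 : ℝ) * J) : P ≤ J ^ 2 := by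
  rcases eq_or_ne P 0 with h0 | h0
  · simp [h0]
  have e : P ^ (1 / 2 : ℝ) * P ^ (1 / 2 : ℝ) = P := by
    rw [← ENNReal.rpow_add _ _ h0 hP]
    norm_num
  have a0 : P ^ (1 / 2 : ℝ) ≠ 0 := by simp [h0, hP]
  have a1 : P ^ (1 / 2 : ℝ) ≠ ⊤ := ENNReal.rpow_ne_top_of_nonneg (by norm_num) hP
  have l : P ^ (1 / 2 : ℝ) ≤ J := by
    rw [← ENNReal.mul_le_mul_iff_right a0 a1, e]
    exact h
  calc P = P ^ (1 / 2 : ℝ) * P ^ (1 / 2 : ℝ) := e.symm
    _ ≤ J * J := by gcongr
    _ = J ^ 2 := (sq J).symm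

/-- the infimum convolution inequality on a compact convex set -/
theorem SConv.tau {κ : ℝ} {U : E d → ℝ} (hκ : 0 < κ) (hU : SConv κ U) {K : Set (E d)}
    (hK : IsCompact K) (hc : Convex ℝ K) {p q : E d → ℝ} (hp : Continuous p) (hq : Continuous q)
    (h : ∀ x ∈ K, ∀ y ∈ K, p x + q y ≤ κ / 4 * ‖x - y‖ ^ 2) :
    (∫ x, Real.exp (p x) ∂((gibbs U).restrict K)) * (∫ x, Real.exp (q x) ∂((gibbs U).restrict K))
      ≤ (((gibbs U).restrict K).real univ) ^ 2 := by
  have := hU.gibbs_prob hκ
  have hKm : MeasurableSet K := hK.measurableSet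
  have cp : Continuous fun x => Real.exp (p x) := Real.continuous_exp.comp hp
  have cq : Continuous fun x => Real.exp (q x) := Real.continuous_exp.comp hq
  have ip : Integrable (fun x => Real.exp (p x)) ((gibbs U).restrict K) :=
    cp.continuousOn.integrableOn_compact hK
  have iq : Integrable (fun x => Real.exp (q x)) ((gibbs U).restrict K) :=
    cq.continuousOn.integrableOn_compact hK
  have mp : Measurable fun x => ENNReal.ofReal (Real.exp (p x)) := cp.measurable.ennreal_ofReal
  have mq : Measurable fun x => ENNReal.ofReal (Real.exp (q x)) := cq.measurable.ennreal_ofReal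
  have mw := hU.measurable_dens
  have key := (Vale.Agent.P074.fourFn_euclid d).restrict hKm
    (fun x hx y hy => by
      have := hc hx hy (a := 1 / 2) (b := 1 / 2) (by norm_num) (by norm_num) (by norm_num)
      rwa [← smul_add] at this)
    (∫⁻ x, ENNReal.ofReal (Real.exp (-U x)))⁻¹
    (fun x => ENNReal.ofReal (Real.exp (-U x)) * ENNReal.ofReal (Real.exp (p x)))
    (fun x => ENNReal.ofReal (Real.exp (-U x)) * ENNReal.ofReal (Real.exp (q x)))
    (fun x => ENNReal.ofReal (Real.exp (-U x)) * ENNReal.ofReal (Real.exp (p x)))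
    (fun _ => 0) (fun x => ENNReal.ofReal (Real.exp (-U x)) * 1)
    (mw.mul mp) (mw.mul mq) (mw.mul mp) measurable_const (mw.mul measurable_const)
    (fun x hx y hy => by
      have m := hU.midpoint x y
      have hh := h x hx y hy
      rw [mul_zero, add_zero, mul_one, ← ENNReal.ofReal_mul (Real.exp_pos _).le,
        ← ENNReal.ofReal_mul (Real.exp_pos _).le, ← Real.exp_add, ← Real.exp_add,
        ← ENNReal.ofReal_mul (Real.exp_pos _).le, ← Real.exp_add,
        ENNReal.ofReal_rpow_of_pos (Real.exp_pos _), ← Real.exp_mul,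
        ← ENNReal.ofReal_mul (Real.exp_pos _).le, ← Real.exp_add]
      refine ENNReal.ofReal_le_ofReal (Real.exp_le_exp.mpr ?_)
      linarith)
  rw [← hU.lintegral_restrict hKm mp, ← hU.lintegral_restrict hKm mq,
    ← hU.lintegral_restrict hKm (F := fun _ => 1) measurable_const, lintegral_zero, mul_zero,
    add_zero, ← ofReal_integral_eq_lintegral_ofReal ip
      (Eventually.of_forall fun _ => (Real.exp_pos _).le),
    ← ofReal_integral_eq_lintegral_ofReal iq
      (Eventually.of_forall fun _ => (Real.exp_pos _).le), lintegral_one] at key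
  have key2 := ennreal_le_sq (ENNReal.mul_ne_top ENNReal.ofReal_ne_top ENNReal.ofReal_ne_top) key
  have key3 := ENNReal.toReal_mono (ENNReal.pow_ne_top (measure_ne_top _ _)) key2
  rw [ENNReal.toReal_mul, ENNReal.toReal_pow,
    ENNReal.toReal_ofReal (integral_nonneg fun _ => (Real.exp_pos _).le),
    ENNReal.toReal_ofReal (integral_nonneg fun _ => (Real.exp_pos _).le)] at key3
  exact key3

theorem norm_gradient_eq (f : E d → ℝ) (x : E d) : ‖gradient f x‖ = ‖fderiv ℝ f x‖ := by
  rw [← toDual_gradient, LinearIsometryEquiv.norm_map]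

/-- Poincaré inequality on a compact convex set -/
theorem SConv.poincare_compact {κ : ℝ} {U : E d → ℝ} (hκ : 0 < κ) (hU : SConv κ U)
    {K : Set (E d)} (hK : IsCompact K) (hc : Convex ℝ K) {φ : E d → ℝ} (hφ : ContDiff ℝ 1 φ) :
    ((gibbs U).restrict K).real univ * (∫ x, φ x ^ 2 ∂((gibbs U).restrict K))
      - (∫ x, φ x ∂((gibbs U).restrict K)) ^ 2
      ≤ ((gibbs U).restrict K).real univ
        * (κ⁻¹ * ∫ x, ‖fderiv ℝ φ x‖ ^ 2 ∂((gibbs U).restrict K)) := by
  have := hU.gibbs_prob hκ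
  have hKm : MeasurableSet K := hK.measurableSet
  have c0 : Continuous φ := hφ.continuous
  have c1 : Continuous fun x => ‖fderiv ℝ φ x‖ ^ 2 :=
    (hφ.continuous_fderiv (by norm_num)).norm.pow 2
  have hd : Differentiable ℝ φ := hφ.differentiable (by norm_num)
  set μ := (gibbs U).restrict K with hμ
  have i1 : Integrable (fun x => ‖fderiv ℝ φ x‖ ^ 2) μ := c1.continuousOn.integrableOn_compact hK
  have step : ∀ η : ℝ, 0 < η → μ.real univ * (∫ x, φ x ^ 2 ∂μ) - (∫ x, φ x ∂μ) ^ 2
      ≤ μ.real univ * (κ⁻¹ * ((∫ x, ‖fderiv ℝ φ x‖ ^ 2 ∂μ) + μ.real univ * η)) := by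
    intro η hη
    let h : E d → ℝ := fun x => κ⁻¹ * (‖fderiv ℝ φ x‖ ^ 2 + η)
    have ch : Continuous h := continuous_const.mul (c1.add continuous_const)
    obtain ⟨M1, hM1⟩ := hK.exists_bound_of_continuousOn c0.continuousOn
    obtain ⟨M2, hM2⟩ := hK.exists_bound_of_continuousOn ch.continuousOn
    set M := max (max M1 M2) 1 with hM
    have hM0 : 0 < M := lt_of_lt_of_le zero_lt_one (le_max_right _ _)
    have b1 : ∀ x ∈ K, |φ x| ≤ M := fun x hx =>
      (hM1 x hx).trans ((le_max_left _ _).trans (le_max_left _ _))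
    have b2 : ∀ x ∈ K, |h x| ≤ M := fun x hx =>
      (hM2 x hx).trans ((le_max_right _ _).trans (le_max_left _ _))
    obtain ⟨r, hr, hru⟩ := Metric.uniformContinuousOn_iff.mp
      (hK.uniformContinuousOn_of_continuous c1.continuousOn) η hη
    have main := var_le_of_exp (μ := μ) (φ := φ) (h := h) c0.aestronglyMeasurable
      ch.aestronglyMeasurable hM0.le
      ((ae_restrict_mem hKm).mono fun x hx => b1 x hx)
      ((ae_restrict_mem hKm).mono fun x hx => b2 x hx) (by
        have e1 : ∀ᶠ δ in nhdsWithin (0 : ℝ) (Ioi 0), δ ≤ κ * r ^ 2 / (8 * M) :=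
          mem_nhdsWithin_of_mem_nhds (Iic_mem_nhds (by positivity))
        filter_upwards [e1, self_mem_nhdsWithin] with δ hδ1 hδ0
        have hδ : 0 < δ := hδ0
        refine hU.tau hκ hK hc (p := fun x => δ * φ x - δ ^ 2 * h x) (q := fun x => -(δ * φ x))
          (by fun_prop) (by fun_prop) fun x hx y hy => ?_
        have h0 : 0 ≤ h x := by simp only [h]; positivity
        rcases lt_or_ge ‖x - y‖ r with hxy | hxy
        · set C := √(‖fderiv ℝ φ x‖ ^ 2 + η) with hC
          have hC2 : C ^ 2 = ‖fderiv ℝ φ x‖ ^ 2 + η := Real.sq_sqrt (by positivity)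
          have mv := (hc.inter (convex_ball x r)).norm_image_sub_le_of_norm_fderiv_le
            (f := φ) (C := C) (x := y) (y := x) (fun z _ => hd z)
            (fun z hz => by
              have := hru z hz.1 x hx hz.2
              rw [Real.dist_eq] at this
              refine Real.le_sqrt_of_sq_le ?_
              linarith [(abs_lt.mp this).2])
            ⟨hy, by rw [Metric.mem_ball, dist_comm, dist_eq_norm]; exact hxy⟩
            ⟨hx, Metric.mem_ball_self hr⟩
          have mv2 : φ x - φ y ≤ C * ‖x - y‖ := (le_abs_self _).trans mv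
          have mv3 : δ * (φ x - φ y) ≤ δ * (C * ‖x - y‖) := by gcongr
          have am : δ * (C * ‖x - y‖) ≤ δ ^ 2 * (κ⁻¹ * C ^ 2) + κ / 4 * ‖x - y‖ ^ 2 := by
            have : δ ^ 2 * (κ⁻¹ * C ^ 2) + κ / 4 * ‖x - y‖ ^ 2 - δ * (C * ‖x - y‖)
                = (δ * C - κ / 2 * ‖x - y‖) ^ 2 / κ := by
              field_simp
              ring
            have h2 : 0 ≤ (δ * C - κ / 2 * ‖x - y‖) ^ 2 / κ := by positivity
            linarith
          have e : h x = κ⁻¹ * C ^ 2 := by rw [hC2]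
          rw [e]
          linarith
        · have a1 := (abs_le.mp (b1 x hx)).2
          have a2 := (abs_le.mp (b1 y hy)).1
          have a3 : δ * (φ x - φ y) ≤ δ * (2 * M) := by gcongr; linarith
          have a4 : δ * (2 * M) ≤ κ * r ^ 2 / (8 * M) * (2 * M) := by gcongr
          have a5 : κ * r ^ 2 / (8 * M) * (2 * M) = κ / 4 * r ^ 2 := by
            field_simp
            ring
          have a6 : κ / 4 * r ^ 2 ≤ κ / 4 * ‖x - y‖ ^ 2 := by gcongr
          have a7 : 0 ≤ δ ^ 2 * h x := by positivity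
          linarith)
    have e : ∫ x, h x ∂μ = κ⁻¹ * ((∫ x, ‖fderiv ℝ φ x‖ ^ 2 ∂μ) + μ.real univ * η) := by
      simp only [h]
      rw [integral_const_mul, integral_add i1 (integrable_const _), integral_const, smul_eq_mul]
    rwa [e] at main
  have c : Continuous fun η : ℝ =>
      μ.real univ * (κ⁻¹ * ((∫ x, ‖fderiv ℝ φ x‖ ^ 2 ∂μ) + μ.real univ * η)) := by fun_prop
  have t := (c.continuousAt (x := 0)).tendsto.mono_left
    (nhdsWithin_le_nhds (s := Ioi (0 : ℝ)))
  have := ge_of_tendsto t (by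
    filter_upwards [self_mem_nhdsWithin] with η hη using step η hη)
  simpa using this

/-- Poincaré inequality for strongly log-concave laws. -/
theorem SConv.poincare {κ : ℝ} {U : E d → ℝ} (hκ : 0 < κ) (hU : SConv κ U) {f : E d → ℝ}
    (hf : ContDiff ℝ 1 f) {A B : ℝ} (hb : ∀ x, |f x| ≤ A * Real.exp (B * ‖x‖))
    (hb' : ∀ x, ‖gradient f x‖ ≤ A * Real.exp (B * ‖x‖)) :
    ∫ x, (f x - ∫ y, f y ∂(gibbs U)) ^ 2 ∂(gibbs U)
      ≤ κ⁻¹ * ∫ x, ‖gradient f x‖ ^ 2 ∂(gibbs U) := by
  have := hU.gibbs_prob hκ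
  set m := ∫ y, f y ∂(gibbs U) with hm
  have c0 : Continuous f := hf.continuous
  have c1 : Continuous fun x => ‖fderiv ℝ f x‖ ^ 2 :=
    (hf.continuous_fderiv (by norm_num)).norm.pow 2
  have sqb : ∀ (a : ℝ) (x : E d), |a| ≤ A * Real.exp (B * ‖x‖) →
      ‖a ^ 2‖ ≤ A ^ 2 * Real.exp (2 * B * ‖x‖) := fun a x ha => by
    rw [Real.norm_eq_abs, abs_pow]
    calc |a| ^ 2 ≤ (A * Real.exp (B * ‖x‖)) ^ 2 := by gcongr
      _ = A ^ 2 * Real.exp (2 * B * ‖x‖) := by
          rw [mul_pow, ← Real.exp_nat_mul]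
          congr 2
          push_cast
          ring
  have i0 : Integrable f (gibbs U) :=
    hU.integrable_gibbs hκ c0.aestronglyMeasurable (fun x => hb x)
  have i2 : Integrable (fun x => f x ^ 2) (gibbs U) :=
    hU.integrable_gibbs hκ (c0.pow 2).aestronglyMeasurable (fun x => sqb _ x (hb x))
  have i3 : Integrable (fun x => ‖fderiv ℝ f x‖ ^ 2) (gibbs U) :=
    hU.integrable_gibbs hκ c1.aestronglyMeasurable
      (fun x => sqb _ x (by rw [abs_norm, ← norm_gradient_eq]; exact hb' x))
  have j0 : Integrable (fun x => f x - m) (gibbs U) := i0.sub (integrable_const _)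
  have j2 : Integrable (fun x => (f x - m) ^ 2) (gibbs U) := by
    have : Integrable (fun x => f x ^ 2 - 2 * m * f x + m ^ 2) (gibbs U) :=
      (i2.sub (i0.const_mul _)).add (integrable_const _)
    refine this.congr (Eventually.of_forall fun x => ?_)
    simp only
    ring
  have hz : ∫ x, (f x - m) ∂(gibbs U) = 0 := by
    rw [integral_sub i0 (integrable_const _)]
    simp [hm]
  let K : ℕ → Set (E d) := fun n => Metric.closedBall 0 n
  have hKm : ∀ n, MeasurableSet (K n) := fun n => Metric.isClosed_closedBall.measurableSet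
  have hmono : Monotone K := fun a b hab =>
    Metric.closedBall_subset_closedBall (by exact_mod_cast hab)
  have hU' : (⋃ n, K n) = univ := Metric.iUnion_closedBall_nat 0
  have lim : ∀ g : E d → ℝ, Integrable g (gibbs U) →
      Tendsto (fun n => ∫ x, g x ∂((gibbs U).restrict (K n))) atTop
        (nhds (∫ x, g x ∂(gibbs U))) := fun g hg => by
    have := tendsto_setIntegral_of_monotone (μ := gibbs U) (f := g) hKm hmono hg.integrableOn
    rwa [hU', Measure.restrict_univ] at this
  have lim1 : Tendsto (fun n => ((gibbs U).restrict (K n)).real univ) atTop (nhds 1) := by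
    have := lim (fun _ => 1) (integrable_const _)
    simpa using this
  have l := (lim1.mul (lim _ j2)).sub ((lim _ j0).pow 2)
  have r := lim1.mul ((lim _ i3).const_mul κ⁻¹)
  have fin := le_of_tendsto_of_tendsto' l r fun n => by
    have := hU.poincare_compact hκ (isCompact_closedBall (0 : E d) n) (convex_closedBall 0 n)
      (φ := fun x => f x - m) (hf.sub contDiff_const)
    simpa only [fderiv_sub_const] using this
  rw [hz] at fin
  simp only [norm_gradient_eq]
  linarith

end Vale.Agent.P347
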