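import Vale.Agent.P347.Base

/-!
P347, tensor bounds, part 1: functions of exponential growth, Laplace transforms and the class of
finite sums c(y) P(x) exp ⟪π y, x⟫.
-/

open MeasureTheory ProbabilityTheory Filter Set
open scoped ENNReal ContDiff RealInnerProductSpace

namespace Vale.Agent.P347.Tens

variable {d : ℕ}

/-- continuous functions of exponential growth -/
def EG (P : E d → ℝ) : Prop :=
  Continuous P ∧ ∃ A B : ℝ, 0 ≤ B ∧ ∀ x, |P x| ≤ A * Real.exp (B * ‖x‖)

theorem EG.const (c : ℝ) : EG (fun _ : E d => c) :=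
  ⟨continuous_const, |c|, 0, le_rfl, fun x => by simp⟩

theorem EG.of_bound {P : E d → ℝ} (h : Continuous P) {A : ℝ} (hA : ∀ x, |P x| ≤ A) : EG P :=
  ⟨h, A, 0, le_rfl, fun x => by simpa using hA x⟩

theorem EG.mul {P Q : E d → ℝ} (hP : EG P) (hQ : EG Q) : EG (fun x => P x * Q x) := by
  obtain ⟨h1, A, B, hB, h⟩ := hP
  obtain ⟨h1', A', B', hB', h'⟩ := hQ
  refine ⟨h1.mul h1', A * A', B + B', add_nonneg hB hB', fun x => ?_⟩
  rw [abs_mul, add_mul, Real.exp_add]
  calc |P x| * |Q x| ≤ (A * Real.exp (B * ‖x‖)) * (A' * Real.exp (B' * ‖x‖)) :=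
        mul_le_mul (h x) (h' x) (abs_nonneg _) ((abs_nonneg _).trans (h x))
    _ = _ := by ring

theorem EG.add {P Q : E d → ℝ} (hP : EG P) (hQ : EG Q) : EG (fun x => P x + Q x) := by
  obtain ⟨h1, A, B, hB, h⟩ := hP
  obtain ⟨h1', A', B', hB', h'⟩ := hQ
  refine ⟨h1.add h1', |A| + |A'|, B + B', add_nonneg hB hB', fun x => ?_⟩
  have e1 : Real.exp (B * ‖x‖) ≤ Real.exp ((B + B') * ‖x‖) :=
    Real.exp_le_exp.2 (by nlinarith [norm_nonneg x])
  have e2 : Real.exp (B' * ‖x‖) ≤ Real.exp ((B + B') * ‖x‖) :=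
    Real.exp_le_exp.2 (by nlinarith [norm_nonneg x])
  calc |P x + Q x| ≤ |P x| + |Q x| := abs_add_le _ _
    _ ≤ |A| * Real.exp ((B + B') * ‖x‖) + |A'| * Real.exp ((B + B') * ‖x‖) := by
        refine add_le_add ((h x).trans ?_) ((h' x).trans ?_)
        · exact mul_le_mul (le_abs_self _) e1 (Real.exp_pos _).le (abs_nonneg _)
        · exact mul_le_mul (le_abs_self _) e2 (Real.exp_pos _).le (abs_nonneg _)
    _ = _ := by ring

theorem EG.abs {P : E d → ℝ} (hP : EG P) : EG (fun x => |P x|) := by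
  obtain ⟨h1, A, B, hB, h⟩ := hP
  exact ⟨h1.abs, A, B, hB, fun x => by simpa using h x⟩

theorem EG.sum {I : Type} (s : Finset I) {P : I → E d → ℝ} (h : ∀ i ∈ s, EG (P i)) :
    EG (fun x => ∑ i ∈ s, P i x) := by
  classical
  induction s using Finset.induction_on with
  | empty => simpa using EG.const 0
  | insert i s hi ih =>
    simp only [Finset.sum_insert hi]
    exact (h i (Finset.mem_insert_self _ _)).add
      (ih fun j hj => h j (Finset.mem_insert_of_mem hj))

theorem EG.sq {P : E d → ℝ} (hP : EG P) : EG (fun x => P x ^ 2) := by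
  simpa only [pow_two] using hP.mul hP

theorem EG.norm : EG (fun x : E d => ‖x‖) :=
  ⟨continuous_norm, 1, 1, zero_le_one, fun x => by
    have := Real.add_one_le_exp ‖x‖
    rw [abs_norm, one_mul, one_mul]; linarith⟩

theorem EG.of_le {P Q : E d → ℝ} (hP : Continuous P) (hQ : EG Q) (h : ∀ x, |P x| ≤ Q x) : EG P := by
  obtain ⟨-, A, B, hB, h'⟩ := hQ
  exact ⟨hP, A, B, hB, fun x => (h x).trans ((le_abs_self _).trans (h' x))⟩

theorem EG.inner (u : E d) : EG (fun x : E d => ⟪u, x⟫) :=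
  EG.of_le (by fun_prop) ((EG.const ‖u‖).mul EG.norm) fun x => abs_real_inner_le_norm u x

theorem EG.exp_norm {B : ℝ} (hB : 0 ≤ B) : EG (fun x : E d => Real.exp (B * ‖x‖)) :=
  ⟨by fun_prop, 1, B, hB, fun x => by rw [abs_of_pos (Real.exp_pos _), one_mul]⟩

theorem EG.exp_inner (u : E d) : EG (fun x : E d => Real.exp ⟪u, x⟫) :=
  EG.of_le (by fun_prop) (EG.exp_norm (norm_nonneg u)) fun x => by
    rw [abs_of_pos (Real.exp_pos _)]
    exact Real.exp_le_exp.2 (real_inner_le_norm u x)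

/-- C^1 functions of exponential growth together with the partial derivatives -/
def EG1 (P : E d → ℝ) : Prop := ContDiff ℝ 1 P ∧ EG P ∧ ∀ k, EG (D1 k P)

theorem D1_mul {P Q : E d → ℝ} (hP : Differentiable ℝ P) (hQ : Differentiable ℝ Q) (k : Fin d) :
    D1 k (fun x => P x * Q x) = fun x => D1 k P x * Q x + P x * D1 k Q x := by
  funext x
  simp only [D1]
  rw [fderiv_fun_mul (hP x) (hQ x)]
  simp only [add_apply, smul_apply, smul_eq_mul]
  ring

theorem D1_add {P Q : E d → ℝ} (hP : Differentiable ℝ P) (hQ : Differentiable ℝ Q) (k : Fin d) :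
    D1 k (fun x => P x + Q x) = fun x => D1 k P x + D1 k Q x := by
  funext x
  simp only [D1]
  rw [fderiv_fun_add (hP x) (hQ x)]
  rfl

theorem D1_const (c : ℝ) (k : Fin d) : D1 k (fun _ : E d => c) = fun _ => 0 := by
  funext x; simp [D1]

theorem D1_inner (u : E d) (k : Fin d) : D1 k (fun x : E d => ⟪u, x⟫) = fun _ => u k := by
  funext x
  have : HasFDerivAt (fun x : E d => ⟪u, x⟫) (innerSL ℝ u) x := (innerSL ℝ u).hasFDerivAt
  simp [D1, this.fderiv, EuclideanSpace.inner_single_right]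

theorem D1_exp_inner (u : E d) (k : Fin d) :
    D1 k (fun x : E d => Real.exp ⟪u, x⟫) = fun x => u k * Real.exp ⟪u, x⟫ := by
  funext x
  have : HasFDerivAt (fun x : E d => ⟪u, x⟫) (innerSL ℝ u) x := (innerSL ℝ u).hasFDerivAt
  simp [D1, this.exp.fderiv, EuclideanSpace.inner_single_right, mul_comm]

theorem EG1.diff {P : E d → ℝ} (hP : EG1 P) : Differentiable ℝ P :=
  hP.1.differentiable one_ne_zero

theorem EG1.const (c : ℝ) : EG1 (fun _ : E d => c) :=
  ⟨contDiff_const, EG.const c, fun k => by rw [D1_const]; exact EG.const 0⟩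

theorem EG1.mul {P Q : E d → ℝ} (hP : EG1 P) (hQ : EG1 Q) : EG1 (fun x => P x * Q x) :=
  ⟨hP.1.mul hQ.1, hP.2.1.mul hQ.2.1, fun k => by
    rw [D1_mul hP.diff hQ.diff]
    exact ((hP.2.2 k).mul hQ.2.1).add (hP.2.1.mul (hQ.2.2 k))⟩

theorem EG1.add {P Q : E d → ℝ} (hP : EG1 P) (hQ : EG1 Q) : EG1 (fun x => P x + Q x) :=
  ⟨hP.1.add hQ.1, hP.2.1.add hQ.2.1, fun k => by
    rw [D1_add hP.diff hQ.diff]
    exact (hP.2.2 k).add (hQ.2.2 k)⟩

theorem EG1.inner (u : E d) : EG1 (fun x : E d => ⟪u, x⟫) :=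
  ⟨(innerSL ℝ u).contDiff, EG.inner u, fun k => by rw [D1_inner]; exact EG.const _⟩

theorem EG1.exp_inner (u : E d) : EG1 (fun x : E d => Real.exp ⟪u, x⟫) :=
  ⟨(innerSL ℝ u).contDiff.exp, EG.exp_inner u, fun k => by
    rw [D1_exp_inner]; exact (EG.const _).mul (EG.exp_inner u)⟩

theorem EG1.sum {I : Type} (s : Finset I) {P : I → E d → ℝ} (h : ∀ i ∈ s, EG1 (P i)) :
    EG1 (fun x => ∑ i ∈ s, P i x) := by
  classical
  induction s using Finset.induction_on with
  | empty => simpa using EG1.const 0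
  | insert i s hi ih =>
    simp only [Finset.sum_insert hi]
    exact (h i (Finset.mem_insert_self _ _)).add
      (ih fun j hj => h j (Finset.mem_insert_of_mem hj))

theorem D1_sum {I : Type} (s : Finset I) {P : I → E d → ℝ} (h : ∀ i ∈ s, Differentiable ℝ (P i))
    (k : Fin d) : D1 k (fun x => ∑ i ∈ s, P i x) = fun x => ∑ i ∈ s, D1 k (P i) x := by
  funext x
  simp only [D1]
  rw [fderiv_fun_sum fun i hi => h i hi x]
  simp

/-- the properties of the posterior law that are used -/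
structure Good (ν : Measure (E d)) : Prop where
  prob : IsProbabilityMeasure ν
  integ : ∀ P, EG P → Integrable P ν
  poinc : ∀ f, EG1 f → ∫ x, f x ∂ν = 0 → ∫ x, f x ^ 2 ∂ν ≤ ∑ k, ∫ x, D1 k f x ^ 2 ∂ν

variable {ν : Measure (E d)}

/-- Laplace transform -/
noncomputable def Lap (ν : Measure (E d)) (P : E d → ℝ) (u : E d) : ℝ :=
  ∫ x, P x * Real.exp ⟪u, x⟫ ∂ν

theorem hasFDerivAt_exp_inner (x u : E d) :
    HasFDerivAt (fun u : E d => Real.exp ⟪u, x⟫) (Real.exp ⟪u, x⟫ • innerSL ℝ x) u := by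
  have : HasFDerivAt (fun u : E d => ⟪x, u⟫) (innerSL ℝ x) u := (innerSL ℝ x).hasFDerivAt
  simpa only [real_inner_comm x] using this.exp

theorem Good.lap_deriv (hν : Good ν) {P : E d → ℝ} (hP : EG P) (u : E d) :
    DifferentiableAt ℝ (Lap ν P) u ∧
      ∀ v, fderiv ℝ (Lap ν P) u v = Lap ν (fun x => P x * ⟪v, x⟫) u := by
  have hb : EG fun x : E d => |P x| * (Real.exp ((‖u‖ + 1) * ‖x‖) * ‖x‖) :=
    hP.abs.mul ((EG.exp_norm (by positivity)).mul EG.norm)
  have hbound : ∀ x : E d, ∀ w ∈ Metric.ball u 1,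
      ‖P x • (Real.exp ⟪w, x⟫ • innerSL ℝ x)‖ ≤ |P x| * (Real.exp ((‖u‖ + 1) * ‖x‖) * ‖x‖) := by
    intro x w hw
    rw [norm_smul, norm_smul, innerSL_apply_norm, Real.norm_eq_abs, Real.norm_eq_abs,
      abs_of_pos (Real.exp_pos _)]
    have h1 : ‖w‖ ≤ ‖u‖ + 1 := by
      have := norm_sub_norm_le w u
      rw [mem_ball_iff_norm] at hw
      linarith
    have h2 : ⟪w, x⟫ ≤ (‖u‖ + 1) * ‖x‖ :=
      (real_inner_le_norm w x).trans (mul_le_mul_of_nonneg_right h1 (norm_nonneg _))
    gcongr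
  have hc : Continuous fun x : E d => P x • (Real.exp ⟪u, x⟫ • innerSL ℝ x) := by
    have := hP.1
    fun_prop
  have hint : Integrable (fun x : E d => P x • (Real.exp ⟪u, x⟫ • innerSL ℝ x)) ν :=
    (hν.integ _ hb).mono' hc.aestronglyMeasurable
      (ae_of_all _ fun x => hbound x u (Metric.mem_ball_self one_pos))
  have H := hasFDerivAt_integral_of_dominated_of_fderiv_le (μ := ν) (𝕜 := ℝ)
    (F := fun (w : E d) (x : E d) => P x * Real.exp ⟪w, x⟫)
    (F' := fun w x => P x • (Real.exp ⟪w, x⟫ • innerSL ℝ x)) (x₀ := u)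
    (Metric.ball_mem_nhds u one_pos)
    (Eventually.of_forall fun w => (hP.mul (EG.exp_inner w)).1.aestronglyMeasurable)
    (hν.integ _ (hP.mul (EG.exp_inner u))) hc.aestronglyMeasurable
    (ae_of_all _ hbound) (hν.integ _ hb)
    (ae_of_all _ fun x w _ => (hasFDerivAt_exp_inner x w).const_mul (P x))
  refine ⟨H.differentiableAt, fun v => ?_⟩
  have H' : HasFDerivAt (Lap ν P) _ u := H
  rw [H'.fderiv, ContinuousLinearMap.integral_apply hint, Lap]
  refine integral_congr_ae (ae_of_all _ fun x => ?_)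
  simp only [smul_apply, innerSL_apply_apply, smul_eq_mul,
    real_inner_comm x]
  ring

theorem Good.lap_smooth (hν : Good ν) {P : E d → ℝ} (hP : EG P) : ContDiff ℝ ∞ (Lap ν P) := by
  rw [contDiff_infty]
  intro n
  induction n generalizing P with
  | zero =>
    simpa using (show Differentiable ℝ (Lap ν P) from fun u => (hν.lap_deriv hP u).1).continuous
  | succ n ih =>
    rw [Nat.cast_succ, contDiff_succ_iff_fderiv_apply]
    refine ⟨fun u => (hν.lap_deriv hP u).1, by simp, fun v => ?_⟩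
    have : (fun u => fderiv ℝ (Lap ν P) u v) = Lap ν (fun x => P x * ⟪v, x⟫) :=
      funext fun u => (hν.lap_deriv hP u).2 v
    rw [this]
    exact ih (hP.mul (EG.inner v))

section cls

variable {Y : Type} [NormedAddCommGroup Y] [NormedSpace ℝ Y]

/-- finite sums of terms c(y) P(x) exp ⟪π y, x⟫ -/
inductive Cl (π : Y →L[ℝ] E d) (Q : (E d → ℝ) → Prop) : (Y → E d → ℝ) → Prop
  | base (c : Y → ℝ) (P : E d → ℝ) : ContDiff ℝ ∞ c → Q P →
      Cl π Q (fun y x => c y * (P x * Real.exp ⟪π y, x⟫))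
  | zero : Cl π Q (fun _ _ => 0)
  | add (F G : Y → E d → ℝ) : Cl π Q F → Cl π Q G → Cl π Q (fun y x => F y x + G y x)

/-- derivative in the parameter -/
noncomputable def Dv (v : Y) (F : Y → E d → ℝ) : Y → E d → ℝ :=
  fun y x => fderiv ℝ (fun y => F y x) y v

/-- derivative in the space variable -/
noncomputable def Xd (k : Fin d) (F : Y → E d → ℝ) : Y → E d → ℝ := fun y => D1 k (F y)

variable {π : Y →L[ℝ] E d} {Q : (E d → ℝ) → Prop} {F G : Y → E d → ℝ}

theorem Cl.mono {Q' : (E d → ℝ) → Prop} (hQ : ∀ P, Q P → Q' P) (h : Cl π Q F) : Cl π Q' F := by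
  induction h with
  | base c P hc hP => exact Cl.base c P hc (hQ P hP)
  | zero => exact Cl.zero
  | add F G _ _ h1 h2 => exact Cl.add F G h1 h2

theorem Cl.zero_of_one (h : Cl π EG1 F) : Cl π EG F := h.mono fun _ h => h.2.1

theorem hasFDerivAt_exp_pi (π : Y →L[ℝ] E d) (x : E d) (y : Y) :
    HasFDerivAt (fun y : Y => Real.exp ⟪π y, x⟫)
      ((Real.exp ⟪π y, x⟫ • innerSL ℝ x).comp π) y :=
  (hasFDerivAt_exp_inner x (π y)).comp y π.hasFDerivAt

theorem Cl.diff (h : Cl π Q F) (x : E d) : Differentiable ℝ fun y => F y x := by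
  induction h with
  | base c P hc hP =>
    exact fun y => (hc.differentiable (by simp) y).mul
      ((hasFDerivAt_exp_pi π x y).differentiableAt.const_mul _)
  | zero => exact differentiable_const _
  | add F G _ _ h1 h2 => exact h1.add h2

theorem Dv_add (hF : ∀ x, Differentiable ℝ fun y => F y x)
    (hG : ∀ x, Differentiable ℝ fun y => G y x) (v : Y) :
    Dv v (fun y x => F y x + G y x) = fun y x => Dv v F y x + Dv v G y x := by
  funext y x
  simp only [Dv]
  rw [fderiv_fun_add (hF x y) (hG x y)]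
  rfl

theorem Dv_zero (v : Y) : Dv v (fun (_ : Y) (_ : E d) => (0 : ℝ)) = fun _ _ => 0 := by
  funext y x; simp [Dv]

theorem Dv_mul_left {c : Y → ℝ} (hc : Differentiable ℝ c)
    (hF : ∀ x, Differentiable ℝ fun y => F y x) (v : Y) :
    Dv v (fun y x => c y * F y x) = fun y x => fderiv ℝ c y v * F y x + c y * Dv v F y x := by
  funext y x
  simp only [Dv]
  rw [fderiv_fun_mul (hc y) (hF x y)]
  simp only [add_apply, smul_apply, smul_eq_mul]
  ring

theorem Dv_mul_x (H : E d → ℝ) (hF : ∀ x, Differentiable ℝ fun y => F y x) (v : Y) :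
    Dv v (fun y x => H x * F y x) = fun y x => H x * Dv v F y x := by
  funext y x
  simp only [Dv]
  rw [fderiv_const_mul (hF x y)]
  rfl

theorem Dv_base {c : Y → ℝ} (hc : ContDiff ℝ ∞ c) (P : E d → ℝ) (v : Y) :
    Dv v (fun y x => c y * (P x * Real.exp ⟪π y, x⟫)) = fun y x =>
      fderiv ℝ c y v * (P x * Real.exp ⟪π y, x⟫) +
        c y * ((P x * ⟪π v, x⟫) * Real.exp ⟪π y, x⟫) := by
  rw [Dv_mul_left (F := fun y x => P x * Real.exp ⟪π y, x⟫) (hc.differentiable (by simp))
    fun x y => (hasFDerivAt_exp_pi π x y).differentiableAt.const_mul _]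
  funext y x
  simp only [Dv]
  rw [((hasFDerivAt_exp_pi π x y).const_mul (P x)).fderiv]
  simp only [smul_apply, ContinuousLinearMap.comp_apply, innerSL_apply_apply,
    smul_eq_mul, real_inner_comm x]
  ring

theorem contDiff_fderiv_apply {c : Y → ℝ} (hc : ContDiff ℝ ∞ c) (v : Y) :
    ContDiff ℝ ∞ fun y => fderiv ℝ c y v :=
  (contDiff_infty_iff_fderiv.1 hc).2.clm_apply contDiff_const

theorem Cl.dv (hQ : ∀ P u, Q P → Q fun x => P x * ⟪u, x⟫) (h : Cl π Q F) (v : Y) :
    Cl π Q (Dv v F) := by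
  induction h with
  | base c P hc hP =>
    rw [Dv_base hc]
    exact Cl.add _ _ (Cl.base _ P (contDiff_fderiv_apply hc v) hP) (Cl.base c _ hc (hQ P _ hP))
  | zero => rw [Dv_zero]; exact Cl.zero
  | add F G hF hG h1 h2 => rw [Dv_add hF.diff hG.diff]; exact Cl.add _ _ h1 h2

theorem Cl.dv0 (h : Cl π EG F) (v : Y) : Cl π EG (Dv v F) :=
  h.dv (fun _ u hP => hP.mul (EG.inner u)) v

theorem Cl.dv1 (h : Cl π EG1 F) (v : Y) : Cl π EG1 (Dv v F) :=
  h.dv (fun _ u hP => hP.mul (EG1.inner u)) v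

theorem Cl.eg (h : Cl π EG F) (y : Y) : EG (F y) := by
  induction h with
  | base c P hc hP => exact (EG.const _).mul (hP.mul (EG.exp_inner _))
  | zero => exact EG.const 0
  | add F G _ _ h1 h2 => exact h1.add h2

theorem Cl.eg1 (h : Cl π EG1 F) (y : Y) : EG1 (F y) := by
  induction h with
  | base c P hc hP => exact (EG1.const _).mul (hP.mul (EG1.exp_inner _))
  | zero => exact EG1.const 0
  | add F G _ _ h1 h2 => exact h1.add h2

theorem Cl.mul_left {c : Y → ℝ} (hc : ContDiff ℝ ∞ c) (h : Cl π Q F) :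
    Cl π Q fun y x => c y * F y x := by
  induction h with
  | base c' P hc' hP =>
    simp only [← mul_assoc (c _)]
    exact Cl.base (fun y => c y * c' y) P (hc.mul hc') hP
  | zero => simpa using Cl.zero
  | add F G _ _ h1 h2 => simpa only [mul_add] using Cl.add _ _ h1 h2

theorem Cl.mul_x {H : E d → ℝ} (hH : EG H) (h : Cl π EG F) : Cl π EG fun y x => H x * F y x := by
  induction h with
  | base c' P hc' hP =>
    have := Cl.base (π := π) (Q := EG) c' (fun x => H x * P x) hc' (hH.mul hP)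
    convert this using 3
    ring
  | zero => simpa using Cl.zero
  | add F G _ _ h1 h2 => simpa only [mul_add] using Cl.add _ _ h1 h2

omit [NormedAddCommGroup Y] [NormedSpace ℝ Y] in
theorem Xd_add (hF : ∀ y, Differentiable ℝ (F y)) (hG : ∀ y, Differentiable ℝ (G y)) (k : Fin d) :
    Xd k (fun y x => F y x + G y x) = fun y x => Xd k F y x + Xd k G y x :=
  funext fun y => D1_add (hF y) (hG y) k

omit [NormedAddCommGroup Y] [NormedSpace ℝ Y] in
theorem Xd_zero (k : Fin d) : Xd k (fun (_ : Y) (_ : E d) => (0 : ℝ)) = fun _ _ => 0 :=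
  funext fun _ => D1_const 0 k

theorem Xd_base (c : Y → ℝ) {P : E d → ℝ} (hP : EG1 P) (k : Fin d) :
    Xd k (fun y x => c y * (P x * Real.exp ⟪π y, x⟫)) = fun y x =>
      c y * (D1 k P x * Real.exp ⟪π y, x⟫) + (c y * π y k) * (P x * Real.exp ⟪π y, x⟫) := by
  funext y
  simp only [Xd]
  rw [D1_mul (differentiable_const _) (hP.mul (EG1.exp_inner _)).diff, D1_const,
    D1_mul hP.diff (EG1.exp_inner _).diff, D1_exp_inner]
  funext x
  ring

theorem contDiff_pi_coord (π : Y →L[ℝ] E d) (k : Fin d) : ContDiff ℝ ∞ fun y => π y k :=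
  ((EuclideanSpace.proj k : E d →L[ℝ] ℝ).comp π).contDiff

theorem Cl.xd (h : Cl π EG1 F) (k : Fin d) : Cl π EG (Xd k F) := by
  induction h with
  | base c P hc hP =>
    rw [Xd_base c hP]
    exact Cl.add _ _ (Cl.base c _ hc (hP.2.2 k))
      (Cl.base _ P (hc.mul (contDiff_pi_coord π k)) hP.2.1)
  | zero => rw [Xd_zero]; exact Cl.zero
  | add F G hF hG h1 h2 =>
    rw [Xd_add (fun y => (hF.eg1 y).diff) fun y => (hG.eg1 y).diff]; exact Cl.add _ _ h1 h2

theorem Cl.xd_dv (h : Cl π EG1 F) (k : Fin d) (v : Y) : Xd k (Dv v F) = Dv v (Xd k F) := by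
  induction h with
  | base c P hc hP =>
    have hP' := hP.mul (EG1.inner (π v))
    have hc' := hc.mul (contDiff_pi_coord π k)
    rw [Dv_base hc, Xd_base c hP,
      Xd_add (fun y => ((Cl.base _ P (contDiff_fderiv_apply hc v) hP).eg1 y).diff)
        (fun y => ((Cl.base c _ hc hP').eg1 y).diff),
      Dv_add (Cl.base c _ hc (hP.2.2 k)).diff (Cl.base _ P hc' hP.2.1).diff,
      Xd_base _ hP, Xd_base c hP', Dv_base hc, Dv_base hc', D1_mul hP.diff (EG1.inner _).diff,
      D1_inner]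
    funext y x
    have h1 : HasFDerivAt (fun y => π y k) ((EuclideanSpace.proj k : E d →L[ℝ] ℝ).comp π) y :=
      ((EuclideanSpace.proj k : E d →L[ℝ] ℝ).comp π).hasFDerivAt
    beta_reduce
    rw [fderiv_fun_mul (hc.differentiable (by simp) y) h1.differentiableAt, h1.fderiv]
    simp only [add_apply, smul_apply, smul_eq_mul,
      ContinuousLinearMap.comp_apply, EuclideanSpace.coe_proj]
    ring
  | zero => rw [Dv_zero, Xd_zero, Dv_zero]
  | add F G hF hG h1 h2 =>
    rw [Dv_add hF.diff hG.diff, Xd_add (fun y => (hF.eg1 y).diff) fun y => (hG.eg1 y).diff,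
      Xd_add (fun y => ((hF.dv1 v).eg1 y).diff) fun y => ((hG.dv1 v).eg1 y).diff,
      Dv_add (hF.xd k).diff (hG.xd k).diff, h1, h2]

theorem Good.integral_cl (hν : Good ν) (h : Cl π EG F) :
    ContDiff ℝ ∞ (fun y => ∫ x, F y x ∂ν) ∧
      ∀ y v, fderiv ℝ (fun y => ∫ x, F y x ∂ν) y v = ∫ x, Dv v F y x ∂ν := by
  induction h with
  | base c P hc hP =>
    have e1 : (fun y => ∫ x, c y * (P x * Real.exp ⟪π y, x⟫) ∂ν) =
        fun y => c y * Lap ν P (π y) := funext fun y => by rw [integral_const_mul]; rfl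
    rw [e1]
    refine ⟨hc.mul ((hν.lap_smooth hP).comp π.contDiff), fun y v => ?_⟩
    have h1 : HasFDerivAt (fun y => Lap ν P (π y)) ((fderiv ℝ (Lap ν P) (π y)).comp π) y :=
      (hν.lap_deriv hP (π y)).1.hasFDerivAt.comp y π.hasFDerivAt
    rw [Dv_base hc, fderiv_fun_mul (hc.differentiable (by simp) y) h1.differentiableAt, h1.fderiv,
      integral_add (hν.integ _ ((EG.const _).mul (hP.mul (EG.exp_inner _))))
        (hν.integ _ ((EG.const _).mul ((hP.mul (EG.inner _)).mul (EG.exp_inner _)))),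
      integral_const_mul, integral_const_mul]
    simp only [add_apply, smul_apply, smul_eq_mul,
      ContinuousLinearMap.comp_apply, (hν.lap_deriv hP (π y)).2, Lap]
    ring
  | zero => simpa [Dv_zero] using contDiff_const
  | add F G hF hG h1 h2 =>
    have e1 : (fun y => ∫ x, (F y x + G y x) ∂ν) = fun y => ∫ x, F y x ∂ν + ∫ x, G y x ∂ν :=
      funext fun y => integral_add (hν.integ _ (hF.eg y)) (hν.integ _ (hG.eg y))
    rw [e1]
    refine ⟨h1.1.add h2.1, fun y v => ?_⟩
    rw [Dv_add hF.diff hG.diff, fderiv_fun_add (h1.1.differentiable (by simp) y)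
      (h2.1.differentiable (by simp) y),
      integral_add (hν.integ _ ((hF.dv0 v).eg y)) (hν.integ _ ((hG.dv0 v).eg y)), ← h1.2, ← h2.2]
    rfl

/-- products of two members of the class, in two independent parameters -/
theorem Cl.prod (hF : Cl π EG F) (hG : Cl π EG G) :
    Cl (π.comp (ContinuousLinearMap.fst ℝ Y Y) + π.comp (ContinuousLinearMap.snd ℝ Y Y)) EG
      fun p x => F p.1 x * G p.2 x := by
  induction hF with
  | base c P hc hP =>
    induction hG with
    | base c' P' hc' hP' =>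
      have := Cl.base (π := π.comp (ContinuousLinearMap.fst ℝ Y Y) +
        π.comp (ContinuousLinearMap.snd ℝ Y Y)) (Q := EG) (fun p : Y × Y => c p.1 * c' p.2)
        (fun x => P x * P' x) ((hc.comp contDiff_fst).mul (hc'.comp contDiff_snd)) (hP.mul hP')
      convert this using 3 with p x
      simp only [add_apply, ContinuousLinearMap.comp_apply,
        ContinuousLinearMap.coe_fst', ContinuousLinearMap.coe_snd', inner_add_left, Real.exp_add]
      ring
    | zero => simpa using Cl.zero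
    | add F G _ _ h1 h2 => simpa only [mul_add] using Cl.add _ _ h1 h2
  | zero => simpa using Cl.zero
  | add F G _ _ h1 h2 => simpa only [add_mul] using Cl.add _ _ h1 h2

end cls

end Vale.Agent.P347.Tens
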