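import Vale.Agent.P347.Tensor1

/-!
P347, tensor bounds, part 2: dimension free bounds for families of L2 valued functions.
-/

open MeasureTheory ProbabilityTheory Filter Set
open scoped ENNReal ContDiff RealInnerProductSpace

namespace Vale.Agent.P347.Tens

variable {d : ℕ} {ν : Measure (E d)} {π : E d →L[ℝ] E d}

/-- squared operator norm bound for a matrix -/
def OB {I J : Type} [Fintype I] [Fintype J] (M : I → J → ℝ) (K : ℝ) : Prop :=
  ∀ A : I → ℝ, ∑ j, (∑ i, A i * M i j) ^ 2 ≤ K * ∑ i, A i ^ 2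

/-- squared operator norm bound into the L2 space -/
def VB (ν : Measure (E d)) {I O : Type} [Fintype I] [Fintype O] (F : I → O → E d → E d → ℝ)
    (K : ℝ) : Prop :=
  ∀ A : I → ℝ, ∑ o, ∫ x, (∑ i, A i * F i o 0 x) ^ 2 ∂ν ≤ K * ∑ i, A i ^ 2

/-- bounds for all derivatives of order less than r -/
def VN (ν : Measure (E d)) : ℕ → (I O : Type) → [Fintype I] → [Fintype O] →
    (I → O → E d → E d → ℝ) → ℝ → Prop
  | 0, _, _, _, _, _, _ => True
  | r + 1, I, O, _, _, F, K => VB ν F K ∧
      VN ν r (I × Fin d) O (fun p o => Dv (ee p.2) (F p.1 o)) K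

theorem sum_sq_nonneg {I : Type} [Fintype I] (A : I → ℝ) : 0 ≤ ∑ i, A i ^ 2 :=
  Finset.sum_nonneg fun _ _ => sq_nonneg _

theorem VN.mono {r : ℕ} : ∀ {I O : Type} [Fintype I] [Fintype O] {F : I → O → E d → E d → ℝ}
    {K K' : ℝ}, VN ν r I O F K → K ≤ K' → VN ν r I O F K' := by
  induction r with
  | zero => intros; trivial
  | succ r ih =>
    intro I O _ _ F K K' h hK
    exact ⟨fun A => (h.1 A).trans (mul_le_mul_of_nonneg_right hK (sum_sq_nonneg A)), ih h.2 hK⟩

theorem VN.pred {r : ℕ} : ∀ {I O : Type} [Fintype I] [Fintype O] {F : I → O → E d → E d → ℝ}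
    {K : ℝ}, VN ν (r + 1) I O F K → VN ν r I O F K := by
  induction r with
  | zero => intros; trivial
  | succ r ih =>
    intro I O _ _ F K h
    exact ⟨h.1, ih h.2⟩

theorem VN.congr {r : ℕ} : ∀ {I O I' O' : Type} [Fintype I] [Fintype O] [Fintype I'] [Fintype O']
    {F : I → O → E d → E d → ℝ} {F' : I' → O' → E d → E d → ℝ} {K : ℝ} (e : I' ≃ I) (f : O' ≃ O),
    VN ν r I O F K → (∀ i o, F' i o = F (e i) (f o)) → VN ν r I' O' F' K := by
  induction r with
  | zero => intros; trivial
  | succ r ih =>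
    intro I O I' O' _ _ _ _ F F' K e f h hF
    refine ⟨fun A => ?_, ih (e.prodCongr (Equiv.refl _)) f h.2 fun p o => by simp [hF]⟩
    have := h.1 (fun i => A (e.symm i))
    rw [← f.sum_comp, ← e.sum_comp] at this
    simp only [Equiv.symm_apply_apply] at this
    convert this using 5 with o _ x
    rw [← e.sum_comp]
    simp [hF]

theorem eg_comb {I : Type} [Fintype I] {F : I → E d → E d → ℝ}
    (hF : ∀ i, Cl π EG (F i)) (A : I → ℝ) : EG fun x => ∑ i, A i * F i 0 x :=
  EG.sum _ fun i _ => (EG.const _).mul ((hF i).eg 0)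

theorem VN.add (hν : Good ν) {r : ℕ} : ∀ {I O : Type} [Fintype I] [Fintype O]
    {F G : I → O → E d → E d → ℝ} {K K' : ℝ}, (∀ i o, Cl π EG (F i o)) →
    (∀ i o, Cl π EG (G i o)) → VN ν r I O F K → VN ν r I O G K' →
    VN ν r I O (fun i o a x => F i o a x + G i o a x) (2 * K + 2 * K') := by
  induction r with
  | zero => intros; trivial
  | succ r ih =>
    intro I O _ _ F G K K' hF hG h h'
    refine ⟨fun A => ?_, ?_⟩
    · have h1 := h.1 A
      have h2 := h'.1 A
      have h3 : ∀ o, ∫ x, (∑ i, A i * (F i o 0 x + G i o 0 x)) ^ 2 ∂ν ≤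
          2 * ∫ x, (∑ i, A i * F i o 0 x) ^ 2 ∂ν + 2 * ∫ x, (∑ i, A i * G i o 0 x) ^ 2 ∂ν := by
        intro o
        have e1 := eg_comb (fun i => hF i o) A
        have e2 := eg_comb (fun i => hG i o) A
        rw [← integral_const_mul, ← integral_const_mul,
          ← integral_add (hν.integ _ ((EG.const _).mul e1.sq)) (hν.integ _ ((EG.const _).mul e2.sq))]
        simp only [mul_add, Finset.sum_add_distrib]
        refine integral_mono (hν.integ _ (e1.add e2).sq)
          (hν.integ _ (((EG.const _).mul e1.sq).add ((EG.const _).mul e2.sq))) fun x => ?_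
        simp only
        nlinarith [sq_nonneg (∑ i, A i * F i o 0 x - ∑ i, A i * G i o 0 x)]
      refine (Finset.sum_le_sum fun o _ => h3 o).trans ?_
      rw [Finset.sum_add_distrib, ← Finset.mul_sum, ← Finset.mul_sum]
      linarith
    · have := ih (fun (p : I × Fin d) o => (hF p.1 o).dv0 (ee p.2))
        (fun (p : I × Fin d) o => (hG p.1 o).dv0 (ee p.2)) h.2 h'.2
      refine VN.congr (Equiv.refl _) (Equiv.refl _) this fun p o => ?_
      exact Dv_add (hF p.1 o).diff (hG p.1 o).diff _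

theorem VN.kron (hν : Good ν) {J J' : Type} [Fintype J] [Fintype J'] {H : J' → J → E d → ℝ}
    {L : ℝ} (hL : 0 ≤ L) (hH : ∀ j' j, EG (H j' j)) (hH' : ∀ x, OB (fun j' j => H j' j x) L)
    {r : ℕ} : ∀ {I O : Type} [Fintype I] [Fintype O]
    {F : I → O → E d → E d → ℝ} {K : ℝ}, (∀ i o, Cl π EG (F i o)) → VN ν r I O F K →
    VN ν r (I × J') (O × J) (fun p q a x => H p.2 q.2 x * F p.1 q.1 a x) (L * K) := by
  induction r with
  | zero => intros; trivial
  | succ r ih =>
    intro I O _ _ F K hF h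
    refine ⟨fun A => ?_, ?_⟩
    · have h3 : ∀ o, ∑ j, ∫ x, (∑ p : I × J', A p * (H p.2 j x * F p.1 o 0 x)) ^ 2 ∂ν ≤
          L * ∑ j', ∫ x, (∑ i, A (i, j') * F i o 0 x) ^ 2 ∂ν := by
        intro o
        have e1 := fun j' => eg_comb (fun i => hF i o) (fun i => A (i, j'))
        have e2 := fun j => eg_comb (F := fun (p : I × J') a x => H p.2 j x * F p.1 o a x)
          (fun p => (hF p.1 o).mul_x (hH p.2 j)) A
        rw [← integral_finsetSum _ fun j _ => hν.integ _ (e2 j).sq,
          ← integral_finsetSum _ fun j _ => hν.integ _ (e1 j).sq, ← integral_const_mul]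
        refine integral_mono (hν.integ _ (EG.sum _ fun j _ => (e2 j).sq))
          (hν.integ _ ((EG.const _).mul (EG.sum _ fun j _ => (e1 j).sq))) fun x => ?_
        have := hH' x (fun j' => ∑ i, A (i, j') * F i o 0 x)
        refine le_trans (le_of_eq (Finset.sum_congr rfl fun j _ => ?_)) this
        congr 1
        rw [Fintype.sum_prod_type_right]
        refine Finset.sum_congr rfl fun j' _ => ?_
        rw [Finset.sum_mul]
        exact Finset.sum_congr rfl fun i _ => by ring
      rw [Fintype.sum_prod_type]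
      refine (Finset.sum_le_sum fun o _ => h3 o).trans ?_
      rw [← Finset.mul_sum, Finset.sum_comm, mul_assoc]
      refine mul_le_mul_of_nonneg_left ?_ hL
      rw [Fintype.sum_prod_type_right, Finset.mul_sum]
      exact Finset.sum_le_sum fun j' _ => h.1 fun i => A (i, j')
    · have := ih (fun (p : I × Fin d) o => (hF p.1 o).dv0 (ee p.2)) h.2
      refine VN.congr ⟨fun p => ((p.1.1, p.2), p.1.2), fun p => ((p.1.1, p.2), p.1.2),
        fun _ => rfl, fun _ => rfl⟩ (Equiv.refl _) this fun p o => ?_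
      exact Dv_mul_x _ (hF _ _).diff _

theorem OB_id (J : Type) [Fintype J] [DecidableEq J] (c : ℝ) :
    OB (fun j' j : J => if j' = j then c else 0) (c ^ 2) := by
  intro A
  simp [mul_pow, Finset.mul_sum, mul_comm]

theorem fderiv_coord (c : ℝ) (k l : Fin d) (a : E d) :
    fderiv ℝ (fun a : E d => c * a k) a (ee l) = if l = k then c else 0 := by
  have : HasFDerivAt (fun a : E d => a k) (EuclideanSpace.proj k : E d →L[ℝ] ℝ) a :=
    (EuclideanSpace.proj k : E d →L[ℝ] ℝ).hasFDerivAt
  rw [(this.const_mul c).fderiv]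
  simp [eq_comm]

theorem contDiff_coord (c : ℝ) (k : Fin d) : ContDiff ℝ ∞ fun a : E d => c * a k :=
  contDiff_const.mul (EuclideanSpace.proj k : E d →L[ℝ] ℝ).contDiff

theorem VN.coord (hν : Good ν) (c : ℝ) {r : ℕ} : ∀ {I O : Type} [Fintype I] [Fintype O]
    {F : I → O → E d → E d → ℝ} {K : ℝ}, 0 ≤ K → (∀ i o, Cl π EG (F i o)) → VN ν r I O F K →
    VN ν (r + 1) I (O × Fin d) (fun i q a x => (c * a q.2) * F i q.1 a x) (4 ^ r * (c ^ 2 * K)) := by
  induction r with
  | zero =>
    intro I O _ _ F K hK hF h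
    refine ⟨fun A => ?_, trivial⟩
    simpa using mul_nonneg (by positivity) (sum_sq_nonneg A)
  | succ r ih =>
    intro I O _ _ F K hK hF h
    refine ⟨fun A => ?_, ?_⟩
    · simpa using mul_nonneg (by positivity) (sum_sq_nonneg A)
    · have h1 := ih hK (fun (p : I × Fin d) o => (hF p.1 o).dv0 (ee p.2)) h.2
      have h2 := VN.kron hν (H := fun (j' j : Fin d) _ => if j' = j then c else 0) (sq_nonneg c)
        (fun _ _ => EG.const _) (fun _ => OB_id _ c) hF h
      have h3 := VN.add hν (fun (p : I × Fin d) (q : O × Fin d) => (hF p.1 q.1).mul_x (EG.const _))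
        (fun (p : I × Fin d) (q : O × Fin d) =>
          ((hF p.1 q.1).dv0 _).mul_left (contDiff_coord c q.2)) h2 h1
      refine VN.mono (VN.congr (Equiv.refl _) (Equiv.refl _) h3 fun p q => ?_) ?_
      · rw [Dv_mul_left ((contDiff_coord c q.2).differentiable (by simp)) (hF _ _).diff]
        funext a x
        simp only [fderiv_coord, Equiv.refl_apply]
        rfl
      · have : (1 : ℝ) ≤ 4 ^ r := one_le_pow₀ (by norm_num)
        have h4 : 0 ≤ c ^ 2 * K := by positivity
        rw [pow_succ (4 : ℝ) r]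
        nlinarith

theorem Good.integral_dv_eq_zero (hν : Good ν) {F : E d → E d → ℝ} (hF : Cl π EG F) {c : ℝ}
    (h : ∀ a, ∫ x, F a x ∂ν = c) (v a : E d) : ∫ x, Dv v F a x ∂ν = 0 := by
  rw [← (hν.integral_cl hF).2, funext h]
  simp

theorem VN.poinc (hν : Good ν) {r : ℕ} : ∀ {I O : Type} [Fintype I] [Fintype O]
    {F : I → O → E d → E d → ℝ} {K : ℝ}, (∀ i o, Cl π EG1 (F i o)) →
    (∀ i o a, ∫ x, F i o a x ∂ν = 0) →
    VN ν r I (O × Fin d) (fun i q => Xd q.2 (F i q.1)) K → VN ν r I O F K := by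
  induction r with
  | zero => intros; trivial
  | succ r ih =>
    intro I O _ _ F K hF h0 h
    refine ⟨fun A => ?_, ?_⟩
    · refine le_trans ?_ (h.1 A)
      rw [Fintype.sum_prod_type]
      refine Finset.sum_le_sum fun o _ => ?_
      have e1 : EG1 fun x => ∑ i, A i * F i o 0 x :=
        EG1.sum _ fun i _ => (EG1.const _).mul ((hF i o).eg1 0)
      have e2 : ∫ x, ∑ i, A i * F i o 0 x ∂ν = 0 := by
        rw [integral_finsetSum _ fun i _ =>
          hν.integ _ ((EG.const _).mul ((hF i o).zero_of_one.eg 0))]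
        simp [integral_const_mul, h0]
      refine (hν.poinc _ e1 e2).trans_eq (Finset.sum_congr rfl fun k _ => ?_)
      rw [D1_sum _ fun i _ => ((EG1.const _).mul ((hF i o).eg1 0)).diff]
      simp only [D1_mul (differentiable_const _) ((hF _ o).eg1 0).diff, D1_const, zero_mul,
        zero_add, Xd]
    · refine ih (fun p o => (hF p.1 o).dv1 _)
        (fun p o a => hν.integral_dv_eq_zero (hF p.1 o).zero_of_one (h0 p.1 o) _ a) ?_
      refine VN.congr (Equiv.refl _) (Equiv.refl _) h.2 fun p q => ?_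
      exact (hF p.1 q.1).xd_dv _ _

/-- constants for the normalized exponential -/
def Ke : ℕ → ℝ
  | 0 => 1
  | r + 1 => 4 ^ r * (4 * Ke r)

theorem one_le_Ke (r : ℕ) : 1 ≤ Ke r := by
  induction r with
  | zero => exact le_rfl
  | succ r ih =>
    have : (1 : ℝ) ≤ 4 ^ r := one_le_pow₀ (by norm_num)
    rw [Ke]; nlinarith

theorem VN_exp (hν : Good ν) {e : E d → E d → ℝ} (he : Cl π EG1 e) (h0 : ∀ x, e 0 x = 1)
    (h1 : ∀ a, ∫ x, e a x ∂ν = 1) {c : ℝ} (hc : c ^ 2 ≤ 4)
    (hX : ∀ k, Xd k e = fun a x => (c * a k) * e a x) (r : ℕ) :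
    VN ν r Unit Unit (fun _ _ => e) (Ke r) := by
  induction r with
  | zero => trivial
  | succ r ih =>
    have hK := one_le_Ke r
    refine ⟨fun A => ?_, ?_⟩
    · have := hν.prob
      have h2 := one_le_Ke (r + 1)
      simp only [Finset.univ_unique, Finset.sum_singleton, h0, mul_one, integral_const,
        probReal_univ, smul_eq_mul, one_mul]
      nlinarith [sq_nonneg (A default)]
    · have h2 := VN.coord hν c (by linarith) (fun _ _ => he.zero_of_one) ih
      refine VN.poinc hν (fun p _ => he.dv1 _)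
        (fun p _ a => hν.integral_dv_eq_zero he.zero_of_one h1 _ a) ?_
      refine VN.mono (VN.congr (Equiv.refl _) (Equiv.refl _) h2.2 fun p q => ?_) ?_
      · rw [he.xd_dv, hX]; rfl
      · rw [Ke]
        gcongr

/-- constants for the centered gradient -/
def Kr : ℕ → ℝ
  | 0 => 0
  | r + 1 => 2 * Ke (r + 1) + 2 * (4 ^ r * (4 * Kr r))

theorem Kr_nonneg (r : ℕ) : 0 ≤ Kr r := by
  induction r with
  | zero => exact le_rfl
  | succ r ih =>
    have := one_le_Ke (r + 1)
    rw [Kr]; positivity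

theorem VN_grad (hν : Good ν) {e : E d → E d → ℝ} (he : Cl π EG e)
    (hVe : ∀ r, VN ν r Unit Unit (fun _ _ => e) (Ke r))
    {R : Fin d → E d → E d → ℝ} (hR : ∀ i, Cl π EG1 (R i))
    (h0 : ∀ i a, ∫ x, R i a x ∂ν = 0) {c : ℝ} (hc : c ^ 2 ≤ 4) {H : Fin d → Fin d → E d → ℝ}
    {L : ℝ} (hL : 0 ≤ L) (hH : ∀ i k, EG (H i k)) (hH' : ∀ x, OB (fun i k => H i k x) L)
    (hX : ∀ i k, Xd k (R i) = fun a x => H i k x * e a x + (c * a k) * R i a x) (r : ℕ) :
    VN ν r (Fin d) Unit (fun i _ => R i) (L * Kr r) := by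
  induction r with
  | zero => trivial
  | succ r ih =>
    have hK := Kr_nonneg r
    refine VN.poinc hν (fun i _ => hR i) (fun i _ => h0 i) ?_
    have h2 := VN.coord hν c (by positivity) (fun i _ => (hR i).zero_of_one) ih
    have h3 := VN.kron hν hL hH hH' (fun _ _ => he) (hVe (r + 1))
    have h4 : VN ν (r + 1) (Fin d) (Unit × Fin d) (fun i q a x => H i q.2 x * e a x)
        (L * Ke (r + 1)) :=
      VN.congr (Equiv.punitProd _).symm (Equiv.refl _) h3 fun _ _ => rfl
    have h5 := VN.add hν (fun i (q : Unit × Fin d) => he.mul_x (hH i q.2))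
      (fun i (q : Unit × Fin d) => (hR i).zero_of_one.mul_left (contDiff_coord c q.2)) h4 h2
    refine VN.mono (VN.congr (Equiv.refl _) (Equiv.refl _) h5 fun i q => hX i q.2) ?_
    rw [Kr]
    have : 4 ^ r * (c ^ 2 * (L * Kr r)) ≤ 4 ^ r * (4 * (L * Kr r)) := by gcongr
    nlinarith

end Vale.Agent.P347.Tens
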