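import Vale.Agent.P347.Tensor2

/-!
P347, tensor bounds, part 3: matrix families of functions of two parameters.
-/

open MeasureTheory ProbabilityTheory Filter Set
open scoped ENNReal ContDiff RealInnerProductSpace

namespace Vale.Agent.P347.Tens

variable {d : ℕ} {ν : Measure (E d)} {π : E d →L[ℝ] E d}

/-- directional derivative on the product -/
noncomputable def Dp (v : E d × E d) (M : E d × E d → ℝ) : E d × E d → ℝ :=
  fun p => fderiv ℝ M p v

/-- bounds for all matricized derivatives of order less than r -/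
def PN : ℕ → (I J : Type) → [Fintype I] → [Fintype J] → (I → J → E d × E d → ℝ) → ℝ → Prop
  | 0, _, _, _, _, _, _ => True
  | r + 1, I, J, _, _, M, K => OB (fun i j => M i j 0) K ∧
      PN r (I × Fin d) J (fun p j => Dp (ee p.2, 0) (M p.1 j)) K ∧
      PN r I (J × Fin d) (fun i q => Dp (0, ee q.2) (M i q.1)) K

theorem Dp_smooth {M : E d × E d → ℝ} (h : ContDiff ℝ ∞ M) (v : E d × E d) :
    ContDiff ℝ ∞ (Dp v M) := contDiff_fderiv_apply h v

theorem Dp_add {M N : E d × E d → ℝ} (hM : ContDiff ℝ ∞ M) (hN : ContDiff ℝ ∞ N)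
    (v : E d × E d) : Dp v (fun p => M p + N p) = fun p => Dp v M p + Dp v N p := by
  funext p
  simp only [Dp]
  rw [fderiv_fun_add (hM.differentiable (by simp) p) (hN.differentiable (by simp) p)]
  rfl

theorem Dp_neg (M : E d × E d → ℝ) (v : E d × E d) :
    Dp v (fun p => -M p) = fun p => -Dp v M p := by
  funext p
  simp only [Dp]
  rw [fderiv_fun_neg]
  rfl

theorem Dp_const_sub (c : ℝ) (M : E d × E d → ℝ) (v : E d × E d) :
    Dp v (fun p => c - M p) = fun p => -Dp v M p := by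
  funext p
  simp only [Dp]
  rw [fderiv_const_sub]
  rfl

theorem Dp_mul {M N : E d × E d → ℝ} (hM : ContDiff ℝ ∞ M) (hN : ContDiff ℝ ∞ N)
    (v : E d × E d) : Dp v (fun p => M p * N p) = fun p => Dp v M p * N p + M p * Dp v N p := by
  funext p
  simp only [Dp]
  rw [fderiv_fun_mul (hM.differentiable (by simp) p) (hN.differentiable (by simp) p)]
  simp only [add_apply, smul_apply, smul_eq_mul]
  ring

section OB

variable {I J I' J' : Type} [Fintype I] [Fintype J] [Fintype I'] [Fintype J']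

theorem OB.mono {M : I → J → ℝ} {K K' : ℝ} (h : OB M K) (hK : K ≤ K') : OB M K' :=
  fun A => (h A).trans (mul_le_mul_of_nonneg_right hK (sum_sq_nonneg A))

theorem OB.congr {M : I → J → ℝ} {M' : I' → J' → ℝ} {K : ℝ} (e : I' ≃ I) (f : J' ≃ J)
    (h : OB M K) (hM : ∀ i j, M' i j = M (e i) (f j)) : OB M' K := by
  intro A
  have := h (fun i => A (e.symm i))
  rw [← f.sum_comp, ← e.sum_comp] at this
  simp only [Equiv.symm_apply_apply] at this
  refine le_trans (le_of_eq (Finset.sum_congr rfl fun j _ => ?_)) this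
  rw [← e.sum_comp]
  simp [hM]

theorem OB.add {M N : I → J → ℝ} {K K' : ℝ} (h : OB M K) (h' : OB N K') :
    OB (fun i j => M i j + N i j) (2 * K + 2 * K') := by
  intro A
  have h1 := h A
  have h2 := h' A
  have h3 : ∀ j, (∑ i, A i * (M i j + N i j)) ^ 2 ≤
      2 * (∑ i, A i * M i j) ^ 2 + 2 * (∑ i, A i * N i j) ^ 2 := by
    intro j
    simp only [mul_add, Finset.sum_add_distrib]
    nlinarith [sq_nonneg (∑ i, A i * M i j - ∑ i, A i * N i j)]
  refine (Finset.sum_le_sum fun j _ => h3 j).trans ?_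
  rw [Finset.sum_add_distrib, ← Finset.mul_sum, ← Finset.mul_sum]
  linarith

theorem OB.neg {M : I → J → ℝ} {K : ℝ} (h : OB M K) : OB (fun i j => -M i j) K := by
  intro A
  simpa using h A

theorem OB.zero {K : ℝ} (hK : 0 ≤ K) {M : I → J → ℝ} (h : ∀ i j, M i j = 0) : OB M K := by
  intro A
  simpa [h] using mul_nonneg hK (sum_sq_nonneg A)

theorem OB.kron {M : I → J → ℝ} {N : I' → J' → ℝ} {K K' : ℝ} (hK : 0 ≤ K) (h : OB M K)
    (h' : OB N K') : OB (fun (p : I × I') (q : J × J') => M p.1 q.1 * N p.2 q.2) (K * K') := by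
  intro A
  rw [Fintype.sum_prod_type_right]
  have h1 : ∀ j', ∑ j, (∑ p : I × I', A p * (M p.1 j * N p.2 j')) ^ 2 ≤
      K * ∑ i, (∑ i', A (i, i') * N i' j') ^ 2 := by
    intro j'
    refine le_trans (le_of_eq (Finset.sum_congr rfl fun j _ => ?_))
      (h fun i => ∑ i', A (i, i') * N i' j')
    congr 1
    rw [Fintype.sum_prod_type]
    refine Finset.sum_congr rfl fun i _ => ?_
    rw [Finset.sum_mul]
    exact Finset.sum_congr rfl fun i _ => by ring
  refine (Finset.sum_le_sum fun j' _ => h1 j').trans ?_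
  rw [← Finset.mul_sum, Finset.sum_comm, mul_assoc]
  refine mul_le_mul_of_nonneg_left ?_ hK
  rw [Fintype.sum_prod_type, Finset.mul_sum]
  exact Finset.sum_le_sum fun i _ => h' fun i' => A (i, i')

theorem OB.of_bilin {M : I → J → ℝ} {K : ℝ} (hK : 0 ≤ K)
    (h : ∀ (A : I → ℝ) (B : J → ℝ), (∑ j, B j * ∑ i, A i * M i j) ^ 2 ≤
      K * (∑ i, A i ^ 2) * ∑ j, B j ^ 2) : OB M K := by
  intro A
  have h1 := h A (fun j => ∑ i, A i * M i j)
  simp only [← pow_two] at h1
  set S := ∑ j, (∑ i, A i * M i j) ^ 2 with hS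
  have h2 : 0 ≤ S := sum_sq_nonneg _
  have h3 : 0 ≤ K * ∑ i, A i ^ 2 := mul_nonneg hK (sum_sq_nonneg _)
  rcases h2.eq_or_lt with h4 | h4
  · rw [← h4]; exact h3
  · nlinarith

theorem OB.bilin {M : I → J → ℝ} {C : ℝ} (hC : 0 ≤ C) (h : OB M (C ^ 2)) (A : I → ℝ) (B : J → ℝ) :
    |∑ i, ∑ j, A i * B j * M i j| ≤ C * √(∑ i, A i ^ 2) * √(∑ j, B j ^ 2) := by
  have h1 : ∑ i, ∑ j, A i * B j * M i j = ∑ j, (∑ i, A i * M i j) * B j := by
    rw [Finset.sum_comm]
    refine Finset.sum_congr rfl fun j _ => ?_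
    rw [Finset.sum_mul]
    exact Finset.sum_congr rfl fun i _ => by ring
  have h2 := Finset.sum_mul_sq_le_sq_mul_sq Finset.univ (fun j => ∑ i, A i * M i j) B
  rw [h1]
  refine abs_le_of_sq_le_sq' ?_ (by positivity) |> abs_le.2
  rw [mul_pow, mul_pow, Real.sq_sqrt (sum_sq_nonneg _), Real.sq_sqrt (sum_sq_nonneg _)]
  exact h2.trans (mul_le_mul_of_nonneg_right (h A) (sum_sq_nonneg _))

end OB

theorem PN.mono {r : ℕ} : ∀ {I J : Type} [Fintype I] [Fintype J] {M : I → J → E d × E d → ℝ}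
    {K K' : ℝ}, PN r I J M K → K ≤ K' → PN r I J M K' := by
  induction r with
  | zero => intros; trivial
  | succ r ih =>
    intro I O _ _ F K K' h hK
    exact ⟨h.1.mono hK, ih h.2.1 hK, ih h.2.2 hK⟩

theorem PN.pred {r : ℕ} : ∀ {I J : Type} [Fintype I] [Fintype J] {M : I → J → E d × E d → ℝ}
    {K : ℝ}, PN (r + 1) I J M K → PN r I J M K := by
  induction r with
  | zero => intros; trivial
  | succ r ih =>
    intro I O _ _ F K h
    exact ⟨h.1, ih h.2.1, ih h.2.2⟩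

theorem PN.congr {r : ℕ} : ∀ {I J I' J' : Type} [Fintype I] [Fintype J] [Fintype I'] [Fintype J']
    {M : I → J → E d × E d → ℝ} {M' : I' → J' → E d × E d → ℝ} {K : ℝ} (e : I' ≃ I) (f : J' ≃ J),
    PN r I J M K → (∀ i j, M' i j = M (e i) (f j)) → PN r I' J' M' K := by
  induction r with
  | zero => intros; trivial
  | succ r ih =>
    intro I O I' O' _ _ _ _ F F' K e f h hF
    exact ⟨h.1.congr e f fun i j => by rw [hF],
      ih (e.prodCongr (Equiv.refl _)) f h.2.1 fun p o => by simp [hF],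
      ih e (f.prodCongr (Equiv.refl _)) h.2.2 fun p o => by simp [hF]⟩

theorem PN.neg {r : ℕ} : ∀ {I J : Type} [Fintype I] [Fintype J] {M : I → J → E d × E d → ℝ}
    {K : ℝ}, PN r I J M K → PN r I J (fun i j p => -M i j p) K := by
  induction r with
  | zero => intros; trivial
  | succ r ih =>
    intro I O _ _ F K h
    exact ⟨h.1.neg, PN.congr (Equiv.refl _) (Equiv.refl _) (ih h.2.1) fun p j => Dp_neg _ _,
      PN.congr (Equiv.refl _) (Equiv.refl _) (ih h.2.2) fun p j => Dp_neg _ _⟩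

theorem PN.add {r : ℕ} : ∀ {I J : Type} [Fintype I] [Fintype J] {M N : I → J → E d × E d → ℝ}
    {K K' : ℝ}, (∀ i j, ContDiff ℝ ∞ (M i j)) → (∀ i j, ContDiff ℝ ∞ (N i j)) →
    PN r I J M K → PN r I J N K' → PN r I J (fun i j p => M i j p + N i j p) (2 * K + 2 * K') := by
  induction r with
  | zero => intros; trivial
  | succ r ih =>
    intro I J _ _ M N K K' hM hN h h'
    exact ⟨h.1.add h'.1,
      PN.congr (Equiv.refl _) (Equiv.refl _) (ih (fun (p : I × Fin d) j => Dp_smooth (hM p.1 j) _)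
        (fun (p : I × Fin d) j => Dp_smooth (hN p.1 j) _) h.2.1 h'.2.1)
        fun p j => Dp_add (hM _ _) (hN _ _) _,
      PN.congr (Equiv.refl _) (Equiv.refl _) (ih (fun i (q : J × Fin d) => Dp_smooth (hM i q.1) _)
        (fun i (q : J × Fin d) => Dp_smooth (hN i q.1) _) h.2.2 h'.2.2)
        fun p j => Dp_add (hM _ _) (hN _ _) _⟩

/-- move the last factor to the middle -/
def sw (A B C : Type) : (A × B) × C ≃ (A × C) × B :=
  ⟨fun p => ((p.1.1, p.2), p.1.2), fun p => ((p.1.1, p.2), p.1.2), fun _ => rfl, fun _ => rfl⟩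

/-- the Leibniz step, common to the two product lemmas -/
theorem PN.leibniz {r : ℕ} {I J I' J' : Type} [Fintype I] [Fintype J] [Fintype I'] [Fintype J']
    {M : I → J → E d × E d → ℝ} {N : I' → J' → E d × E d → ℝ} {K1 K2 K : ℝ}
    (hM : ∀ i j, ContDiff ℝ ∞ (M i j)) (hN : ∀ i j, ContDiff ℝ ∞ (N i j))
    (h0 : OB (fun (p : I × I') (q : J × J') => M p.1 q.1 0 * N p.2 q.2 0) K)
    (a1 : PN r ((I × Fin d) × I') (J × J')
      (fun p q y => Dp (ee p.1.2, 0) (M p.1.1 q.1) y * N p.2 q.2 y) K1)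
    (a2 : PN r (I × (I' × Fin d)) (J × J')
      (fun p q y => M p.1 q.1 y * Dp (ee p.2.2, 0) (N p.2.1 q.2) y) K2)
    (b1 : PN r (I × I') ((J × Fin d) × J')
      (fun p q y => Dp (0, ee q.1.2) (M p.1 q.1.1) y * N p.2 q.2 y) K1)
    (b2 : PN r (I × I') (J × (J' × Fin d))
      (fun p q y => M p.1 q.1 y * Dp (0, ee q.2.2) (N p.2 q.2.1) y) K2)
    (hK : 2 * K1 + 2 * K2 ≤ K) :
    PN (r + 1) (I × I') (J × J') (fun p q y => M p.1 q.1 y * N p.2 q.2 y) K := by
  refine ⟨h0, ?_, ?_⟩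
  · have a1' : PN r ((I × I') × Fin d) (J × J')
        (fun p q y => Dp (ee p.2, 0) (M p.1.1 q.1) y * N p.1.2 q.2 y) K1 :=
      PN.congr (sw _ _ _) (Equiv.refl _) a1 fun _ _ => rfl
    have a2' : PN r ((I × I') × Fin d) (J × J')
        (fun p q y => M p.1.1 q.1 y * Dp (ee p.2, 0) (N p.1.2 q.2) y) K2 :=
      PN.congr (Equiv.prodAssoc _ _ _) (Equiv.refl _) a2 fun _ _ => rfl
    exact PN.mono (PN.congr (Equiv.refl _) (Equiv.refl _)
      (PN.add (fun _ _ => (Dp_smooth (hM _ _) _).mul (hN _ _))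
        (fun _ _ => (hM _ _).mul (Dp_smooth (hN _ _) _)) a1' a2')
      fun p q => Dp_mul (hM _ _) (hN _ _) _) hK
  · have b1' : PN r (I × I') ((J × J') × Fin d)
        (fun p q y => Dp (0, ee q.2) (M p.1 q.1.1) y * N p.2 q.1.2 y) K1 :=
      PN.congr (Equiv.refl _) (sw _ _ _) b1 fun _ _ => rfl
    have b2' : PN r (I × I') ((J × J') × Fin d)
        (fun p q y => M p.1 q.1.1 y * Dp (0, ee q.2) (N p.2 q.1.2) y) K2 :=
      PN.congr (Equiv.refl _) (Equiv.prodAssoc _ _ _) b2 fun _ _ => rfl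
    exact PN.mono (PN.congr (Equiv.refl _) (Equiv.refl _)
      (PN.add (fun _ _ => (Dp_smooth (hM _ _) _).mul (hN _ _))
        (fun _ _ => (hM _ _).mul (Dp_smooth (hN _ _) _)) b1' b2')
      fun p q => Dp_mul (hM _ _) (hN _ _) _) hK

theorem PN.kron {r : ℕ} : ∀ {I J I' J' : Type} [Fintype I] [Fintype J] [Fintype I'] [Fintype J']
    {M : I → J → E d × E d → ℝ} {N : I' → J' → E d × E d → ℝ} {K K' : ℝ}, 0 ≤ K → 0 ≤ K' →
    (∀ i j, ContDiff ℝ ∞ (M i j)) → (∀ i j, ContDiff ℝ ∞ (N i j)) →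
    PN r I J M K → PN r I' J' N K' →
    PN r (I × I') (J × J') (fun p q y => M p.1 q.1 y * N p.2 q.2 y) (4 ^ r * (K * K')) := by
  induction r with
  | zero => intros; trivial
  | succ r ih =>
    intro I J I' J' _ _ _ _ M N K K' hK hK' hM hN h h'
    have h1 : (1 : ℝ) ≤ 4 ^ (r + 1) := one_le_pow₀ (by norm_num)
    have h2 : 0 ≤ K * K' := mul_nonneg hK hK'
    refine PN.leibniz hM hN ((h.1.kron hK h'.1).mono (by nlinarith))
      (ih hK hK' (fun (p : I × Fin d) j => Dp_smooth (hM p.1 j) _) hN h.2.1 h'.pred)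
      (ih hK hK' hM (fun (p : I' × Fin d) j => Dp_smooth (hN p.1 j) _) h.pred h'.2.1)
      (ih hK hK' (fun i (q : J × Fin d) => Dp_smooth (hM i q.1) _) hN h.2.2 h'.pred)
      (ih hK hK' hM (fun i (q : J' × Fin d) => Dp_smooth (hN i q.1) _) h.pred h'.2.2) ?_
    rw [pow_succ]; nlinarith

theorem PN.kron_van {r : ℕ} : ∀ {I J I' J' : Type} [Fintype I] [Fintype J] [Fintype I']
    [Fintype J'] {M : I → J → E d × E d → ℝ} {N : I' → J' → E d × E d → ℝ} {K K' : ℝ},
    0 ≤ K → 0 ≤ K' → (∀ i j, ContDiff ℝ ∞ (M i j)) → (∀ i j, ContDiff ℝ ∞ (N i j)) →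
    PN r I J M K → PN (r + 1) I' J' N K' → (∀ i j, N i j 0 = 0) →
    PN (r + 1) (I × I') (J × J') (fun p q y => M p.1 q.1 y * N p.2 q.2 y)
      (8 ^ (r + 1) * (K * K')) := by
  induction r with
  | zero =>
    intro I J I' J' _ _ _ _ M N K K' hK hK' hM hN h h' h0
    exact ⟨OB.zero (by positivity) fun _ _ => by simp [h0], trivial, trivial⟩
  | succ r ih =>
    intro I J I' J' _ _ _ _ M N K K' hK hK' hM hN h h' h0
    have h2 : 0 ≤ K * K' := mul_nonneg hK hK'
    have a1 := ih hK hK' (fun (p : I × Fin d) j => Dp_smooth (hM p.1 j) _) hN h.2.1 h'.pred h0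
    have a2 := PN.kron hK hK' hM (fun (p : I' × Fin d) j => Dp_smooth (hN p.1 j) _) h h'.2.1
    have b1 := ih hK hK' (fun i (q : J × Fin d) => Dp_smooth (hM i q.1) _) hN h.2.2 h'.pred h0
    have b2 := PN.kron hK hK' hM (fun i (q : J' × Fin d) => Dp_smooth (hN i q.1) _) h h'.2.2
    refine PN.leibniz hM hN (OB.zero (by positivity) fun _ _ => by simp [h0]) a1 a2 b1 b2 ?_
    have h3 : (4 : ℝ) ^ (r + 1) ≤ 8 ^ (r + 1) := pow_le_pow_left₀ (by norm_num) (by norm_num) _
    have h4 : (0 : ℝ) ≤ 8 ^ (r + 1) := by positivity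
    rw [pow_succ (8 : ℝ) (r + 1)]
    nlinarith [mul_le_mul_of_nonneg_right h3 h2, mul_nonneg h4 h2]

/-- the pairing of two families -/
noncomputable def BB (ν : Measure (E d)) (F G : E d → E d → ℝ) : E d × E d → ℝ :=
  fun p => ∫ x, F p.1 x * G p.2 x ∂ν

theorem Good.BB_smooth (hν : Good ν) {F G : E d → E d → ℝ} (hF : Cl π EG F) (hG : Cl π EG G) :
    ContDiff ℝ ∞ (BB ν F G) := (hν.integral_cl (hF.prod hG)).1

theorem Good.Dp_BB (hν : Good ν) {F G : E d → E d → ℝ} (hF : Cl π EG F) (hG : Cl π EG G)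
    (v w : E d) : Dp (v, w) (BB ν F G) =
      fun p => ∫ x, (Dv v F p.1 x * G p.2 x + F p.1 x * Dv w G p.2 x) ∂ν := by
  funext p
  refine ((hν.integral_cl (hF.prod hG)).2 p (v, w)).trans ?_
  refine integral_congr_ae (ae_of_all _ fun x => ?_)
  have h1 : HasFDerivAt (fun p : E d × E d => F p.1 x)
      ((fderiv ℝ (fun y => F y x) p.1).comp (ContinuousLinearMap.fst ℝ _ _)) p :=
    (hF.diff x p.1).hasFDerivAt.comp p hasFDerivAt_fst
  have h2 : HasFDerivAt (fun p : E d × E d => G p.2 x)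
      ((fderiv ℝ (fun y => G y x) p.2).comp (ContinuousLinearMap.snd ℝ _ _)) p :=
    (hG.diff x p.2).hasFDerivAt.comp p hasFDerivAt_snd
  simp only [Dv]
  rw [(h1.fun_mul h2).fderiv]
  simp only [add_apply, smul_apply, smul_eq_mul, ContinuousLinearMap.comp_apply,
    ContinuousLinearMap.coe_fst', ContinuousLinearMap.coe_snd']
  ring

theorem Dv_zero_dir (F : E d → E d → ℝ) : Dv (0 : E d) F = fun _ _ => 0 := by
  funext y x; simp [Dv]

theorem Good.cs (hν : Good ν) {f g : E d → ℝ} (hf : EG f) (hg : EG g) :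
    (∫ x, f x * g x ∂ν) ^ 2 ≤ (∫ x, f x ^ 2 ∂ν) * ∫ x, g x ^ 2 ∂ν := by
  have h : ∀ s : ℝ, 0 ≤ (∫ x, f x ^ 2 ∂ν) * (s * s) + (2 * ∫ x, f x * g x ∂ν) * s +
      ∫ x, g x ^ 2 ∂ν := by
    intro s
    have h1 : 0 ≤ ∫ x, (s * f x + g x) ^ 2 ∂ν := integral_nonneg fun x => sq_nonneg _
    have h2 : ∀ x, (s * f x + g x) ^ 2 = (s * s) * f x ^ 2 + (2 * s) * (f x * g x) + g x ^ 2 :=
      fun x => by ring
    simp only [h2] at h1
    rw [integral_add (hν.integ _ (((EG.const _).mul hf.sq).add ((EG.const _).mul (hf.mul hg))))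
      (hν.integ _ hg.sq), integral_add (hν.integ _ ((EG.const _).mul hf.sq))
      (hν.integ _ ((EG.const _).mul (hf.mul hg))), integral_const_mul, integral_const_mul] at h1
    linarith
  have := discrim_le_zero h
  rw [discrim] at this
  nlinarith

theorem PN_BB (hν : Good ν) {r : ℕ} : ∀ {I J : Type} [Fintype I] [Fintype J]
    {F : I → E d → E d → ℝ} {G : J → E d → E d → ℝ} {K K' : ℝ}, 0 ≤ K → 0 ≤ K' →
    (∀ i, Cl π EG (F i)) → (∀ j, Cl π EG (G j)) → VN ν r I Unit (fun i _ => F i) K →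
    VN ν r J Unit (fun j _ => G j) K' → PN r I J (fun i j => BB ν (F i) (G j)) (K * K') := by
  induction r with
  | zero => intros; trivial
  | succ r ih =>
    intro I J _ _ F G K K' hK hK' hF hG h h'
    refine ⟨OB.of_bilin (mul_nonneg hK hK') fun A B => ?_, ?_, ?_⟩
    · have e1 := eg_comb hF A
      have e2 := eg_comb hG B
      have h1 := h.1 A
      have h2 := h'.1 B
      simp only [Finset.univ_unique, Finset.sum_singleton] at h1 h2
      have h3 : ∑ j, B j * ∑ i, A i * BB ν (F i) (G j) 0 =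
          ∫ x, (∑ i, A i * F i 0 x) * ∑ j, B j * G j 0 x ∂ν := by
        have e3 : ∀ i j, EG fun x => B j * (A i * (F i 0 x * G j 0 x)) := fun i j =>
          (EG.const _).mul ((EG.const _).mul (((hF i).eg 0).mul ((hG j).eg 0)))
        simp only [BB, Finset.mul_sum, ← integral_const_mul, Prod.fst_zero, Prod.snd_zero]
        simp only [fun j => (integral_finsetSum Finset.univ fun i _ => hν.integ _ (e3 i j)).symm]
        rw [← integral_finsetSum _ fun j _ => hν.integ _ (EG.sum _ fun i _ => e3 i j)]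
        refine integral_congr_ae (ae_of_all _ fun x => ?_)
        refine Finset.sum_congr rfl fun j _ => ?_
        rw [Finset.sum_mul]
        exact Finset.sum_congr rfl fun i _ => by ring
      rw [h3]
      refine (hν.cs e1 e2).trans ?_
      calc _ ≤ (K * ∑ i, A i ^ 2) * (K' * ∑ j, B j ^ 2) :=
            mul_le_mul h1 h2 (integral_nonneg fun x => sq_nonneg _)
              (mul_nonneg hK (sum_sq_nonneg _))
        _ = _ := by ring
    · refine PN.congr (Equiv.refl _) (Equiv.refl _)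
        (ih hK hK' (fun p : I × Fin d => (hF p.1).dv0 (ee p.2)) hG h.2 h'.pred) fun p j => ?_
      rw [hν.Dp_BB (hF _) (hG _), Dv_zero_dir]
      funext y
      simp [BB]
    · refine PN.congr (Equiv.refl _) (Equiv.refl _)
        (ih hK hK' hF (fun p : J × Fin d => (hG p.1).dv0 (ee p.2)) h.pred h'.2) fun p j => ?_
      rw [hν.Dp_BB (hF _) (hG _), Dv_zero_dir]
      funext y
      simp [BB]

/-- constants for the quotient -/
def Ku (Kn Km : ℕ → ℝ) : ℕ → ℝ
  | 0 => 0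
  | r + 1 => 2 * Kn (r + 1) + 2 * (8 ^ (r + 1) * (Ku Kn Km r * Km (r + 1)))

theorem Ku_nonneg {Kn Km : ℕ → ℝ} (hn : ∀ r, 0 ≤ Kn r) (hm : ∀ r, 0 ≤ Km r) (r : ℕ) :
    0 ≤ Ku Kn Km r := by
  induction r with
  | zero => exact le_rfl
  | succ r ih =>
    have := hn (r + 1)
    have := hm (r + 1)
    rw [Ku]; positivity

theorem PN_quot {J : Type} [Fintype J] {U N : J → E d × E d → ℝ} {M : E d × E d → ℝ}
    {Kn Km : ℕ → ℝ} (hn : ∀ r, 0 ≤ Kn r) (hm : ∀ r, 0 ≤ Km r) {L : ℝ} (hL : 0 ≤ L)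
    (hU : ∀ j, ContDiff ℝ ∞ (U j)) (hN : ∀ j, ContDiff ℝ ∞ (N j)) (hM : ContDiff ℝ ∞ M)
    (h0 : M 0 = 1) (h : ∀ j p, N j p = U j p * M p)
    (hPN : ∀ r, PN r Unit J (fun _ j => N j) (L * Kn r))
    (hPM : ∀ r, PN r Unit Unit (fun _ _ => M) (Km r)) (r : ℕ) :
    PN r Unit J (fun _ j => U j) (L * Ku Kn Km r) := by
  induction r with
  | zero => trivial
  | succ r ih =>
    have hV : PN (r + 1) Unit Unit (fun _ _ p => 1 - M p) (Km (r + 1)) :=
      ⟨OB.zero (hm _) fun _ _ => by simp [h0],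
        PN.congr (Equiv.refl _) (Equiv.refl _) (hPM (r + 1)).2.1.neg fun _ _ => Dp_const_sub _ _ _,
        PN.congr (Equiv.refl _) (Equiv.refl _) (hPM (r + 1)).2.2.neg fun _ _ => Dp_const_sub _ _ _⟩
    have h1 := PN.kron_van (mul_nonneg hL (Ku_nonneg hn hm r)) (hm _) (fun _ j => hU j)
      (fun _ _ => contDiff_const.sub hM) ih hV (fun _ _ => by simp [h0])
    have h2 : PN (r + 1) Unit J (fun _ j p => U j p * (1 - M p)) _ :=
      PN.congr (Equiv.prodPUnit _).symm (Equiv.prodPUnit _).symm h1 fun _ _ => rfl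
    have h3 := PN.add (fun _ j => hN j) (fun _ j => (hU j).mul (contDiff_const.sub hM))
      (hPN (r + 1)) h2
    refine PN.mono (PN.congr (Equiv.refl _) (Equiv.refl _) h3 fun _ j => ?_) (le_of_eq ?_)
    · funext p
      simp only [Equiv.refl_apply, h]
      ring
    · rw [Ku]; ring

end Vale.Agent.P347.Tens
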